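import Vale.Agent.P154H.Defs

/-!
Multiplicative (Hellinger) functionals on the regular tree and data processing.
-/

open Finset BigOperators Filter Topology

namespace Vale.Agent.P154

lemma r8_nonneg (x : ℝ) : 0 ≤ r8 x := Real.sqrt_nonneg _

lemma r8_pow (x : ℝ) (hx : 0 ≤ x) : r8 x ^ 8 = x := by
  unfold r8
  have h1 := Real.sq_sqrt hx
  have h2 := Real.sq_sqrt (Real.sqrt_nonneg x)
  have h3 := Real.sq_sqrt (Real.sqrt_nonneg (Real.sqrt x))
  calc Real.sqrt (Real.sqrt (Real.sqrt x)) ^ 8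
      = ((Real.sqrt (Real.sqrt (Real.sqrt x)) ^ 2) ^ 2) ^ 2 := by ring
    _ = x := by rw [h3, h2, h1]

lemma r8_mul (x y : ℝ) (hx : 0 ≤ x) (hy : 0 ≤ y) : r8 (x * y) = r8 x * r8 y := by
  unfold r8
  rw [Real.sqrt_mul hx, Real.sqrt_mul (Real.sqrt_nonneg _), Real.sqrt_mul (Real.sqrt_nonneg _)]

lemma r8_one : r8 1 = 1 := by simp [r8]

lemma r8_prod {ι : Type*} (s : Finset ι) (f : ι → ℝ) (hf : ∀ i ∈ s, 0 ≤ f i) :
    r8 (∏ i ∈ s, f i) = ∏ i ∈ s, r8 (f i) := by
  classical
  induction s using Finset.induction_on with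
  | empty => simp [r8_one]
  | insert a s ha ih =>
    rw [Finset.prod_insert ha, Finset.prod_insert ha,
      r8_mul _ _ (hf a (Finset.mem_insert_self a s))
        (Finset.prod_nonneg fun i hi => hf i (Finset.mem_insert_of_mem hi)),
      ih fun i hi => hf i (Finset.mem_insert_of_mem hi)]

lemma Gm_nonneg (m : Fin 3 → ℕ) (x : Fin 3 → ℝ) : 0 ≤ Gm m x :=
  Finset.prod_nonneg fun i _ => pow_nonneg (r8_nonneg _) _

lemma Gm_mul (m : Fin 3 → ℕ) (a b : Fin 3 → ℝ) (ha : ∀ i, 0 ≤ a i) (hb : ∀ i, 0 ≤ b i) :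
    Gm m (fun i => a i * b i) = Gm m a * Gm m b := by
  unfold Gm
  rw [← Finset.prod_mul_distrib]
  refine Finset.prod_congr rfl fun i _ => ?_
  rw [r8_mul _ _ (ha i) (hb i), mul_pow]

lemma Gm_smul (m : Fin 3 → ℕ) (hm : ∑ i, m i = 8) (c : ℝ) (hc : 0 ≤ c) (x : Fin 3 → ℝ)
    (hx : ∀ i, 0 ≤ x i) : Gm m (fun i => c * x i) = c * Gm m x := by
  rw [Gm_mul m (fun _ => c) x (fun _ => hc) hx]
  congr 1
  unfold Gm
  rw [Finset.prod_pow_eq_pow_sum, hm, r8_pow c hc]

lemma Gm_comp (m : Fin 3 → ℕ) (g : Equiv.Perm (Fin 3)) (x : Fin 3 → ℝ) :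
    Gm m (fun i => x (g i)) = Gm (m ∘ ⇑g⁻¹) x := by
  unfold Gm
  rw [← Equiv.prod_comp g (fun j => r8 (x j) ^ (m ∘ ⇑g⁻¹) j)]
  refine Finset.prod_congr rfl fun i _ => ?_
  simp

lemma Gm_prod (m : Fin 3 → ℕ) {ι : Type*} (s : Finset ι) (a : ι → Fin 3 → ℝ)
    (ha : ∀ c ∈ s, ∀ i, 0 ≤ a c i) :
    Gm m (fun i => ∏ c ∈ s, a c i) = ∏ c ∈ s, Gm m (a c) := by
  unfold Gm
  rw [Finset.prod_comm]
  refine Finset.prod_congr rfl fun i _ => ?_
  rw [r8_prod s (fun c => a c i) (fun c hc => ha c hc i), ← Finset.prod_pow]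

/-- Sum over permutations of a value at a fixed point. -/
lemma sum_perm_applyH (w : Fin 3 → ℝ) (i : Fin 3) :
    ∑ g : Equiv.Perm (Fin 3), w (g i) = 2 * ∑ j, w j := by
  have hc : ∀ i j : Fin 3,
      (Finset.univ.filter fun g : Equiv.Perm (Fin 3) => g i = j).card = 2 := by decide
  have h1 : ∀ g : Equiv.Perm (Fin 3), w (g i) = ∑ j, if g i = j then w j else 0 := by
    intro g
    simp
  simp only [h1]
  rw [Finset.sum_comm, Finset.mul_sum]
  refine Finset.sum_congr rfl fun j _ => ?_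
  rw [Finset.sum_ite, Finset.sum_const, Finset.sum_const_zero, add_zero, hc i j]
  simp

lemma sum_perm_inv_apply (w : Fin 3 → ℝ) (i : Fin 3) :
    ∑ g : Equiv.Perm (Fin 3), w (g⁻¹ i) = 2 * ∑ j, w j := by
  rw [← sum_perm_applyH w i]
  exact Equiv.sum_comp (Equiv.inv (Equiv.Perm (Fin 3))) (fun g : Equiv.Perm (Fin 3) => w (g i))

lemma card_perm_three : (Finset.univ : Finset (Equiv.Perm (Fin 3))).card = 6 := by
  rw [Finset.card_univ, Fintype.card_perm, Fintype.card_fin]
  rfl

lemma GS_eq_avg (m : Fin 3 → ℕ) (x : Fin 3 → ℝ) :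
    GS m x = (1 / 6) * ∑ g : Equiv.Perm (Fin 3), Gm m (fun i => x (g i)) := by
  unfold GS
  congr 1
  simp only [Gm_comp]
  exact (Equiv.sum_comp (Equiv.inv (Equiv.Perm (Fin 3))) (fun g : Equiv.Perm (Fin 3) => Gm (m ∘ ⇑g) x)).symm

variable {d : ℕ} {lam : ℝ}

lemma potts_nonneg_le (h0 : -(1 / 2) ≤ lam) (h1 : lam ≤ 1) (i j : Fin 3) :
    0 ≤ potts 3 lam i j := by
  unfold potts
  push_cast
  split_ifs <;> linarith

lemma leafLik_nonneg_le (h0 : -(1 / 2) ≤ lam) (h1 : lam ≤ 1) (n : ℕ) (i : Fin 3) (η : Cfg d n) :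
    0 ≤ leafLik 3 d lam n i η := by
  induction n generalizing i with
  | zero =>
    unfold leafLik
    split_ifs <;> norm_num
  | succ n ih =>
    rw [leafLik_succ]
    refine Finset.prod_nonneg fun c _ => Finset.sum_nonneg fun j _ => ?_
    exact mul_nonneg (potts_nonneg_le h0 h1 i j) (ih _ _)

/-- Independence of the subtrees. -/
theorem Hn_succ (h0 : -(1 / 2) < lam) (h1 : lam < 1) (n : ℕ) (m : Fin 3 → ℕ) :
    Hn d lam (n + 1) m = En d lam n m ^ d := by
  unfold Hn En
  rw [← (cfgEquiv d n).symm.sum_comp]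
  have e1 : ∀ f : Fin d → Cfg d n,
      Gm m (fun i => leafLik 3 d lam (n + 1) i ((cfgEquiv d n).symm f))
        = ∏ c, Gm m (fun i => ∑ j, potts 3 lam i j * leafLik 3 d lam n j (f c)) := by
    intro f
    have e2 : (fun i => leafLik 3 d lam (n + 1) i ((cfgEquiv d n).symm f))
        = fun i => ∏ c, ∑ j, potts 3 lam i j * leafLik 3 d lam n j (f c) := by
      funext i
      rw [leafLik_succ]
      simp only [Equiv.apply_symm_apply]
    rw [e2]
    refine Gm_prod m Finset.univ _ fun c _ i => Finset.sum_nonneg fun j _ => ?_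
    exact mul_nonneg (potts_nonneg_le h0.le h1.le i j) (leafLik_nonneg_le h0.le h1.le n j _)
  simp only [e1]
  have e3 := (Finset.prod_univ_sum (fun _ : Fin d => (Finset.univ : Finset (Cfg d n)))
    (fun (_ : Fin d) ξ => Gm m (fun i => ∑ j, potts 3 lam i j * leafLik 3 d lam n j ξ))).symm
  rw [Fintype.piFinset_univ] at e3
  rw [e3]
  simp

lemma one_add_nonneg_of_yn (h0 : -(1 / 2) < lam) (h1 : lam < 1) (n : ℕ) (η : Cfg d n) (i : Fin 3) :
    0 ≤ 1 + yn d lam n η i := by
  have := NegT.yn_ge h0 h1 n η i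
  linarith

lemma one_add_lam_nonneg_of_yn (h0 : -(1 / 2) < lam) (h1 : lam < 1) (n : ℕ) (η : Cfg d n)
    (i : Fin 3) : 0 ≤ 1 + lam * yn d lam n η i := by
  have hy := NegT.yn_ge h0 h1 n η i
  have hs := NegT.yn_sum h0 h1 n η
  have h2 := y_le_two hs (NegT.yn_ge h0 h1 n η) i
  rcases le_total 0 lam with hl | hl
  · nlinarith
  · nlinarith

/-- Symmetrisation under the law. -/
lemma sum_pn_GS (n : ℕ) (m : Fin 3 → ℕ) (c : ℝ) :
    ∑ η : Cfg d n, pn d lam n η * GS m (fun i => 1 + c * yn d lam n η i)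
      = ∑ η : Cfg d n, pn d lam n η * Gm m (fun i => 1 + c * yn d lam n η i) := by
  have hg : ∀ g : Equiv.Perm (Fin 3),
      ∑ η : Cfg d n, pn d lam n η * Gm m (fun i => 1 + c * yn d lam n η (g i))
        = ∑ η : Cfg d n, pn d lam n η * Gm m (fun i => 1 + c * yn d lam n η i) := fun g =>
    (law_sym n g (fun y => Gm m (fun i => 1 + c * y i))).symm
  simp only [GS_eq_avg]
  calc ∑ η : Cfg d n, pn d lam n η * ((1 / 6) * ∑ g : Equiv.Perm (Fin 3),
        Gm m (fun i => 1 + c * yn d lam n η (g i)))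
      = (1 / 6) * ∑ g : Equiv.Perm (Fin 3), ∑ η : Cfg d n,
          pn d lam n η * Gm m (fun i => 1 + c * yn d lam n η (g i)) := by
        rw [Finset.sum_comm, Finset.mul_sum]
        refine Finset.sum_congr rfl fun η _ => ?_
        rw [Finset.mul_sum, Finset.mul_sum, Finset.mul_sum]
        refine Finset.sum_congr rfl fun g _ => ?_
        ring
    _ = _ := by
        simp only [hg]
        rw [Finset.sum_const, card_perm_three]
        simp only [nsmul_eq_mul]
        push_cast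
        ring

/-- The Hellinger sum as an expectation under the marginal law. -/
theorem Hn_eq (h0 : -(1 / 2) < lam) (h1 : lam < 1) (n : ℕ) (m : Fin 3 → ℕ)
    (hm : ∑ i, m i = 8) :
    Hn d lam n m = ∑ η : Cfg d n, pn d lam n η * GS m (fun i => 1 + yn d lam n η i) := by
  have h := sum_pn_GS (d := d) (lam := lam) n m 1
  simp only [one_mul] at h
  rw [h]
  unfold Hn
  refine Finset.sum_congr rfl fun η _ => ?_
  have hS := NegT.Sn_pos h0 h1 n η
  have e : (fun i => leafLik 3 d lam n i η) = fun i => pn d lam n η * (1 + yn d lam n η i) := by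
    funext i
    unfold pn yn
    field_simp
    ring
  rw [e]
  exact Gm_smul m hm _ (NegT.pn_nonneg h0 h1 n η) _ (one_add_nonneg_of_yn h0 h1 n η)

theorem En_eq (h0 : -(1 / 2) < lam) (h1 : lam < 1) (n : ℕ) (m : Fin 3 → ℕ)
    (hm : ∑ i, m i = 8) :
    En d lam n m
      = ∑ η : Cfg d n, pn d lam n η * GS m (fun i => 1 + lam * yn d lam n η i) := by
  rw [sum_pn_GS]
  unfold En
  refine Finset.sum_congr rfl fun η _ => ?_
  have e : (fun i => ∑ j, potts 3 lam i j * leafLik 3 d lam n j η)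
      = fun i => pn d lam n η * (1 + lam * yn d lam n η i) := by
    funext i
    exact NegT.message h0 h1 n η i
  rw [e]
  exact Gm_smul m hm _ (NegT.pn_nonneg h0 h1 n η) _ (one_add_lam_nonneg_of_yn h0 h1 n η)

/-- Weighted AM-GM: on the simplex `x ≥ 0`, `∑ x = 3`, the functional lies in `[0,1]`. -/
theorem GS_nonneg (m : Fin 3 → ℕ) (x : Fin 3 → ℝ) (_hx : ∀ i, 0 ≤ x i) : 0 ≤ GS m x := by
  unfold GS
  exact mul_nonneg (by norm_num) (Finset.sum_nonneg fun g _ => Gm_nonneg _ _)

lemma Gm_le (m : Fin 3 → ℕ) (hm : ∑ i, m i = 8) (x : Fin 3 → ℝ) (hx : ∀ i, 0 ≤ x i) :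
    Gm m x ≤ ∑ i, ((m i : ℝ) / 8) * x i := by
  have hw' : ∑ i, ((m i : ℝ) / 8) = 1 := by
    rw [← Finset.sum_div, ← Nat.cast_sum, hm]
    norm_num
  have key := Real.geom_mean_le_arith_mean_weighted Finset.univ (fun i => (m i : ℝ) / 8) x
    (fun i _ => by positivity) hw' (fun i _ => hx i)
  refine le_trans (le_of_eq ?_) key
  unfold Gm
  refine Finset.prod_congr rfl fun i _ => ?_
  have ha := r8_nonneg (x i)
  conv_rhs => rw [← r8_pow (x i) (hx i)]
  rw [← Real.rpow_natCast (r8 (x i)) 8, ← Real.rpow_mul ha]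
  have e : ((8 : ℕ) : ℝ) * ((m i : ℝ) / 8) = (m i : ℝ) := by
    push_cast; ring
  rw [e, Real.rpow_natCast]

theorem GS_le_one (m : Fin 3 → ℕ) (hm : ∑ i, m i = 8) (x : Fin 3 → ℝ) (hx : ∀ i, 0 ≤ x i)
    (hs : ∑ i, x i = 3) : GS m x ≤ 1 := by
  rw [GS_eq_avg]
  have h1 : ∀ g : Equiv.Perm (Fin 3), Gm m (fun i => x (g i))
      ≤ ∑ i, ((m i : ℝ) / 8) * x (g i) := fun g => Gm_le m hm _ fun i => hx _
  have h2 : ∑ g : Equiv.Perm (Fin 3), ∑ i, ((m i : ℝ) / 8) * x (g i) = 6 := by
    rw [Finset.sum_comm]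
    have h3 : ∀ i : Fin 3, ∑ g : Equiv.Perm (Fin 3), ((m i : ℝ) / 8) * x (g i)
        = ((m i : ℝ) / 8) * 6 := by
      intro i
      rw [← Finset.mul_sum, sum_perm_applyH x i, hs]
      norm_num
    simp only [h3]
    rw [← Finset.sum_mul, ← Finset.sum_div, ← Nat.cast_sum, hm]
    norm_num
  have h4 := Finset.sum_le_sum fun (g : Equiv.Perm (Fin 3)) (_ : g ∈ Finset.univ) => h1 g
  rw [h2] at h4
  linarith

/-- Symmetry of the functional. -/
theorem GS_perm (m : Fin 3 → ℕ) (g : Equiv.Perm (Fin 3)) (x : Fin 3 → ℝ) :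
    GS m (x ∘ g) = GS m x := by
  rw [GS_eq_avg, GS_eq_avg]
  congr 1
  simp only [Function.comp]
  exact Equiv.sum_comp (Equiv.mulLeft g) (fun h : Equiv.Perm (Fin 3) => Gm m (fun i => x (h i)))

/-- Bounds: `0 ≤ Hn ≤ 1`. -/
theorem Hn_bounds (h0 : -(1 / 2) < lam) (h1 : lam < 1) (n : ℕ) (m : Fin 3 → ℕ)
    (hm : ∑ i, m i = 8) : 0 ≤ Hn d lam n m ∧ Hn d lam n m ≤ 1 := by
  constructor
  · exact Finset.sum_nonneg fun η _ => Gm_nonneg _ _
  · rw [Hn_eq h0 h1 n m hm]
    calc ∑ η : Cfg d n, pn d lam n η * GS m (fun i => 1 + yn d lam n η i)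
        ≤ ∑ η : Cfg d n, pn d lam n η * 1 := by
          refine Finset.sum_le_sum fun η _ => mul_le_mul_of_nonneg_left ?_ (NegT.pn_nonneg h0 h1 n η)
          refine GS_le_one m hm _ (one_add_nonneg_of_yn h0 h1 n η) ?_
          rw [Finset.sum_add_distrib, NegT.yn_sum h0 h1 n η]
          simp
      _ = 1 := by
          simp only [mul_one]
          exact sum_pn n

/-! ### Data processing -/

/-- Subadditive and homogeneous on the nonnegative orthant. -/
structure SubH (F : (Fin 3 → ℝ) → ℝ) : Prop where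
  add : ∀ x y : Fin 3 → ℝ, (∀ i, 0 ≤ x i) → (∀ i, 0 ≤ y i) → F (x + y) ≤ F x + F y
  smul : ∀ (c : ℝ) (x : Fin 3 → ℝ), 0 ≤ c → (∀ i, 0 ≤ x i) → F (c • x) = c * F x

/-- The sum of `F` over the observations at depth `n`. -/
noncomputable def Un (d : ℕ) (lam : ℝ) (n : ℕ) (F : (Fin 3 → ℝ) → ℝ) : ℝ :=
  ∑ η : Cfg d n, F (fun i => leafLik 3 d lam n i η)

lemma SubH.zero {F : (Fin 3 → ℝ) → ℝ} (hF : SubH F) : F 0 = 0 := by
  have := hF.smul 0 0 le_rfl (fun _ => le_rfl)
  simpa using this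

lemma SubH.sum_le {F : (Fin 3 → ℝ) → ℝ} (hF : SubH F) {Y : Type*} (s : Finset Y) (c : Y → ℝ)
    (v : Y → Fin 3 → ℝ) (hc : ∀ y ∈ s, 0 ≤ c y) (hv : ∀ y ∈ s, ∀ i, 0 ≤ v y i) :
    F (fun i => ∑ y ∈ s, c y * v y i) ≤ ∑ y ∈ s, c y * F (v y) := by
  classical
  induction s using Finset.induction_on with
  | empty =>
    have : (fun _ : Fin 3 => ∑ y ∈ (∅ : Finset Y), c y * v y 0) = 0 := by
      funext i; simp
    simp only [Finset.sum_empty]
    have h0 := hF.zero
    have e : (fun _ : Fin 3 => (0 : ℝ)) = 0 := rfl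
    rw [e, h0]
  | insert a s ha ih =>
    have hca := hc a (Finset.mem_insert_self a s)
    have hva := hv a (Finset.mem_insert_self a s)
    have hc' : ∀ y ∈ s, 0 ≤ c y := fun y hy => hc y (Finset.mem_insert_of_mem hy)
    have hv' : ∀ y ∈ s, ∀ i, 0 ≤ v y i := fun y hy => hv y (Finset.mem_insert_of_mem hy)
    have e : (fun i => ∑ y ∈ insert a s, c y * v y i)
        = (c a • v a) + fun i => ∑ y ∈ s, c y * v y i := by
      funext i
      rw [Finset.sum_insert ha]
      rfl
    rw [e, Finset.sum_insert ha]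
    have h1 := hF.add (c a • v a) (fun i => ∑ y ∈ s, c y * v y i)
      (fun i => by simpa using mul_nonneg hca (hva i))
      (fun i => Finset.sum_nonneg fun y hy => mul_nonneg (hc' y hy) (hv' y hy i))
    rw [hF.smul _ _ hca hva] at h1
    have h2 := ih hc' hv'
    linarith

section deg

variable {X Y : Type*} [Fintype X] [Fintype Y]

/-- `K1` is a stochastic image of `K2`. -/
def Deg (K1 : X → Fin 3 → ℝ) (K2 : Y → Fin 3 → ℝ) : Prop :=
  ∃ M : Y → X → ℝ, (∀ y x, 0 ≤ M y x) ∧ (∀ y, ∑ x, M y x = 1) ∧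
    ∀ x i, K1 x i = ∑ y, M y x * K2 y i

lemma Deg.sum_le {K1 : X → Fin 3 → ℝ} {K2 : Y → Fin 3 → ℝ} (h : Deg K1 K2)
    (hK2 : ∀ y i, 0 ≤ K2 y i) {F : (Fin 3 → ℝ) → ℝ} (hF : SubH F) :
    ∑ x, F (K1 x) ≤ ∑ y, F (K2 y) := by
  obtain ⟨M, hM0, hM1, hM⟩ := h
  have h1 : ∀ x, F (K1 x) ≤ ∑ y, M y x * F (K2 y) := by
    intro x
    have e : K1 x = fun i => ∑ y, M y x * K2 y i := by
      funext i; exact hM x i
    rw [e]
    exact hF.sum_le Finset.univ (fun y => M y x) K2 (fun y _ => hM0 y x) (fun y _ => hK2 y)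
  calc ∑ x, F (K1 x) ≤ ∑ x, ∑ y, M y x * F (K2 y) := Finset.sum_le_sum fun x _ => h1 x
    _ = ∑ y, F (K2 y) := by
      rw [Finset.sum_comm]
      refine Finset.sum_congr rfl fun y _ => ?_
      rw [← Finset.sum_mul, hM1, one_mul]

end deg

/-- Product step for the stochastic images along the tree. -/
lemma deg_succ {n1 n2 : ℕ} (M' : Cfg d n2 → Cfg d n1 → ℝ) (hM0 : ∀ y x, 0 ≤ M' y x)
    (hM1 : ∀ y, ∑ x, M' y x = 1) (A1 : Fin 3 → Cfg d n1 → ℝ) (A2 : Fin 3 → Cfg d n2 → ℝ)
    (hA : ∀ i x, A1 i x = ∑ y, M' y x * A2 i y) :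
    Deg (fun (η : Cfg d (n1 + 1)) i => ∏ c, A1 i (cfgEquiv d n1 η c))
      (fun (η : Cfg d (n2 + 1)) i => ∏ c, A2 i (cfgEquiv d n2 η c)) := by
  classical
  refine ⟨fun η' η => ∏ c, M' (cfgEquiv d n2 η' c) (cfgEquiv d n1 η c), ?_, ?_, ?_⟩
  · intro y x
    exact Finset.prod_nonneg fun c _ => hM0 _ _
  · intro η'
    rw [← (cfgEquiv d n1).symm.sum_comp]
    simp only [Equiv.apply_symm_apply]
    have e3 := (Finset.prod_univ_sum (fun _ : Fin d => (Finset.univ : Finset (Cfg d n1)))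
      (fun (c : Fin d) ξ => M' (cfgEquiv d n2 η' c) ξ)).symm
    rw [Fintype.piFinset_univ] at e3
    rw [e3]
    simp [hM1]
  · intro η i
    simp only [hA]
    rw [Finset.prod_univ_sum, Fintype.piFinset_univ, ← (cfgEquiv d n2).symm.sum_comp]
    refine Finset.sum_congr rfl fun f _ => ?_
    simp only [Equiv.apply_symm_apply]
    rw [Finset.prod_mul_distrib]

/-- Scaling the eigenvalue is a stochastic image. -/
lemma deg_scale (h0 : -(1 / 2) ≤ lam) (h1 : lam ≤ 1) (θ : ℝ) (hθ0 : 0 ≤ θ) (hθ1 : θ ≤ 1) (n : ℕ) :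
    Deg (fun (η : Cfg d n) i => leafLik 3 d (θ * lam) n i η)
      (fun (η : Cfg d n) i => leafLik 3 d lam n i η) := by
  classical
  induction n with
  | zero =>
    refine ⟨fun y x => if y = x then 1 else 0, ?_, ?_, ?_⟩
    · intro y x
      dsimp only
      split_ifs <;> norm_num
    · intro y
      simp
    · intro x i
      change leafLik 3 d (θ * lam) 0 i x
        = ∑ y, (if y = x then (1 : ℝ) else 0) * leafLik 3 d lam 0 i y
      rw [Finset.sum_eq_single x]
      · simp [leafLik]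
      · intro b _ hb
        simp [hb]
      · simp
  | succ n ih =>
    obtain ⟨M, hM0, hM1, hM⟩ := ih
    set A : Fin 3 → Cfg d n → ℝ :=
      fun i ξ => ∑ j, potts 3 lam i j * leafLik 3 d lam n j ξ with hAdef
    set M' : Cfg d n → Cfg d n → ℝ := fun y x =>
      θ * M y x + (1 - θ) * ((1 / 6) * ∑ g : Equiv.Perm (Fin 3), M (fun w => g⁻¹ (y w)) x) with hM'
    have hM'0 : ∀ y x, 0 ≤ M' y x := by
      intro y x
      have h2 : 0 ≤ ∑ g : Equiv.Perm (Fin 3), M (fun w => g⁻¹ (y w)) x :=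
        Finset.sum_nonneg fun g _ => hM0 _ _
      have h3 := hM0 y x
      have h4 : 0 ≤ 1 - θ := by linarith
      simp only [hM']
      positivity
    have hM'1 : ∀ y, ∑ x, M' y x = 1 := by
      intro y
      simp only [hM']
      rw [Finset.sum_add_distrib, ← Finset.mul_sum, hM1, ← Finset.mul_sum, ← Finset.mul_sum,
        Finset.sum_comm]
      simp only [hM1, Finset.sum_const, card_perm_three, nsmul_eq_mul]
      push_cast
      ring
    -- the averaged message
    have hS : ∀ (i : Fin 3) (y : Cfg d n),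
        ∑ j, potts 3 (θ * lam) i j * leafLik 3 d lam n j y
          = θ * A i y + (1 - θ) * ((1 / 6) * ∑ g : Equiv.Perm (Fin 3), A i (fun w => g (y w))) := by
      intro i y
      have hlik : ∀ (g : Equiv.Perm (Fin 3)) (j : Fin 3),
          leafLik 3 d lam n j (fun w => g (y w)) = leafLik 3 d lam n (g⁻¹ j) y := by
        intro g j
        have := leafLik_perm (d := d) (lam := lam) g n (g⁻¹ j) y
        rw [show g (g⁻¹ j) = j by simp] at this
        exact this
      have hsum : ∀ g : Equiv.Perm (Fin 3),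
          ∑ j, leafLik 3 d lam n (g⁻¹ j) y = ∑ j, leafLik 3 d lam n j y := fun g =>
        Equiv.sum_comp g⁻¹ (fun j => leafLik 3 d lam n j y)
      have hAg : ∀ g : Equiv.Perm (Fin 3), A i (fun w => g (y w))
          = lam * leafLik 3 d lam n (g⁻¹ i) y
            + (1 - lam) / 3 * ∑ j, leafLik 3 d lam n j y := by
        intro g
        simp only [hAdef]
        rw [potts_sum]
        simp only [hlik, hsum]
      have hav : (1 / 6 : ℝ) * ∑ g : Equiv.Perm (Fin 3), A i (fun w => g (y w))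
          = (1 / 3) * ∑ j, leafLik 3 d lam n j y := by
        simp only [hAg]
        rw [Finset.sum_add_distrib, ← Finset.mul_sum,
          sum_perm_inv_apply (fun j => leafLik 3 d lam n j y) i, Finset.sum_const, card_perm_three]
        simp only [nsmul_eq_mul]
        push_cast
        ring
      rw [hav]
      simp only [hAdef]
      rw [potts_sum, potts_sum]
      ring
    have hA : ∀ i x, (∑ j, potts 3 (θ * lam) i j * leafLik 3 d (θ * lam) n j x)
        = ∑ y, M' y x * A i y := by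
      intro i x
      have hM2 : ∀ j, leafLik 3 d (θ * lam) n j x = ∑ y, M y x * leafLik 3 d lam n j y :=
        fun j => hM x j
      have e1 : ∑ j, potts 3 (θ * lam) i j * leafLik 3 d (θ * lam) n j x
          = ∑ y, M y x * ∑ j, potts 3 (θ * lam) i j * leafLik 3 d lam n j y := by
        simp only [hM2, Finset.mul_sum]
        rw [Finset.sum_comm]
        refine Finset.sum_congr rfl fun y _ => Finset.sum_congr rfl fun j _ => ?_
        ring
      rw [e1]
      simp only [hS, hM']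
      have e2 : ∀ g : Equiv.Perm (Fin 3),
          ∑ y, M (fun w => g⁻¹ (y w)) x * A i y = ∑ y, M y x * A i (fun w => g (y w)) := by
        intro g
        rw [← (cfgPerm d n g).sum_comp]
        refine Finset.sum_congr rfl fun y _ => ?_
        have : (fun w => g⁻¹ ((cfgPerm d n g) y w)) = y := by
          funext w
          change g⁻¹ (g (y w)) = y w
          simp
        rw [this]
        rfl
      have l1 : ∀ y, M y x * (θ * A i y
            + (1 - θ) * ((1 / 6) * ∑ g : Equiv.Perm (Fin 3), A i (fun w => g (y w))))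
          = θ * (M y x * A i y)
            + ((1 - θ) * (1 / 6)) * ∑ g : Equiv.Perm (Fin 3), M y x * A i (fun w => g (y w)) := by
        intro y
        rw [← Finset.mul_sum]
        ring
      have r1 : ∀ y, (θ * M y x
            + (1 - θ) * ((1 / 6) * ∑ g : Equiv.Perm (Fin 3), M (fun w => g⁻¹ (y w)) x)) * A i y
          = θ * (M y x * A i y)
            + ((1 - θ) * (1 / 6)) * ∑ g : Equiv.Perm (Fin 3), M (fun w => g⁻¹ (y w)) x * A i y := by
        intro y
        rw [← Finset.sum_mul]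
        ring
      rw [Finset.sum_congr rfl (fun y _ => l1 y), Finset.sum_congr rfl (fun y _ => r1 y),
        Finset.sum_add_distrib, Finset.sum_add_distrib, ← Finset.mul_sum, ← Finset.mul_sum,
        ← Finset.mul_sum, Finset.sum_comm,
        Finset.sum_comm (f := fun y (g : Equiv.Perm (Fin 3)) => M (fun w => g⁻¹ (y w)) x * A i y)]
      simp only [e2]
    exact deg_succ M' hM'0 hM'1
      (fun i ξ => ∑ j, potts 3 (θ * lam) i j * leafLik 3 d (θ * lam) n j ξ) A hA

/-- Data processing: a noisier edge channel gives less information. -/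
theorem Un_mono (h0 : -(1 / 2) ≤ lam) (h1 : lam ≤ 1) (θ : ℝ) (hθ0 : 0 ≤ θ) (hθ1 : θ ≤ 1)
    (n : ℕ) (F : (Fin 3 → ℝ) → ℝ) (hF : SubH F) :
    Un d (θ * lam) n F ≤ Un d lam n F :=
  (deg_scale h0 h1 θ hθ0 hθ1 n).sum_le (fun η i => leafLik_nonneg_le h0 h1 n i η) hF

/-- Going one level deeper is a stochastic image. -/
lemma deg_depth (h0 : -(1 / 2) ≤ lam) (h1 : lam ≤ 1) (n : ℕ) :
    Deg (fun (η : Cfg d (n + 1)) i => leafLik 3 d lam (n + 1) i η)
      (fun (η : Cfg d n) i => leafLik 3 d lam n i η) := by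
  classical
  have hP : ∀ a : Fin 3, ∑ j, potts 3 lam a j = 1 := by
    intro a
    have := potts_sum lam a (fun _ => 1)
    simp only [mul_one] at this
    rw [this]
    simp
  induction n with
  | zero =>
    set A : Fin 3 → Cfg d 0 → ℝ :=
      fun i ξ => ∑ j, potts 3 lam i j * leafLik 3 d lam 0 j ξ with hA
    refine ⟨fun y η => ∏ c, A (y Fin.elim0) (cfgEquiv d 0 η c), ?_, ?_, ?_⟩
    · intro y x
      refine Finset.prod_nonneg fun c _ => Finset.sum_nonneg fun j _ => ?_
      exact mul_nonneg (potts_nonneg_le h0 h1 _ _) (leafLik_nonneg_le h0 h1 _ _ _)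
    · intro y
      rw [← (cfgEquiv d 0).symm.sum_comp]
      simp only [Equiv.apply_symm_apply]
      have e3 := (Finset.prod_univ_sum (fun _ : Fin d => (Finset.univ : Finset (Cfg d 0)))
        (fun (_ : Fin d) ξ => A (y Fin.elim0) ξ)).symm
      rw [Fintype.piFinset_univ] at e3
      rw [e3]
      have e4 : ∀ a : Fin 3, ∑ ξ : Cfg d 0, A a ξ = 1 := by
        intro a
        simp only [hA]
        rw [Finset.sum_comm]
        simp only [← Finset.mul_sum, sum_leafLik, mul_one]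
        exact hP a
      simp [e4]
    · intro η i
      change leafLik 3 d lam (0 + 1) i η
        = ∑ y : Cfg d 0, (∏ c, A (y Fin.elim0) (cfgEquiv d 0 η c)) * leafLik 3 d lam 0 i y
      rw [leafLik_succ]
      have e5 : ∀ y : Cfg d 0, leafLik 3 d lam 0 i y = if y Fin.elim0 = i then 1 else 0 := by
        intro y
        rfl
      simp only [e5, mul_ite, mul_one, mul_zero]
      rw [← (Equiv.funUnique (Fin 0 → Fin d) (Fin 3)).symm.sum_comp]
      simp only [Equiv.funUnique_symm_apply, uniqueElim_const]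
      rw [Finset.sum_ite_eq' Finset.univ i]
      simp [hA]
  | succ n ih =>
    obtain ⟨M, hM0, hM1, hM⟩ := ih
    have hA : ∀ i x, (∑ j, potts 3 lam i j * leafLik 3 d lam (n + 1) j x)
        = ∑ y, M y x * ∑ j, potts 3 lam i j * leafLik 3 d lam n j y := by
      intro i x
      have hM2 : ∀ j, leafLik 3 d lam (n + 1) j x = ∑ y, M y x * leafLik 3 d lam n j y :=
        fun j => hM x j
      simp only [hM2, Finset.mul_sum]
      rw [Finset.sum_comm]
      refine Finset.sum_congr rfl fun y _ => Finset.sum_congr rfl fun j _ => ?_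
      ring
    exact deg_succ M hM0 hM1 _ _ hA

/-- The information decreases with the depth. -/
theorem Un_anti (h0 : -(1 / 2) ≤ lam) (h1 : lam ≤ 1) (n : ℕ)
    (F : (Fin 3 → ℝ) → ℝ) (hF : SubH F) :
    Un d lam (n + 1) F ≤ Un d lam n F :=
  (deg_depth h0 h1 n).sum_le (fun η i => leafLik_nonneg_le h0 h1 n i η) hF

/-- The reconstruction error as a sum of a subadditive homogeneous function. -/
noncomputable def errF (x : Fin 3 → ℝ) : ℝ :=
  (1 / 2) * ∑ i, |x i / 3 - (∑ j, x j) / 9|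

lemma errF_subH : SubH errF := by
  constructor
  · intro x y _ _
    unfold errF
    rw [← mul_add, ← Finset.sum_add_distrib]
    refine mul_le_mul_of_nonneg_left (Finset.sum_le_sum fun i _ => ?_) (by norm_num)
    have e : (x + y) i / 3 - (∑ j, (x + y) j) / 9
        = (x i / 3 - (∑ j, x j) / 9) + (y i / 3 - (∑ j, y j) / 9) := by
      simp only [Pi.add_apply, Finset.sum_add_distrib]
      ring
    rw [e]
    exact abs_add_le _ _
  · intro c x hc _
    unfold errF
    have e : ∀ i, (c • x) i / 3 - (∑ j, (c • x) j) / 9 = c * (x i / 3 - (∑ j, x j) / 9) := by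
      intro i
      simp only [Pi.smul_apply, smul_eq_mul, ← Finset.mul_sum]
      ring
    simp only [e, abs_mul, abs_of_nonneg hc]
    rw [← Finset.mul_sum]
    ring

lemma errF_nonneg (x : Fin 3 → ℝ) : 0 ≤ errF x := by
  unfold errF
  exact mul_nonneg (by norm_num) (Finset.sum_nonneg fun i _ => abs_nonneg _)

theorem reconError_eq_Un (h0 : -(1 / 2) ≤ lam) (h1 : lam ≤ 1) (n : ℕ) :
    reconError 3 d lam n = Un d lam n errF := by
  unfold reconError Un errF
  refine Finset.sum_congr rfl fun η _ => ?_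
  have hl : leafProb 3 d lam n η = (∑ j, leafLik 3 d lam n j η) / 3 := by
    unfold leafProb jointProb
    rw [← Finset.mul_sum]
    push_cast
    ring
  have hnn : ∀ j, 0 ≤ leafLik 3 d lam n j η := fun j => leafLik_nonneg_le h0 h1 n j η
  rw [← mul_assoc, mul_comm (leafProb 3 d lam n η), mul_assoc, Finset.mul_sum]
  congr 1
  refine Finset.sum_congr rfl fun i _ => ?_
  beta_reduce
  by_cases hS : leafProb 3 d lam n η = 0
  · have hzero : ∑ j, leafLik 3 d lam n j η = 0 := by
      rw [hl] at hS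
      linarith
    have hz : ∀ j, leafLik 3 d lam n j η = 0 := by
      intro j
      exact (Finset.sum_eq_zero_iff_of_nonneg fun j _ => hnn j).mp hzero j (Finset.mem_univ j)
    rw [hS, hz i, hzero]
    simp
  · have hpos : 0 < leafProb 3 d lam n η := by
      have : 0 ≤ leafProb 3 d lam n η := by
        rw [hl]
        exact div_nonneg (Finset.sum_nonneg fun j _ => hnn j) (by norm_num)
      exact lt_of_le_of_ne this (Ne.symm hS)
    have e : leafProb 3 d lam n η * (jointProb 3 d lam n i η / leafProb 3 d lam n η - 1 / ((3 : ℕ) : ℝ))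
        = leafLik 3 d lam n i η / 3 - (∑ j, leafLik 3 d lam n j η) / 9 := by
      have : leafProb 3 d lam n η * (jointProb 3 d lam n i η / leafProb 3 d lam n η)
          = jointProb 3 d lam n i η := by
        field_simp
      rw [mul_sub, this, hl]
      unfold jointProb
      push_cast
      ring
    rw [← e, abs_mul, abs_of_pos hpos]

/-- Consequence: nonreconstruction passes to smaller eigenvalues. -/
theorem nonrecon_scale (h0 : -(1 / 2) ≤ lam) (h1 : lam ≤ 1) (θ : ℝ) (hθ0 : 0 ≤ θ) (hθ1 : θ ≤ 1)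
    (h : Tendsto (reconError 3 d lam) atTop (𝓝 0)) :
    Tendsto (reconError 3 d (θ * lam)) atTop (𝓝 0) := by
  have h2 : -(1 / 2) ≤ θ * lam := by
    rcases le_total 0 lam with hl | hl
    · have := mul_nonneg hθ0 hl
      linarith
    · nlinarith
  have h3 : θ * lam ≤ 1 := by
    rcases le_total 0 lam with hl | hl
    · nlinarith
    · have := mul_nonpos_of_nonneg_of_nonpos hθ0 hl
      linarith
  refine squeeze_zero (fun n => ?_) (fun n => ?_) h
  · rw [reconError_eq_Un h2 h3]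
    exact Finset.sum_nonneg fun η _ => errF_nonneg _
  · rw [reconError_eq_Un h2 h3, reconError_eq_Un h0 h1]
    exact Un_mono h0 h1 θ hθ0 hθ1 n errF errF_subH

end Vale.Agent.P154
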