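import Vale.Agent.P154H.Leaf
import Vale.Agent.P154H.Spec

/-!
The subdivision checker and its soundness, and the passage to messages.
-/

open Finset BigOperators

namespace Vale.Agent.P154H.Tm

open Vale.Agent.P154

/-- The data of a family of checks. -/
structure Pb where
  lp : ℕ
  ln : ℕ
  ab : ℕ
  r1 : List Row
  r2 : List Row

/-- A subdivision with hints at the leaves. -/
inductive LT where
  | l (y1 y2 y3 y4 : ℕ) : LT
  | o (y1 y2 y3 y4 : ℕ) : LT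
  | z1 : LT
  | z2 : LT
  | a (L R : LT) : LT
  | b (L R : LT) : LT

/-- `3 * 2^320`. -/
def T320 : ℕ := 6407961107762730247185065118508656343808113567069958309841124823466659177341921650068886260809728

/-- The checker. -/
noncomputable def chk (P : Pb) (t : LT) : ℕ → ℕ → ℕ → ℕ → Bool :=
  LT.rec (motive := fun _ => ℕ → ℕ → ℕ → ℕ → Bool)
    (fun y1 y2 y3 y4 x0 h1 t0 h2 =>
      let lv := leafV P.lp P.ln x0 h1 t0 h2 y1 y2 y3 y4
      and lv.ok (and (allRows P.r2 lv) (allRows P.r1 lv)))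
    (fun y1 y2 y3 y4 x0 h1 t0 h2 =>
      let lv := leafV P.lp P.ln x0 h1 t0 h2 y1 y2 y3 y4
      and lv.ok (and (allRows P.r2 lv) (Nat.ble (Nat.add (nrm lv.a3) lv.a3.e) P.ab)))
    (fun x0 h1 t0 _ => Nat.blt (Nat.add x0 (Nat.add h1 h1)) t0)
    (fun x0 _ t0 _ => Nat.blt T320 (Nat.add (Nat.mul 2 (Nat.pow x0 8)) (Nat.pow t0 8)))
    (fun _ _ ihL ihR x0 h1 t0 h2 =>
      let h := Nat.div h1 2
      and (Nat.beq (Nat.add h h) h1) (and (ihL x0 h t0 h2) (ihR (Nat.add x0 h1) h t0 h2)))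
    (fun _ _ ihL ihR x0 h1 t0 h2 =>
      let h := Nat.div h2 2
      and (Nat.beq (Nat.add h h) h2) (and (ihL x0 h1 t0 h) (ihR x0 h1 (Nat.add t0 h2) h)))
    t

/-- The domain in the chart. -/
def Dom (s r : ℝ) : Prop := 0 ≤ s ∧ 0 ≤ r ∧ r ≤ s ∧ 2 * s ^ 8 + r ^ 8 ≤ 3

/-- What is proved at a point. -/
def Snd (lam : ℝ) (P : Pb) (s r : ℝ) : Prop :=
  (∀ R ∈ P.r2, 0 ≤ evalRow lam R s r) ∧
    ((P.ab : ℝ) < (S : ℝ) * a3F s r → ∀ R ∈ P.r1, 0 ≤ evalRow lam R s r)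

/-- The grid. -/
noncomputable def Gr : ℝ := 1099511627776

lemma Gr_pos : 0 < Gr := by norm_num [Gr]

/-- What is proved on a box. -/
def BoxS (lam : ℝ) (P : Pb) (x0 h1 t0 h2 : ℕ) : Prop :=
  ∀ s r : ℝ, (x0 : ℝ) ≤ Gr * s → Gr * s ≤ (x0 : ℝ) + 2 * h1 → (t0 : ℝ) ≤ Gr * r → Gr * r ≤ (t0 : ℝ) + 2 * h2 →
    Dom s r → Snd lam P s r

/-- Splitting the first coordinate. -/
theorem BoxS.sa {lam : ℝ} {P : Pb} {x0 h t0 h2 : ℕ} (hL : BoxS lam P x0 h t0 h2)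
    (hR : BoxS lam P (x0 + 2 * h) h t0 h2) : BoxS lam P x0 (2 * h) t0 h2 := by
  intro s r h1 h3 h4 h5 hD
  push_cast at h3
  rcases le_total (Gr * s) ((x0 : ℝ) + 2 * h) with h6 | h6
  · exact hL s r h1 h6 h4 h5 hD
  · exact hR s r (by push_cast; linarith) (by push_cast; linarith) h4 h5 hD

/-- Splitting the second coordinate. -/
theorem BoxS.sb {lam : ℝ} {P : Pb} {x0 h1 t0 h : ℕ} (hL : BoxS lam P x0 h1 t0 h)
    (hR : BoxS lam P x0 h1 (t0 + 2 * h) h) : BoxS lam P x0 h1 t0 (2 * h) := by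
  intro s r h3 h4 h5 h6 hD
  push_cast at h6
  rcases le_total (Gr * r) ((t0 : ℝ) + 2 * h) with h7 | h7
  · exact hL s r h3 h4 h5 h7 hD
  · exact hR s r h3 h4 (by push_cast; linarith) (by push_cast; linarith) hD

lemma norm_coord {x0 h : ℕ} (hh : 0 < h) {s : ℝ} (h1 : (x0 : ℝ) ≤ Gr * s) (h2 : Gr * s ≤ (x0 : ℝ) + 2 * h) :
    ∃ a : ℝ, |a| ≤ 1 ∧ fs x0 h a = s := by
  have hR : (0 : ℝ) < h := by exact_mod_cast hh
  refine ⟨(Gr * s - x0 - h) / h, ?_, ?_⟩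
  · rw [abs_le]
    constructor
    · rw [le_div_iff₀ hR]; linarith
    · rw [div_le_iff₀ hR]; linarith
  · unfold fs
    have e : (h : ℝ) * ((Gr * s - x0 - h) / h) = Gr * s - x0 - h := by field_simp
    rw [e]
    have e2 : (x0 : ℝ) + h + (Gr * s - x0 - h) = Gr * s := by ring
    rw [e2]
    unfold Gr
    field_simp

theorem leaf_sound {lam : ℝ} {P : Pb} (hlam : |(S : ℝ) * lam - ((P.lp : ℝ) - P.ln)| ≤ ((1 : ℕ) : ℝ))
    {x0 h1 t0 h2 y1 y2 y3 y4 : ℕ} (hh1 : 0 < h1) (hh2 : 0 < h2)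
    (h : and (leafV P.lp P.ln x0 h1 t0 h2 y1 y2 y3 y4).ok
      (and (allRows P.r2 (leafV P.lp P.ln x0 h1 t0 h2 y1 y2 y3 y4))
        (allRows P.r1 (leafV P.lp P.ln x0 h1 t0 h2 y1 y2 y3 y4))) = true) :
    BoxS lam P x0 h1 t0 h2 := by
  simp only [Bool.and_eq_true] at h
  obtain ⟨h3, h4, h5⟩ := h
  have hE := leafV_enc hlam h3
  intro s r s1 s2 r1 r2 _
  obtain ⟨a, ha, e1⟩ := norm_coord hh1 s1 s2
  obtain ⟨b, hb, e2⟩ := norm_coord hh2 r1 r2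
  constructor
  · have := allRows_spec hE P.r2 h4 ha hb
    rwa [e1, e2] at this
  · intro _
    have := allRows_spec hE P.r1 h5 ha hb
    rwa [e1, e2] at this

theorem orig_sound {lam : ℝ} {P : Pb} (hlam : |(S : ℝ) * lam - ((P.lp : ℝ) - P.ln)| ≤ ((1 : ℕ) : ℝ))
    {x0 h1 t0 h2 y1 y2 y3 y4 : ℕ} (hh1 : 0 < h1) (hh2 : 0 < h2)
    (h : and (leafV P.lp P.ln x0 h1 t0 h2 y1 y2 y3 y4).ok
      (and (allRows P.r2 (leafV P.lp P.ln x0 h1 t0 h2 y1 y2 y3 y4))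
        (Nat.ble (Nat.add (nrm (leafV P.lp P.ln x0 h1 t0 h2 y1 y2 y3 y4).a3)
          (leafV P.lp P.ln x0 h1 t0 h2 y1 y2 y3 y4).a3.e) P.ab)) = true) :
    BoxS lam P x0 h1 t0 h2 := by
  simp only [Bool.and_eq_true] at h
  obtain ⟨h3, h4, h5⟩ := h
  have hE := leafV_enc hlam h3
  intro s r s1 s2 r1 r2 _
  obtain ⟨a, ha, e1⟩ := norm_coord hh1 s1 s2
  obtain ⟨b, hb, e2⟩ := norm_coord hh2 r1 r2
  constructor
  · have := allRows_spec hE P.r2 h4 ha hb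
    rwa [e1, e2] at this
  · intro hgt
    exfalso
    have h6 := hE.a3 a b ha hb
    have h7 := ev_le (leafV P.lp P.ln x0 h1 t0 h2 y1 y2 y3 y4).a3 ha hb
    have h8 := Nat.le_of_ble_eq_true h5
    rw [nadd] at h8
    have h9 : ((nrm (leafV P.lp P.ln x0 h1 t0 h2 y1 y2 y3 y4).a3 : ℕ) : ℝ)
        + ((leafV P.lp P.ln x0 h1 t0 h2 y1 y2 y3 y4).a3.e : ℕ) ≤ (P.ab : ℝ) := by exact_mod_cast h8
    beta_reduce at h6
    rw [e1, e2] at h6
    have h10 := abs_le.1 h6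
    have h11 := abs_le.1 h7
    linarith [h10.2, h11.2]

theorem chk_sound {lam : ℝ} {P : Pb} (hlam : |(S : ℝ) * lam - ((P.lp : ℝ) - P.ln)| ≤ ((1 : ℕ) : ℝ))
    (t : LT) : ∀ (x0 h1 t0 h2 : ℕ), 0 < h1 → 0 < h2 → chk P t x0 h1 t0 h2 = true →
      BoxS lam P x0 h1 t0 h2 := by
  induction t with
  | l y1 y2 y3 y4 =>
    intro x0 h1 t0 h2 hh1 hh2 h
    exact leaf_sound hlam hh1 hh2 h
  | o y1 y2 y3 y4 =>
    intro x0 h1 t0 h2 hh1 hh2 h
    exact orig_sound hlam hh1 hh2 h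
  | z1 =>
    intro x0 h1 t0 h2 _ _ h
    have h3 : x0 + (h1 + h1) + 1 ≤ t0 := Nat.le_of_ble_eq_true h
    have h4 : ((x0 : ℝ) + (h1 + h1)) + 1 ≤ t0 := by exact_mod_cast h3
    intro s r _ s2 r1 _ hD
    exfalso
    obtain ⟨_, _, h5, _⟩ := hD
    have : Gr * r ≤ Gr * s := mul_le_mul_of_nonneg_left h5 Gr_pos.le
    linarith
  | z2 =>
    intro x0 h1 t0 h2 _ _ h
    have h3 : T320 + 1 ≤ 2 * x0 ^ 8 + t0 ^ 8 := Nat.le_of_ble_eq_true h
    have h4 : (T320 : ℝ) + 1 ≤ 2 * (x0 : ℝ) ^ 8 + (t0 : ℝ) ^ 8 := by exact_mod_cast h3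
    intro s r s1 _ r1 _ hD
    exfalso
    obtain ⟨_, _, _, h5⟩ := hD
    have h6 : (x0 : ℝ) ^ 8 ≤ (Gr * s) ^ 8 := pow_le_pow_left₀ (Nat.cast_nonneg _) s1 8
    have h7 : (t0 : ℝ) ^ 8 ≤ (Gr * r) ^ 8 := pow_le_pow_left₀ (Nat.cast_nonneg _) r1 8
    have h8 : (2 : ℝ) * (Gr * s) ^ 8 + (Gr * r) ^ 8 = Gr ^ 8 * (2 * s ^ 8 + r ^ 8) := by ring
    have h9 : Gr ^ 8 * (2 * s ^ 8 + r ^ 8) ≤ Gr ^ 8 * 3 :=
      mul_le_mul_of_nonneg_left h5 (pow_nonneg Gr_pos.le 8)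
    have h10 : (T320 : ℝ) = Gr ^ 8 * 3 := by norm_num [T320, Gr]
    linarith
  | a L R ihL ihR =>
    intro x0 h1 t0 h2 hh1 hh2 h
    have h' : and (Nat.beq (Nat.add (Nat.div h1 2) (Nat.div h1 2)) h1)
        (and (chk P L x0 (Nat.div h1 2) t0 h2) (chk P R (Nat.add x0 h1) (Nat.div h1 2) t0 h2)) = true := h
    simp only [Bool.and_eq_true] at h'
    obtain ⟨h3, h4, h5⟩ := h'
    have h6 : Nat.add (Nat.div h1 2) (Nat.div h1 2) = h1 := Nat.eq_of_beq_eq_true h3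
    set k := Nat.div h1 2 with hk
    have h7 : k + k = h1 := h6
    have h8 : 0 < k := by omega
    have e : h1 = 2 * k := by omega
    have b1 := ihL x0 k t0 h2 h8 hh2 h4
    have e2 : Nat.add x0 h1 = x0 + 2 * k := by
      show x0 + h1 = _
      omega
    rw [e2] at h5
    have b2 := ihR (x0 + 2 * k) k t0 h2 h8 hh2 h5
    rw [e]
    exact BoxS.sa b1 b2
  | b L R ihL ihR =>
    intro x0 h1 t0 h2 hh1 hh2 h
    have h' : and (Nat.beq (Nat.add (Nat.div h2 2) (Nat.div h2 2)) h2)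
        (and (chk P L x0 h1 t0 (Nat.div h2 2)) (chk P R x0 h1 (Nat.add t0 h2) (Nat.div h2 2))) = true := h
    simp only [Bool.and_eq_true] at h'
    obtain ⟨h3, h4, h5⟩ := h'
    have h6 : Nat.add (Nat.div h2 2) (Nat.div h2 2) = h2 := Nat.eq_of_beq_eq_true h3
    set k := Nat.div h2 2 with hk
    have h7 : k + k = h2 := h6
    have h8 : 0 < k := by omega
    have e : h2 = 2 * k := by omega
    have b1 := ihL x0 h1 t0 k hh1 h8 h4
    have e2 : Nat.add t0 h2 = t0 + 2 * k := by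
      show t0 + h2 = _
      omega
    rw [e2] at h5
    have b2 := ihR x0 h1 (t0 + 2 * k) k hh1 h8 h5
    rw [e]
    exact BoxS.sb b1 b2

end Vale.Agent.P154H.Tm
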