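import Vale.Agent.P154H.Spec

/-!
From the one-step hypothesis to nonreconstruction.
-/

open Finset BigOperators Filter Topology

namespace Vale.Agent.P154H

open Vale.Agent.P154

variable {d : ℕ} {lam : ℝ}

/-- The expected defect at `1 + y` is `1 - Hn`. -/
lemma exp_Lw (h0 : -(1 / 2) < lam) (h1 : lam < 1) (n : ℕ) (m : Fin 3 → ℕ)
    (hm : ∑ i, m i = 8) :
    ∑ η : Cfg d n, pn d lam n η * Lw m (yn d lam n η) = 1 - Hn d lam n m := by
  rw [Hn_eq h0 h1 n m hm]
  have hp1 := sum_pn (d := d) (lam := lam) n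
  unfold Lw
  simp only [mul_sub, mul_one, Finset.sum_sub_distrib, hp1]

/-- The expected defect at `1 + lam y` is `1 - En`. -/
lemma exp_Xw (h0 : -(1 / 2) < lam) (h1 : lam < 1) (n : ℕ) (m : Fin 3 → ℕ)
    (hm : ∑ i, m i = 8) :
    ∑ η : Cfg d n, pn d lam n η * Xw lam m (yn d lam n η) = 1 - En d lam n m := by
  rw [En_eq h0 h1 n m hm]
  have hp1 := sum_pn (d := d) (lam := lam) n
  unfold Xw
  simp only [mul_sub, mul_one, Finset.sum_sub_distrib, hp1]

/-- MODULE L1: from the one-step hypothesis to nonreconstruction. -/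
theorem nonrecon_of_step (_hd : 1 ≤ d) (h0 : -(1 / 2) < lam) (h1 : lam < 1) {K : ℕ}
    (w : Fin K → ℝ) (m : Fin K → Fin 3 → ℕ) (τ : ℝ) (hτ : 0 < τ)
    (hm : ∀ k, ∑ i, m k i = 8) (h : StepHyp d lam w m τ) :
    Tendsto (reconError 3 d lam) atTop (𝓝 0) := by
  -- the potential
  let Φ : ℕ → ℝ := fun n => ∑ k, w k * (1 - Hn d lam n (m k))
  let e : ℕ → ℝ := fun n => ∑ η : Cfg d n, pn d lam n η * Aq (yn d lam n η) ^ 2
  have hp := fun n (η : Cfg d n) => NegT.pn_nonneg (d := d) h0 h1 n η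
  have hstep : ∀ n, Φ (n + 1) + τ * e n ≤ Φ n := by
    intro n
    have h2 := h (Cfg d n) (pn d lam n) (yn d lam n) (hp n) (sum_pn n)
      (fun η => ⟨NegT.yn_sum h0 h1 n η, fun i => NegT.yn_ge h0 h1 n η i⟩)
    have e1 : ∀ k, 1 - (1 - ∑ η : Cfg d n, pn d lam n η * Xw lam (m k) (yn d lam n η)) ^ d
        = 1 - Hn d lam (n + 1) (m k) := by
      intro k
      rw [exp_Xw h0 h1 n (m k) (hm k), Hn_succ h0 h1 n (m k)]
      congr 2
      ring
    have e2 : ∀ k, ∑ η : Cfg d n, pn d lam n η * Lw (m k) (yn d lam n η)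
        = 1 - Hn d lam n (m k) := fun k => exp_Lw h0 h1 n (m k) (hm k)
    simp only [e1, e2] at h2
    exact h2
  -- boundedness
  let B : ℝ := ∑ k, |w k|
  have hΦB : ∀ n, |Φ n| ≤ B := by
    intro n
    refine (Finset.abs_sum_le_sum_abs _ _).trans (Finset.sum_le_sum fun k _ => ?_)
    rw [abs_mul]
    have hb := Hn_bounds (d := d) h0 h1 n (m k) (hm k)
    have h3 : |1 - Hn d lam n (m k)| ≤ 1 := by
      rw [abs_le]
      constructor <;> linarith [hb.1, hb.2]
    calc |w k| * |1 - Hn d lam n (m k)| ≤ |w k| * 1 :=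
          mul_le_mul_of_nonneg_left h3 (abs_nonneg _)
      _ = |w k| := mul_one _
  have he0 : ∀ n, 0 ≤ e n := fun n =>
    Finset.sum_nonneg fun η _ => mul_nonneg (hp n η) (sq_nonneg _)
  have hsum : ∀ N, ∑ n ∈ range N, e n ≤ 2 * B / τ := by
    intro N
    have h3 : τ * ∑ n ∈ range N, e n ≤ Φ 0 - Φ N := by
      induction N with
      | zero => simp
      | succ N ih =>
        rw [Finset.sum_range_succ, mul_add]
        linarith [hstep N]
    rw [le_div_iff₀ hτ]
    have h4 := abs_le.1 (hΦB 0)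
    have h5 := abs_le.1 (hΦB N)
    linarith [h4.1, h4.2, h5.1, h5.2]
  have hs : Summable e := summable_of_sum_range_le he0 hsum
  have hlim : Tendsto e atTop (𝓝 0) := hs.tendsto_atTop_zero
  -- from the fourth moment to the reconstruction error
  have hbound : ∀ n, (reconError 3 d lam n ^ 2) ^ 2 ≤ e n / 4 := by
    intro n
    have hr := NegT.reconError_sq_le (d := d) h0 h1 n
    have hs2 : (∑ η : Cfg d n, pn d lam n η * s2 (yn d lam n η)) / 12
        = (∑ η : Cfg d n, pn d lam n η * Aq (yn d lam n η)) / 2 := by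
      rw [div_eq_div_iff (by norm_num) (by norm_num), Finset.sum_mul, Finset.sum_mul]
      refine Finset.sum_congr rfl fun η _ => ?_
      unfold s2 Aq
      ring
    rw [hs2] at hr
    have hJ := Real.pow_arith_mean_le_arith_mean_pow (Finset.univ : Finset (Cfg d n))
      (pn d lam n) (fun η => Aq (yn d lam n η)) (fun η _ => hp n η) (sum_pn n)
      (fun η _ => by unfold Aq; positivity) 2
    have hA0 : 0 ≤ ∑ η : Cfg d n, pn d lam n η * Aq (yn d lam n η) :=
      Finset.sum_nonneg fun η _ => mul_nonneg (hp n η) (by unfold Aq; positivity)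
    have h6 : (reconError 3 d lam n ^ 2) ^ 2
        ≤ ((∑ η : Cfg d n, pn d lam n η * Aq (yn d lam n η)) / 2) ^ 2 :=
      pow_le_pow_left₀ (sq_nonneg _) hr 2
    have h7 : ((∑ η : Cfg d n, pn d lam n η * Aq (yn d lam n η)) / 2) ^ 2
        = (∑ η : Cfg d n, pn d lam n η * Aq (yn d lam n η)) ^ 2 / 4 := by ring
    rw [h7] at h6
    have h8 : e n = ∑ η : Cfg d n, pn d lam n η * Aq (yn d lam n η) ^ 2 := rfl
    rw [h8]
    linarith
  have h12 : Tendsto (fun n => Real.sqrt (Real.sqrt (e n / 4))) atTop (𝓝 0) := by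
    have := (hlim.div_const 4).sqrt.sqrt
    simpa using this
  refine squeeze_zero_norm (fun n => ?_) h12
  rw [Real.norm_eq_abs]
  have h9 : |reconError 3 d lam n ^ 2| ≤ Real.sqrt (e n / 4) := Real.abs_le_sqrt (hbound n)
  rw [abs_of_nonneg (sq_nonneg _)] at h9
  exact Real.abs_le_sqrt h9

end Vale.Agent.P154H
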