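import Vale.Agent.P154H.Spec

/-!
The regime argument: from pointwise inequalities to the one-step hypothesis.
-/

open Finset BigOperators Filter Topology

namespace Vale.Agent.P154H

open Vale.Agent.P154

variable {d : ℕ} {lam : ℝ}

/-- The auxiliary convex function `G x = d x - 1 + (1 - x)^d`. -/
noncomputable def Gd (d : ℕ) (x : ℝ) : ℝ := d * x - 1 + (1 - x) ^ d

lemma Gd_succ (d : ℕ) (x : ℝ) : Gd (d + 1) x = (1 - x) * Gd d x + d * x ^ 2 := by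
  unfold Gd; push_cast; ring

lemma Gd_nonneg (d : ℕ) (x : ℝ) (h0 : 0 ≤ x) (h1 : x ≤ 1) : 0 ≤ Gd d x := by
  induction d with
  | zero => simp [Gd]
  | succ d ih =>
    rw [Gd_succ]
    exact add_nonneg (mul_nonneg (sub_nonneg.2 h1) ih) (by positivity)

lemma Gd_le_choose (d : ℕ) (x : ℝ) (h0 : 0 ≤ x) (h1 : x ≤ 1) :
    Gd d x ≤ (Nat.choose d 2 : ℝ) * x ^ 2 := by
  induction d with
  | zero => simp [Gd]
  | succ d ih =>
    rw [Gd_succ]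
    have hc : ((Nat.choose (d + 1) 2 : ℕ) : ℝ) = d + (Nat.choose d 2 : ℝ) := by
      rw [Nat.choose_succ_succ' d 1, Nat.choose_one_right]
      push_cast
      ring
    rw [hc]
    have hG := Gd_nonneg d x h0 h1
    have h3 : (1 - x) * Gd d x ≤ Gd d x := by nlinarith
    nlinarith [sq_nonneg x]

lemma Gd_scale (d : ℕ) (κ x : ℝ) (hκ : 1 ≤ κ) (h0 : 0 ≤ x) (h1 : κ * x ≤ 1) :
    Gd d (κ * x) ≤ κ ^ 2 * Gd d x := by
  have hx1 : x ≤ 1 := by nlinarith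
  induction d with
  | zero => simp [Gd]
  | succ d ih =>
    rw [Gd_succ, Gd_succ]
    have hG := Gd_nonneg d x h0 hx1
    have h2 : (1 - κ * x) * Gd d (κ * x) ≤ (1 - κ * x) * (κ ^ 2 * Gd d x) :=
      mul_le_mul_of_nonneg_left ih (sub_nonneg.2 h1)
    have h3 : (1 - κ * x) * (κ ^ 2 * Gd d x) ≤ (1 - x) * (κ ^ 2 * Gd d x) := by
      refine mul_le_mul_of_nonneg_right ?_ (by positivity)
      nlinarith
    nlinarith

/-- The geometric sum identity for the difference of powers. -/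
lemma Gd_sub (d : ℕ) (x y : ℝ) :
    Gd d x - Gd d y
      = ((d : ℝ) - ∑ i ∈ range d, (1 - y) ^ i * (1 - x) ^ (d - 1 - i)) * (x - y) := by
  have h := geom_sum₂_mul (1 - y) (1 - x) d
  have h2 : (1 - y) - (1 - x) = x - y := by ring
  rw [h2] at h
  unfold Gd
  rw [sub_mul, h]
  ring

lemma Gd_mono (d : ℕ) (x y : ℝ) (hy : 0 ≤ y) (hyx : y ≤ x) (hx : x ≤ 1) : Gd d y ≤ Gd d x := by
  have h := Gd_sub d x y
  have hS : ∑ i ∈ range d, (1 - y) ^ i * (1 - x) ^ (d - 1 - i) ≤ d := by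
    calc ∑ i ∈ range d, (1 - y) ^ i * (1 - x) ^ (d - 1 - i)
        ≤ ∑ _i ∈ range d, (1 : ℝ) := by
          refine Finset.sum_le_sum fun i _ => ?_
          have h1 : (1 - y) ^ i ≤ 1 := pow_le_one₀ (by linarith) (by linarith)
          have h2 : (1 - x) ^ (d - 1 - i) ≤ 1 := pow_le_one₀ (by linarith) (by linarith)
          have h3 : 0 ≤ (1 - x) ^ (d - 1 - i) := pow_nonneg (by linarith) _
          nlinarith
      _ = d := by simp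
  have := mul_nonneg (sub_nonneg.2 hS) (sub_nonneg.2 hyx)
  linarith

lemma Gd_slope (hd : 1 ≤ d) (x y uu : ℝ) (hy : 0 ≤ y) (hyx : y ≤ x) (hx : x ≤ uu) (hu : uu ≤ 1) :
    Gd d x - Gd d y ≤ (d : ℝ) * (1 - (1 - uu) ^ (d - 1)) * (x - y) := by
  have h := Gd_sub d x y
  have hS : (d : ℝ) * (1 - uu) ^ (d - 1)
      ≤ ∑ i ∈ range d, (1 - y) ^ i * (1 - x) ^ (d - 1 - i) := by
    calc (d : ℝ) * (1 - uu) ^ (d - 1) = ∑ _i ∈ range d, (1 - uu) ^ (d - 1) := by simp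
      _ ≤ ∑ i ∈ range d, (1 - y) ^ i * (1 - x) ^ (d - 1 - i) := by
          refine Finset.sum_le_sum fun i hi => ?_
          have hi' : i ≤ d - 1 := by
            have := Finset.mem_range.1 hi
            omega
          have e : (1 - uu) ^ (d - 1) = (1 - uu) ^ i * (1 - uu) ^ (d - 1 - i) := by
            rw [← pow_add]
            congr 1
            omega
          rw [e]
          exact mul_le_mul (pow_le_pow_left₀ (by linarith) (by linarith) _)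
            (pow_le_pow_left₀ (by linarith) (by linarith) _)
            (pow_nonneg (by linarith) _) (pow_nonneg (by linarith) _)
  rw [h]
  refine mul_le_mul_of_nonneg_right ?_ (sub_nonneg.2 hyx)
  nlinarith

/-- Three point Jensen, one of the points being `0`. -/
lemma Gd_jensen (d : ℕ) (π1 π2 a b : ℝ) (h1 : 0 ≤ π1) (h2 : 0 ≤ π2) (h12 : π1 + π2 ≤ 1)
    (ha1 : a ≤ 1) (hb1 : b ≤ 1) :
    Gd d (π1 * a + π2 * b) ≤ π1 * Gd d a + π2 * Gd d b := by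
  have h := Real.pow_arith_mean_le_arith_mean_pow (Finset.univ : Finset (Fin 3))
    ![π1, π2, 1 - π1 - π2] ![1 - a, 1 - b, 1]
    (by intro i _; fin_cases i <;> simp <;> linarith)
    (by simp [Fin.sum_univ_three])
    (by intro i _; fin_cases i <;> simp <;> linarith) d
  simp only [Fin.sum_univ_three] at h
  change (π1 * (1 - a) + π2 * (1 - b) + (1 - π1 - π2) * 1) ^ d
    ≤ π1 * (1 - a) ^ d + π2 * (1 - b) ^ d + (1 - π1 - π2) * 1 ^ d at h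
  have e : π1 * (1 - a) + π2 * (1 - b) + (1 - π1 - π2) * 1 = 1 - (π1 * a + π2 * b) := by ring
  rw [e, one_pow] at h
  unfold Gd
  nlinarith

/-- The chord bound: `c1 G(ρ1 x1 + ρ2 x2) ≤ α1 G x1 + α2 G x2`, and the argument lies in `[0,1]`. -/
lemma Gd_chord (d : ℕ) (α1 α2 c1 ρ1 ρ2 x1 x2 : ℝ)
    (hα1 : 0 < α1) (hα2 : 0 < α2) (hc1 : 0 < c1) (hρ1 : 0 < ρ1) (hρ2 : 0 < ρ2)
    (hρ : c1 * ρ1 ^ 2 * α2 + c1 * ρ2 ^ 2 * α1 ≤ α1 * α2)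
    (hκ1 : c1 * ρ1 ≤ α1) (hκ2 : c1 * ρ2 ≤ α2)
    (hx1 : 0 ≤ x1) (hx2 : 0 ≤ x2)
    (hcap1 : α1 * x1 ≤ c1 * ρ1) (hcap2 : α2 * x2 ≤ c1 * ρ2) :
    ρ1 * x1 + ρ2 * x2 ≤ 1 ∧
      c1 * Gd d (ρ1 * x1 + ρ2 * x2) ≤ α1 * Gd d x1 + α2 * Gd d x2 := by
  have hp1 : 0 < c1 * ρ1 := mul_pos hc1 hρ1
  have hp2 : 0 < c1 * ρ2 := mul_pos hc1 hρ2
  set κ1 := α1 / (c1 * ρ1) with hk1
  set κ2 := α2 / (c1 * ρ2) with hk2
  set π1 := c1 * ρ1 ^ 2 / α1 with hq1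
  set π2 := c1 * ρ2 ^ 2 / α2 with hq2
  have k1 : 1 ≤ κ1 := by rw [hk1, le_div_iff₀ hp1]; linarith
  have k2 : 1 ≤ κ2 := by rw [hk2, le_div_iff₀ hp2]; linarith
  have a1 : κ1 * x1 ≤ 1 := by
    rw [hk1, div_mul_eq_mul_div, div_le_iff₀ hp1]; linarith
  have a2 : κ2 * x2 ≤ 1 := by
    rw [hk2, div_mul_eq_mul_div, div_le_iff₀ hp2]; linarith
  have q1 : 0 ≤ π1 := by rw [hq1]; positivity
  have q2 : 0 ≤ π2 := by rw [hq2]; positivity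
  have q12 : π1 + π2 ≤ 1 := by
    rw [hq1, hq2, div_add_div _ _ hα1.ne' hα2.ne', div_le_one (mul_pos hα1 hα2)]
    nlinarith
  have e1 : π1 * (κ1 * x1) = ρ1 * x1 := by
    rw [hq1, hk1]; field_simp
  have e2 : π2 * (κ2 * x2) = ρ2 * x2 := by
    rw [hq2, hk2]; field_simp
  have e3 : c1 * (π1 * κ1 ^ 2) = α1 := by
    rw [hq1, hk1]; field_simp
  have e4 : c1 * (π2 * κ2 ^ 2) = α2 := by
    rw [hq2, hk2]; field_simp
  have j := Gd_jensen d π1 π2 (κ1 * x1) (κ2 * x2) q1 q2 q12 a1 a2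
  rw [e1, e2] at j
  have s1 := mul_le_mul_of_nonneg_left (Gd_scale d κ1 x1 k1 hx1 a1) q1
  have s2 := mul_le_mul_of_nonneg_left (Gd_scale d κ2 x2 k2 hx2 a2) q2
  constructor
  · have : π1 * (κ1 * x1) + π2 * (κ2 * x2) ≤ π1 * 1 + π2 * 1 :=
      add_le_add (mul_le_mul_of_nonneg_left a1 q1) (mul_le_mul_of_nonneg_left a2 q2)
    rw [e1, e2] at this
    linarith
  · have h5 : Gd d (ρ1 * x1 + ρ2 * x2)
        ≤ π1 * (κ1 ^ 2 * Gd d x1) + π2 * (κ2 ^ 2 * Gd d x2) := by linarith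
    have h6 := mul_le_mul_of_nonneg_left h5 hc1.le
    have e5 : c1 * (π1 * (κ1 ^ 2 * Gd d x1) + π2 * (κ2 ^ 2 * Gd d x2))
        = (c1 * (π1 * κ1 ^ 2)) * Gd d x1 + (c1 * (π2 * κ2 ^ 2)) * Gd d x2 := by ring
    rw [e5, e3, e4] at h6
    exact h6

/-- On messages the functional at `1 + lam v` lies in `[0,1]`. -/
lemma Xw_bounds (h0 : -(1 / 2) < lam) (h1 : lam < 1) (m : Fin 3 → ℕ) (hm : ∑ i, m i = 8)
    (v : Fin 3 → ℝ) (hv : Msg v) : 0 ≤ Xw lam m v ∧ Xw lam m v ≤ 1 := by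
  obtain ⟨hs, hge⟩ := hv
  have hle : ∀ i, v i ≤ 2 := by
    intro i
    have h := hge
    rw [Fin.sum_univ_three] at hs
    fin_cases i
    · have := hge 1; have := hge 2; simp only [Fin.zero_eta]; linarith
    · have := hge 0; have := hge 2; simp only [Fin.mk_one]; linarith
    · have := hge 0; have := hge 1
      show v 2 ≤ 2
      linarith
  have hpos : ∀ i, 0 ≤ 1 + lam * v i := by
    intro i
    rcases le_total 0 lam with hl | hl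
    · nlinarith [hge i]
    · nlinarith [hle i]
  have hsum : ∑ i, (1 + lam * v i) = 3 := by
    rw [Finset.sum_add_distrib, ← Finset.mul_sum, hs]
    simp
  have h2 := GS_le_one m hm (fun i => 1 + lam * v i) hpos hsum
  have h3 := GS_nonneg m (fun i => 1 + lam * v i) hpos
  unfold Xw
  constructor <;> linarith

/-- Expectations of values in `[0,1]`. -/
lemma exp_mem {ι : Type} [Fintype ι] (p : ι → ℝ) (f : ι → ℝ) (hp : ∀ η, 0 ≤ p η)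
    (hp1 : ∑ η, p η = 1) (h0 : ∀ η, 0 ≤ f η) (h1 : ∀ η, f η ≤ 1) :
    0 ≤ ∑ η, p η * f η ∧ ∑ η, p η * f η ≤ 1 := by
  constructor
  · exact Finset.sum_nonneg fun η _ => mul_nonneg (hp η) (h0 η)
  · calc ∑ η, p η * f η ≤ ∑ η, p η * 1 :=
        Finset.sum_le_sum fun η _ => mul_le_mul_of_nonneg_left (h1 η) (hp η)
      _ = 1 := by simpa using hp1

/-- The real core of the regime argument, small regime. -/
lemma core_small (hd : 2 ≤ d) (α1 α2 c1 c2 ρ1 ρ2 uu Du τ : ℝ)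
    (hα1 : 0 < α1) (hα2 : 0 < α2) (hc1 : 0 < c1) (hc2 : 0 ≤ c2) (hρ1 : 0 < ρ1) (hρ2 : 0 < ρ2)
    (huu1 : uu ≤ 1)
    (hρ : c1 * ρ1 ^ 2 * α2 + c1 * ρ2 ^ 2 * α1 ≤ α1 * α2)
    (hκ1 : c1 * ρ1 ≤ α1) (hκ2 : c1 * ρ2 ≤ α2)
    (hDu : (d : ℝ) * (1 - (1 - uu) ^ (d - 1)) ≤ Du)
    (x1 x2 xc L1 L2 Lc A2 Xc2 : ℝ)
    (x10 : 0 ≤ x1) (x20 : 0 ≤ x2) (xc0 : 0 ≤ xc)
    (hcap1 : α1 * x1 ≤ c1 * ρ1) (hcap2 : α2 * x2 ≤ c1 * ρ2)
    (hJ : xc ^ 2 ≤ Xc2) (hcase : xc ≤ uu)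
    (hEa : 0 ≤ α1 * L1 + α2 * L2 - (c1 + c2) * Lc - d * (α1 * x1 + α2 * x2 - (c1 + c2) * xc)
          - τ * A2 - c2 * (Nat.choose d 2 : ℝ) * Xc2)
    (hEb : 0 ≤ α1 * L1 + α2 * L2 - (c1 + c2) * Lc - d * (α1 * x1 + α2 * x2 - (c1 + c2) * xc)
          - τ * A2 - c2 * (Nat.choose d 2 : ℝ) * Xc2 - c1 * Du * (xc - ρ1 * x1 - ρ2 * x2)) :
    α1 * (1 - (1 - x1) ^ d) + α2 * (1 - (1 - x2) ^ d)
      + -(c1 + c2) * (1 - (1 - xc) ^ d) + τ * A2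
      ≤ α1 * L1 + α2 * L2 + -(c1 + c2) * Lc := by
  have xc1 : xc ≤ 1 := hcase.trans huu1
  have idG : ∀ x : ℝ, 1 - (1 - x) ^ d = d * x - Gd d x := by
    intro x
    unfold Gd
    ring
  obtain ⟨hy1, hchord⟩ := Gd_chord d α1 α2 c1 ρ1 ρ2 x1 x2 hα1 hα2 hc1 hρ1 hρ2 hρ hκ1 hκ2
    x10 x20 hcap1 hcap2
  have hy0 : 0 ≤ ρ1 * x1 + ρ2 * x2 := by positivity
  have hG2 : c2 * Gd d xc ≤ c2 * (Nat.choose d 2 : ℝ) * Xc2 := by
    have h := Gd_le_choose d xc xc0 xc1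
    have hC : (0 : ℝ) ≤ (Nat.choose d 2 : ℝ) := by positivity
    have h2 : (Nat.choose d 2 : ℝ) * xc ^ 2 ≤ (Nat.choose d 2 : ℝ) * Xc2 :=
      mul_le_mul_of_nonneg_left hJ hC
    have h3 := mul_le_mul_of_nonneg_left (h.trans h2) hc2
    linarith
  rw [idG, idG, idG]
  by_cases hsub : xc ≤ ρ1 * x1 + ρ2 * x2
  · have hm := Gd_mono d (ρ1 * x1 + ρ2 * x2) xc xc0 hsub hy1
    have h5 := mul_le_mul_of_nonneg_left hm hc1.le
    linarith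
  · have hsub' : ρ1 * x1 + ρ2 * x2 ≤ xc := le_of_lt (not_le.1 hsub)
    have hs := Gd_slope (by omega : 1 ≤ d) xc (ρ1 * x1 + ρ2 * x2) uu hy0 hsub' hcase huu1
    have hs2 : Gd d xc - Gd d (ρ1 * x1 + ρ2 * x2) ≤ Du * (xc - (ρ1 * x1 + ρ2 * x2)) :=
      hs.trans (mul_le_mul_of_nonneg_right hDu (sub_nonneg.2 hsub'))
    have h5 := mul_le_mul_of_nonneg_left hs2 hc1.le
    linarith

/-- Expanding the expectation of `Ta`. -/
lemma exp_Ta {ι : Type} [Fintype ι] (p : ι → ℝ) (L1 L2 Lc X1 X2 Xc A : ι → ℝ)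
    (α1 α2 c D τ E : ℝ) :
    ∑ η, p η * (α1 * L1 η + α2 * L2 η - c * Lc η - D * (α1 * X1 η + α2 * X2 η - c * Xc η)
        - τ * A η ^ 2 - E * Xc η ^ 2)
      = α1 * (∑ η, p η * L1 η) + α2 * (∑ η, p η * L2 η) - c * (∑ η, p η * Lc η)
        - D * (α1 * (∑ η, p η * X1 η) + α2 * (∑ η, p η * X2 η) - c * (∑ η, p η * Xc η))
        - τ * (∑ η, p η * A η ^ 2) - E * (∑ η, p η * Xc η ^ 2) := by
  simp only [Finset.mul_sum, ← Finset.sum_add_distrib, ← Finset.sum_sub_distrib]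
  exact Finset.sum_congr rfl fun η _ => by ring

lemma exp_Tb {ι : Type} [Fintype ι] (p : ι → ℝ) (T X1 X2 Xc : ι → ℝ) (B ρ1 ρ2 : ℝ) :
    ∑ η, p η * (T η - B * (Xc η - ρ1 * X1 η - ρ2 * X2 η))
      = (∑ η, p η * T η)
        - B * ((∑ η, p η * Xc η) - ρ1 * (∑ η, p η * X1 η) - ρ2 * (∑ η, p η * X2 η)) := by
  simp only [Finset.mul_sum, ← Finset.sum_add_distrib, ← Finset.sum_sub_distrib]
  exact Finset.sum_congr rfl fun η _ => by ring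

lemma exp_cell {ι : Type} [Fintype ι] (p : ι → ℝ) (hp1 : ∑ η, p η = 1)
    (L1 L2 Lc X1 X2 Xc A : ι → ℝ) (α1 α2 c τ a1 a2 e f : ℝ) :
    ∑ η, p η * (α1 * L1 η + α2 * L2 η - c * Lc η - τ * A η ^ 2 + a1 * X1 η + a2 * X2 η
        - e * Xc η - f)
      = α1 * (∑ η, p η * L1 η) + α2 * (∑ η, p η * L2 η) - c * (∑ η, p η * Lc η)
        - τ * (∑ η, p η * A η ^ 2) + a1 * (∑ η, p η * X1 η) + a2 * (∑ η, p η * X2 η)
        - e * (∑ η, p η * Xc η) - f := by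
  have : f = ∑ η, p η * f := by rw [← Finset.sum_mul, hp1, one_mul]
  conv_rhs => rw [this]
  simp only [Finset.mul_sum, ← Finset.sum_add_distrib, ← Finset.sum_sub_distrib]
  exact Finset.sum_congr rfl fun η _ => by ring

lemma exp_le_const {ι : Type} [Fintype ι] (p f : ι → ℝ) (hp : ∀ η, 0 ≤ p η)
    (hp1 : ∑ η, p η = 1) (a c : ℝ) (h : ∀ η, a * f η ≤ c) : a * ∑ η, p η * f η ≤ c := by
  have h1 : ∑ η, p η * (a * f η) ≤ ∑ η, p η * c :=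
    Finset.sum_le_sum fun η _ => mul_le_mul_of_nonneg_left (h η) (hp η)
  rw [← Finset.sum_mul, hp1, one_mul] at h1
  have e : ∑ η, p η * (a * f η) = a * ∑ η, p η * f η := by
    rw [Finset.mul_sum]
    exact Finset.sum_congr rfl fun η _ => by ring
  linarith

/-- MODULE L2: the regime argument. -/
theorem step_of_cells (hd : 2 ≤ d) (h0 : -(1 / 2) < lam) (h1 : lam < 1)
    (m1 m2 mc : Fin 3 → ℕ) (hm1 : ∑ i, m1 i = 8) (hm2 : ∑ i, m2 i = 8) (hmc : ∑ i, mc i = 8)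
    (α1 α2 c1 c2 ρ1 ρ2 uu Du τ xmax : ℝ) (cells : List Cell)
    (hα1 : 0 < α1) (hα2 : 0 < α2) (hc1 : 0 < c1) (hc2 : 0 ≤ c2) (hρ1 : 0 < ρ1) (hρ2 : 0 < ρ2)
    (_huu0 : 0 ≤ uu) (huu1 : uu ≤ 1)
    (hρ : c1 * ρ1 ^ 2 * α2 + c1 * ρ2 ^ 2 * α1 ≤ α1 * α2)
    (hκ1 : c1 * ρ1 ≤ α1) (hκ2 : c1 * ρ2 ≤ α2)
    (hcap1 : ∀ v, Msg v → α1 * Xw lam m1 v ≤ c1 * ρ1)
    (hcap2 : ∀ v, Msg v → α2 * Xw lam m2 v ≤ c1 * ρ2)
    (hDu : (d : ℝ) * (1 - (1 - uu) ^ (d - 1)) ≤ Du)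
    (hTa : ∀ v, Msg v → 0 ≤ Ta d lam m1 m2 mc α1 α2 c1 c2 τ v)
    (hTb : ∀ v, Msg v → 0 ≤ Ta d lam m1 m2 mc α1 α2 c1 c2 τ v
      - c1 * Du * (Xw lam mc v - ρ1 * Xw lam m1 v - ρ2 * Xw lam m2 v))
    (hXc : ∀ v, Msg v → Xw lam mc v ≤ xmax)
    (hcover : ∀ x, uu ≤ x → x ≤ xmax → ∃ C ∈ cells, C.l ≤ x ∧ x ≤ C.u)
    (hcellL : ∀ C ∈ cells, ∀ x1 x2 xc : ℝ, 0 ≤ x1 → x1 ≤ 1 → 0 ≤ x2 → x2 ≤ 1 → C.l ≤ xc → xc ≤ C.u →
      α1 * (1 - (1 - x1) ^ d) + α2 * (1 - (1 - x2) ^ d) - (c1 + c2) * (1 - (1 - xc) ^ d)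
        ≤ - C.a1 * x1 - C.a2 * x2 + C.e * xc + C.f)
    (hcellT : ∀ C ∈ cells, ∀ v, Msg v →
      0 ≤ Psi m1 m2 mc α1 α2 (c1 + c2) v - τ * Aq v ^ 2
        + C.a1 * Xw lam m1 v + C.a2 * Xw lam m2 v - C.e * Xw lam mc v - C.f) :
    StepHyp d lam ![α1, α2, -(c1 + c2)] ![m1, m2, mc] τ := by
  intro ι _ p v hp hp1 hv
  simp only [Fin.sum_univ_three]
  change α1 * (1 - (1 - ∑ η, p η * Xw lam m1 (v η)) ^ d)
      + α2 * (1 - (1 - ∑ η, p η * Xw lam m2 (v η)) ^ d)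
      + -(c1 + c2) * (1 - (1 - ∑ η, p η * Xw lam mc (v η)) ^ d)
      + τ * ∑ η, p η * Aq (v η) ^ 2
    ≤ α1 * (∑ η, p η * Lw m1 (v η)) + α2 * (∑ η, p η * Lw m2 (v η))
      + -(c1 + c2) * (∑ η, p η * Lw mc (v η))
  obtain ⟨x10, x11⟩ := exp_mem p (fun η => Xw lam m1 (v η)) hp hp1
    (fun η => (Xw_bounds h0 h1 m1 hm1 (v η) (hv η)).1)
    (fun η => (Xw_bounds h0 h1 m1 hm1 (v η) (hv η)).2)
  obtain ⟨x20, x21⟩ := exp_mem p (fun η => Xw lam m2 (v η)) hp hp1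
    (fun η => (Xw_bounds h0 h1 m2 hm2 (v η) (hv η)).1)
    (fun η => (Xw_bounds h0 h1 m2 hm2 (v η) (hv η)).2)
  obtain ⟨xc0, _⟩ := exp_mem p (fun η => Xw lam mc (v η)) hp hp1
    (fun η => (Xw_bounds h0 h1 mc hmc (v η) (hv η)).1)
    (fun η => (Xw_bounds h0 h1 mc hmc (v η) (hv η)).2)
  have eTa := exp_Ta p (fun η => Lw m1 (v η)) (fun η => Lw m2 (v η)) (fun η => Lw mc (v η))
    (fun η => Xw lam m1 (v η)) (fun η => Xw lam m2 (v η)) (fun η => Xw lam mc (v η))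
    (fun η => Aq (v η)) α1 α2 (c1 + c2) d τ (c2 * (Nat.choose d 2 : ℝ))
  have hEa0 : 0 ≤ ∑ η, p η * Ta d lam m1 m2 mc α1 α2 c1 c2 τ (v η) :=
    Finset.sum_nonneg fun η _ => mul_nonneg (hp η) (hTa _ (hv η))
  have hEb0 : 0 ≤ ∑ η, p η * (Ta d lam m1 m2 mc α1 α2 c1 c2 τ (v η)
      - (c1 * Du) * (Xw lam mc (v η) - ρ1 * Xw lam m1 (v η) - ρ2 * Xw lam m2 (v η))) :=
    Finset.sum_nonneg fun η _ => mul_nonneg (hp η) (hTb _ (hv η))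
  rw [exp_Tb p (fun η => Ta d lam m1 m2 mc α1 α2 c1 c2 τ (v η))] at hEb0
  have eTa' : ∑ η, p η * Ta d lam m1 m2 mc α1 α2 c1 c2 τ (v η) = _ := eTa
  rw [eTa'] at hEa0 hEb0
  by_cases hcase : ∑ η, p η * Xw lam mc (v η) ≤ uu
  · refine core_small hd α1 α2 c1 c2 ρ1 ρ2 uu Du τ hα1 hα2 hc1 hc2 hρ1 hρ2 huu1 hρ hκ1 hκ2 hDu
      _ _ _ _ _ _ _ (∑ η, p η * Xw lam mc (v η) ^ 2) x10 x20 xc0
      (exp_le_const p _ hp hp1 _ _ fun η => hcap1 _ (hv η))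
      (exp_le_const p _ hp hp1 _ _ fun η => hcap2 _ (hv η)) ?_ hcase hEa0 ?_
    · exact Real.pow_arith_mean_le_arith_mean_pow (Finset.univ : Finset ι) p
        (fun η => Xw lam mc (v η)) (fun η _ => hp η) hp1
        (fun η _ => (Xw_bounds h0 h1 mc hmc (v η) (hv η)).1) 2
    · linarith
  · have hcase' := le_of_lt (not_le.1 hcase)
    have hxm : ∑ η, p η * Xw lam mc (v η) ≤ xmax := by
      have := exp_le_const p (fun η => Xw lam mc (v η)) hp hp1 1 xmax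
        (fun η => by simpa using hXc _ (hv η))
      simpa using this
    obtain ⟨C, hC, hl, hu⟩ := hcover _ hcase' hxm
    have hL := hcellL C hC _ _ _ x10 x11 x20 x21 hl hu
    have hT0 : 0 ≤ ∑ η, p η * (Psi m1 m2 mc α1 α2 (c1 + c2) (v η) - τ * Aq (v η) ^ 2
        + C.a1 * Xw lam m1 (v η) + C.a2 * Xw lam m2 (v η) - C.e * Xw lam mc (v η) - C.f) :=
      Finset.sum_nonneg fun η _ => mul_nonneg (hp η) (hcellT C hC _ (hv η))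
    have eT := exp_cell p hp1 (fun η => Lw m1 (v η)) (fun η => Lw m2 (v η))
      (fun η => Lw mc (v η)) (fun η => Xw lam m1 (v η)) (fun η => Xw lam m2 (v η))
      (fun η => Xw lam mc (v η)) (fun η => Aq (v η)) α1 α2 (c1 + c2) τ C.a1 C.a2 C.e C.f
    have eT' : ∑ η, p η * (Psi m1 m2 mc α1 α2 (c1 + c2) (v η) - τ * Aq (v η) ^ 2
        + C.a1 * Xw lam m1 (v η) + C.a2 * Xw lam m2 (v η) - C.e * Xw lam mc (v η) - C.f) = _ := eT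
    rw [eT'] at hT0
    linarith

end Vale.Agent.P154H
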