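import Vale.Agent.P154H.Msg
import Vale.Agent.P154H.Step1
import Vale.Agent.P154H.Step2

/-!
Assembling the pointwise checks into nonreconstruction at a given `d` and eigenvalue.
-/

open Finset BigOperators Filter Topology

namespace Vale.Agent.P154H.Tm

open Vale.Agent.P154 Vale.Agent.P154H

/-- Coefficients of a linear form in the functionals. -/
structure Co where
  l1 : ℝ
  l2 : ℝ
  lc : ℝ
  x1 : ℝ
  x2 : ℝ
  xc : ℝ
  a2 : ℝ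
  xc2 : ℝ
  one : ℝ

/-- The value of a linear form. -/
noncomputable def evalCo (lam : ℝ) (co : Co) (v : Fin 3 → ℝ) : ℝ :=
  co.l1 * Lw m1 v + co.l2 * Lw m2 v + co.lc * Lw mc v + co.x1 * Xw lam m1 v + co.x2 * Xw lam m2 v
    + co.xc * Xw lam mc v + co.a2 * Aq v ^ 2 + co.xc2 * Xw lam mc v ^ 2 + co.one

/-- The integer row represents `N` times the linear form. -/
structure RowFor (R : Row) (N : ℝ) (co : Co) : Prop where
  h1 : (R.k1p : ℝ) - R.k1n = -(N * co.l1) / 3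
  h2 : (R.k2p : ℝ) - R.k2n = -(N * co.l2) / 6
  h3 : (R.k3p : ℝ) - R.k3n = -(N * co.lc) / 3
  h4 : (R.k4p : ℝ) - R.k4n = -(N * co.x1) / 3
  h5 : (R.k5p : ℝ) - R.k5n = -(N * co.x2) / 6
  h6 : (R.k6p : ℝ) - R.k6n = -(N * co.xc) / 3
  h7 : (R.k7p : ℝ) - R.k7n = N * co.a2 / 9
  h8 : (R.k8p : ℝ) - R.k8n = N * co.xc2 / 9
  h9 : (R.k9p : ℝ) - R.k9n = N * (co.l1 + co.l2 + co.lc + co.x1 + co.x2 + co.xc + co.one)

lemma evalMsg_of_RowFor {R : Row} {N : ℝ} {co : Co} (h : RowFor R N co) (lam : ℝ) (v : Fin 3 → ℝ) :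
    evalMsg lam R v = N * evalCo lam co v := by
  unfold evalMsg evalCo Lw Xw
  rw [h.h1, h.h2, h.h3, h.h4, h.h5, h.h6, h.h7, h.h8, h.h9]
  ring

lemma evalCo_nonneg {R : Row} {N : ℝ} {co : Co} (h : RowFor R N co) (hN : 0 < N) {lam : ℝ} {v : Fin 3 → ℝ}
    (hv : 0 ≤ evalMsg lam R v) : 0 ≤ evalCo lam co v := by
  rw [evalMsg_of_RowFor h] at hv
  exact nonneg_of_mul_nonneg_right hv hN

/-- `T_a` as a linear form. -/
noncomputable def coTa (d : ℕ) (α1 α2 c1 c2 τ : ℝ) : Co :=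
  ⟨α1, α2, -(c1 + c2), -(d * α1), -(d * α2), d * (c1 + c2), -τ, -(c2 * (Nat.choose d 2 : ℝ)), 0⟩

/-- `T_b` as a linear form. -/
noncomputable def coTb (d : ℕ) (α1 α2 c1 c2 τ ρ1 ρ2 Du : ℝ) : Co :=
  ⟨α1, α2, -(c1 + c2), -(d * α1) + c1 * Du * ρ1, -(d * α2) + c1 * Du * ρ2, d * (c1 + c2) - c1 * Du, -τ,
    -(c2 * (Nat.choose d 2 : ℝ)), 0⟩

/-- A cell as a linear form. -/
noncomputable def coCell (α1 α2 c τ : ℝ) (C : Cell) : Co :=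
  ⟨α1, α2, -c, C.a1, C.a2, -C.e, -τ, 0, -C.f⟩

lemma evalCo_Ta (d : ℕ) (lam α1 α2 c1 c2 τ : ℝ) (v : Fin 3 → ℝ) :
    evalCo lam (coTa d α1 α2 c1 c2 τ) v = Ta d lam m1 m2 mc α1 α2 c1 c2 τ v := by
  simp only [evalCo, coTa, Ta, Psi, PsiL]
  ring

lemma evalCo_Tb (d : ℕ) (lam α1 α2 c1 c2 τ ρ1 ρ2 Du : ℝ) (v : Fin 3 → ℝ) :
    evalCo lam (coTb d α1 α2 c1 c2 τ ρ1 ρ2 Du) v = Ta d lam m1 m2 mc α1 α2 c1 c2 τ v
      - c1 * Du * (Xw lam mc v - ρ1 * Xw lam m1 v - ρ2 * Xw lam m2 v) := by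
  simp only [evalCo, coTb, Ta, Psi, PsiL]
  ring

lemma evalCo_cell (lam α1 α2 c τ : ℝ) (C : Cell) (v : Fin 3 → ℝ) :
    evalCo lam (coCell α1 α2 c τ C) v = Psi m1 m2 mc α1 α2 c v - τ * Aq v ^ 2
      + C.a1 * Xw lam m1 v + C.a2 * Xw lam m2 v - C.e * Xw lam mc v - C.f := by
  simp only [evalCo, coCell, Psi]
  ring

/-- The sum conditions of the functionals. -/
lemma m1_sum : ∑ i, m1 i = 8 := by simp [m1, Fin.sum_univ_three]
lemma m2_sum : ∑ i, m2 i = 8 := by simp [m2, Fin.sum_univ_three]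
lemma mc_sum : ∑ i, mc i = 8 := by simp [mc, Fin.sum_univ_three]

/-- A row together with its scale and its membership. -/
structure Rw4 (P : List Row) (N : ℝ) (co : Co) : Prop where
  ex : ∃ R ∈ P, RowFor R N co
  pos : 0 < N

/-- The conclusion from all the checks. -/
theorem final_of_box {d : ℕ} {lam : ℝ} (hd : 2 ≤ d) (h0 : -(1 / 2) < lam) (h1 : lam < 1) {P : Pb}
    (hB : BoxS lam P 0 HH 0 HH)
    (α1 α2 c1 c2 ρ1 ρ2 uu Du τ xmax : ℝ) (cells : List Cell)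
    (hα1 : 0 < α1) (hα2 : 0 < α2) (hc1 : 0 < c1) (hc2 : 0 ≤ c2) (hρ1 : 0 < ρ1) (hρ2 : 0 < ρ2)
    (huu0 : 0 ≤ uu) (huu1 : uu ≤ 1) (hτ : 0 < τ)
    (hρ : c1 * ρ1 ^ 2 * α2 + c1 * ρ2 ^ 2 * α1 ≤ α1 * α2)
    (hκ1 : c1 * ρ1 ≤ α1) (hκ2 : c1 * ρ2 ≤ α2)
    (hDu : (d : ℝ) * (1 - (1 - uu) ^ (d - 1)) ≤ Du) (hDu0 : 0 ≤ Du)
    (hOa : ∀ v, Msg v → ¬ ((P.ab : ℝ) < (S : ℝ) * (3 * Aq v)) → 0 ≤ Ta d lam m1 m2 mc α1 α2 c1 c2 τ v)
    (hON : ∀ v, Msg v → ¬ ((P.ab : ℝ) < (S : ℝ) * (3 * Aq v)) →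
      0 ≤ ρ1 * Xw lam m1 v + ρ2 * Xw lam m2 v - Xw lam mc v)
    {Na Nb N1 N2 N3 : ℝ}
    (rTa : Rw4 P.r1 Na (coTa d α1 α2 c1 c2 τ))
    (rTb : Rw4 P.r1 Nb (coTb d α1 α2 c1 c2 τ ρ1 ρ2 Du))
    (rc1 : Rw4 P.r2 N1 ⟨0, 0, 0, -α1, 0, 0, 0, 0, c1 * ρ1⟩)
    (rc2 : Rw4 P.r2 N2 ⟨0, 0, 0, 0, -α2, 0, 0, 0, c1 * ρ2⟩)
    (rc3 : Rw4 P.r2 N3 ⟨0, 0, 0, 0, 0, -1, 0, 0, xmax⟩)
    (rcell : ∀ C ∈ cells, ∃ N : ℝ, Rw4 P.r2 N (coCell α1 α2 (c1 + c2) τ C))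
    (hcover : ∀ x, uu ≤ x → x ≤ xmax → ∃ C ∈ cells, C.l ≤ x ∧ x ≤ C.u)
    (hcellL : ∀ C ∈ cells, ∀ x1 x2 xc : ℝ, 0 ≤ x1 → x1 ≤ 1 → 0 ≤ x2 → x2 ≤ 1 → C.l ≤ xc → xc ≤ C.u →
      α1 * (1 - (1 - x1) ^ d) + α2 * (1 - (1 - x2) ^ d) - (c1 + c2) * (1 - (1 - xc) ^ d)
        ≤ - C.a1 * x1 - C.a2 * x2 + C.e * xc + C.f) :
    Tendsto (reconError 3 d lam) atTop (𝓝 0) := by
  have useR2 : ∀ {N : ℝ} {co : Co}, Rw4 P.r2 N co → ∀ v, Msg v → 0 ≤ evalCo lam co v := by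
    intro N co r v hv
    obtain ⟨R, hR, hF⟩ := r.ex
    exact evalCo_nonneg hF r.pos ((msg_sound hB v hv).1 R hR)
  have useR1 : ∀ {N : ℝ} {co : Co}, Rw4 P.r1 N co → ∀ v, Msg v → (P.ab : ℝ) < (S : ℝ) * (3 * Aq v) →
      0 ≤ evalCo lam co v := by
    intro N co r v hv hgt
    obtain ⟨R, hR, hF⟩ := r.ex
    exact evalCo_nonneg hF r.pos ((msg_sound hB v hv).2 hgt R hR)
  have hTa : ∀ v, Msg v → 0 ≤ Ta d lam m1 m2 mc α1 α2 c1 c2 τ v := by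
    intro v hv
    by_cases hgt : (P.ab : ℝ) < (S : ℝ) * (3 * Aq v)
    · have := useR1 rTa v hv hgt
      rwa [evalCo_Ta] at this
    · exact hOa v hv hgt
  have hTb : ∀ v, Msg v → 0 ≤ Ta d lam m1 m2 mc α1 α2 c1 c2 τ v
      - c1 * Du * (Xw lam mc v - ρ1 * Xw lam m1 v - ρ2 * Xw lam m2 v) := by
    intro v hv
    by_cases hgt : (P.ab : ℝ) < (S : ℝ) * (3 * Aq v)
    · have := useR1 rTb v hv hgt
      rwa [evalCo_Tb] at this
    · have h3 := hOa v hv hgt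
      have h4 := hON v hv hgt
      have h5 : 0 ≤ c1 * Du := mul_nonneg hc1.le hDu0
      have h6 := mul_nonneg h5 h4
      nlinarith
  have hcap1 : ∀ v, Msg v → α1 * Xw lam m1 v ≤ c1 * ρ1 := by
    intro v hv
    have := useR2 rc1 v hv
    simp only [evalCo] at this
    linarith
  have hcap2 : ∀ v, Msg v → α2 * Xw lam m2 v ≤ c1 * ρ2 := by
    intro v hv
    have := useR2 rc2 v hv
    simp only [evalCo] at this
    linarith
  have hXc : ∀ v, Msg v → Xw lam mc v ≤ xmax := by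
    intro v hv
    have := useR2 rc3 v hv
    simp only [evalCo] at this
    linarith
  have hcellT : ∀ C ∈ cells, ∀ v, Msg v →
      0 ≤ Psi m1 m2 mc α1 α2 (c1 + c2) v - τ * Aq v ^ 2
        + C.a1 * Xw lam m1 v + C.a2 * Xw lam m2 v - C.e * Xw lam mc v - C.f := by
    intro C hC v hv
    obtain ⟨N, hN⟩ := rcell C hC
    have := useR2 hN v hv
    rwa [evalCo_cell] at this
  have hS := step_of_cells hd h0 h1 m1 m2 mc m1_sum m2_sum mc_sum α1 α2 c1 c2 ρ1 ρ2 uu Du τ xmax cells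
    hα1 hα2 hc1 hc2 hρ1 hρ2 huu0 huu1 hρ hκ1 hκ2 hcap1 hcap2 hDu hTa hTb hXc hcover hcellL hcellT
  refine nonrecon_of_step (by omega) h0 h1 _ _ τ hτ ?_ hS
  intro k
  fin_cases k
  · exact m1_sum
  · exact m2_sum
  · exact mc_sum

lemma pow_tangent {a b : ℝ} (ha : 0 ≤ a) (hb : 0 ≤ b) (n : ℕ) :
    b ^ (n + 1) + (((n : ℝ) + 1) * b ^ n) * (a - b) ≤ a ^ (n + 1) := by
  induction n with
  | zero => simp
  | succ m ih =>
    have h1 := mul_le_mul_of_nonneg_left ih ha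
    have h2 : 0 ≤ ((m : ℝ) + 1) * b ^ m * (a - b) ^ 2 := by positivity
    have e : a ^ (m + 1 + 1) = a * a ^ (m + 1) := by ring
    rw [e]
    push_cast
    have e4 : b ^ (m + 1 + 1) + (((m : ℝ) + 1 + 1) * b ^ (m + 1)) * (a - b)
        = a * (b ^ (m + 1) + (((m : ℝ) + 1) * b ^ m) * (a - b)) - ((m : ℝ) + 1) * b ^ m * (a - b) ^ 2 := by
      ring
    rw [e4]
    linarith

lemma phi_tangent (d : ℕ) {x y : ℝ} (hx0 : 0 ≤ x) (hx1 : x ≤ 1) (hy0 : 0 ≤ y) (hy1 : y ≤ 1) :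
    1 - (1 - x) ^ d ≤ (1 - (1 - y) ^ d) + (d * (1 - y) ^ (d - 1)) * (x - y) := by
  have ha : 0 ≤ 1 - x := by linarith
  have hb : 0 ≤ 1 - y := by linarith
  cases d with
  | zero => simp
  | succ n =>
    have h := pow_tangent ha hb n
    simp only [Nat.add_sub_cancel]
    push_cast
    have e : x - y = (1 - y) - (1 - x) := by ring
    rw [e]
    nlinarith

lemma phi_chord (d : ℕ) {l u x c E F : ℝ} (hl0 : 0 ≤ l) (hu1 : u ≤ 1) (hlx : l ≤ x) (hxu : x ≤ u) (hc : 0 ≤ c)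
    (h1 : -c * (1 - (1 - l) ^ d) ≤ E * l + F) (h2 : -c * (1 - (1 - u) ^ d) ≤ E * u + F) :
    -c * (1 - (1 - x) ^ d) ≤ E * x + F := by
  rcases eq_or_lt_of_le (hlx.trans hxu) with heq | hlt
  · have e1 : x = l := by linarith
    rw [e1]; exact h1
  have hconv := (convexOn_pow d).2 (x := 1 - l) (y := 1 - u) (by simp; linarith) (by simp; linarith)
  set t := (u - x) / (u - l) with ht
  have hd : 0 < u - l := by linarith
  have ht0 : 0 ≤ t := div_nonneg (by linarith) hd.le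
  have ht1 : t ≤ 1 := by rw [ht, div_le_one hd]; linarith
  have h3 := @hconv t (1 - t) ht0 (by linarith) (by ring)
  have e1 : t • (1 - l) + (1 - t) • (1 - u) = 1 - x := by
    simp only [smul_eq_mul]
    have : t * (u - l) = u - x := by rw [ht]; field_simp
    nlinarith
  rw [e1] at h3
  simp only [smul_eq_mul] at h3
  have e2 : x = t * l + (1 - t) * u := by
    have : t * (u - l) = u - x := by rw [ht]; field_simp
    nlinarith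
  have h4 := mul_le_mul_of_nonneg_left h3 hc
  have h5 := mul_le_mul_of_nonneg_left h1 ht0
  have h6 := mul_le_mul_of_nonneg_left h2 (show 0 ≤ 1 - t by linarith)
  have e3 : E * x + F = t * (E * l + F) + (1 - t) * (E * u + F) := by
    rw [e2]; ring
  rw [e3]
  have e4 : t * (-c * (1 - (1 - l) ^ d)) + (1 - t) * (-c * (1 - (1 - u) ^ d))
      = -c + c * (t * (1 - l) ^ d + (1 - t) * (1 - u) ^ d) := by ring
  nlinarith

/-- The side condition of a cell from explicit tangent lines and a chord. -/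
lemma cell_lines (d : ℕ) {α1 α2 c y1 y2 A1 B1 A2 B2 l u E F : ℝ} (hα1 : 0 ≤ α1) (hα2 : 0 ≤ α2) (hc : 0 ≤ c)
    (hy10 : 0 ≤ y1) (hy11 : y1 ≤ 1) (hy20 : 0 ≤ y2) (hy21 : y2 ≤ 1) (hl0 : 0 ≤ l) (hu1 : u ≤ 1)
    (t10 : α1 * (1 - (1 - y1) ^ d + (d * (1 - y1) ^ (d - 1)) * (0 - y1)) ≤ B1)
    (t11 : α1 * (1 - (1 - y1) ^ d + (d * (1 - y1) ^ (d - 1)) * (1 - y1)) ≤ A1 + B1)
    (t20 : α2 * (1 - (1 - y2) ^ d + (d * (1 - y2) ^ (d - 1)) * (0 - y2)) ≤ B2)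
    (t21 : α2 * (1 - (1 - y2) ^ d + (d * (1 - y2) ^ (d - 1)) * (1 - y2)) ≤ A2 + B2)
    (c1 : -c * (1 - (1 - l) ^ d) ≤ E * l + F) (c2 : -c * (1 - (1 - u) ^ d) ≤ E * u + F) :
    ∀ x1 x2 xc : ℝ, 0 ≤ x1 → x1 ≤ 1 → 0 ≤ x2 → x2 ≤ 1 → l ≤ xc → xc ≤ u →
      α1 * (1 - (1 - x1) ^ d) + α2 * (1 - (1 - x2) ^ d) - c * (1 - (1 - xc) ^ d)
        ≤ - (-A1) * x1 - (-A2) * x2 + E * xc + (B1 + B2 + F) := by
  intro x1 x2 xc h1 h2 h3 h4 h5 h6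
  have key : ∀ (α y A B x : ℝ), 0 ≤ α → 0 ≤ y → y ≤ 1 → 0 ≤ x → x ≤ 1 →
      α * (1 - (1 - y) ^ d + (d * (1 - y) ^ (d - 1)) * (0 - y)) ≤ B →
      α * (1 - (1 - y) ^ d + (d * (1 - y) ^ (d - 1)) * (1 - y)) ≤ A + B →
      α * (1 - (1 - x) ^ d) ≤ A * x + B := by
    intro α y A B x hα hy0 hy1 hx0 hx1 ha hb
    have h7 := mul_le_mul_of_nonneg_left (phi_tangent d hx0 hx1 hy0 hy1) hα
    set T := (d * (1 - y) ^ (d - 1) : ℝ)
    set W := (1 - (1 - y) ^ d : ℝ)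
    have h8 : α * (W + T * (x - y)) = (1 - x) * (α * (W + T * (0 - y))) + x * (α * (W + T * (1 - y))) := by ring
    have h9 := mul_le_mul_of_nonneg_left ha (show 0 ≤ 1 - x by linarith)
    have h10 := mul_le_mul_of_nonneg_left hb hx0
    nlinarith
  have a1 := key α1 y1 A1 B1 x1 hα1 hy10 hy11 h1 h2 t10 t11
  have a2 := key α2 y2 A2 B2 x2 hα2 hy20 hy21 h3 h4 t20 t21
  have a3 := phi_chord d hl0 hu1 h5 h6 hc c1 c2
  linarith

/-- The eigenvalue at the bound, in fixed point. -/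
lemma lam_enc (d n : ℕ) (hd : 0 < d) (h1 : n ^ 2 * d ≤ S ^ 2) (h2 : S ^ 2 ≤ (n + 1) ^ 2 * d) :
    |(S : ℝ) * (-(1 / Real.sqrt d)) - (((0 : ℕ) : ℝ) - n)| ≤ ((1 : ℕ) : ℝ) := by
  have hdR : (0 : ℝ) < d := by exact_mod_cast hd
  have hs : 0 < Real.sqrt d := Real.sqrt_pos.2 hdR
  have hs2 : Real.sqrt d ^ 2 = d := Real.sq_sqrt hdR.le
  have h1R : (n : ℝ) ^ 2 * d ≤ (S : ℝ) ^ 2 := by exact_mod_cast h1
  have h2R : (S : ℝ) ^ 2 ≤ ((n : ℝ) + 1) ^ 2 * d := by exact_mod_cast h2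
  have hn : (0 : ℝ) ≤ n := Nat.cast_nonneg _
  have hS := S_pos
  have e1 : (n : ℝ) ≤ S / Real.sqrt d := by
    rw [le_div_iff₀ hs]
    have : ((n : ℝ) * Real.sqrt d) ^ 2 ≤ (S : ℝ) ^ 2 := by rw [mul_pow, hs2]; exact h1R
    exact le_of_sq_le_sq this hS.le
  have e2 : (S : ℝ) / Real.sqrt d ≤ n + 1 := by
    rw [div_le_iff₀ hs]
    have : (S : ℝ) ^ 2 ≤ (((n : ℝ) + 1) * Real.sqrt d) ^ 2 := by rw [mul_pow, hs2]; exact h2R
    exact le_of_sq_le_sq this (by positivity)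
  have e3 : (S : ℝ) * (-(1 / Real.sqrt d)) - (((0 : ℕ) : ℝ) - n) = n - S / Real.sqrt d := by
    push_cast; field_simp; ring
  rw [e3, abs_le]
  push_cast
  constructor <;> linarith

/-- A chain of cells covering an interval. -/
def ChainP (a : ℝ) : List Cell → ℝ → Prop
  | [], b => b ≤ a
  | C :: L, b => C.l ≤ a ∧ ChainP C.u L b

lemma chain_cover {a b x : ℝ} (L : List Cell) (h : ChainP a L b) (h1 : a < x) (h2 : x ≤ b) :
    ∃ C ∈ L, C.l ≤ x ∧ x ≤ C.u := by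
  induction L generalizing a with
  | nil =>
    have : b ≤ a := h
    linarith
  | cons C L ih =>
    obtain ⟨h3, h4⟩ := h
    by_cases h5 : x ≤ C.u
    · exact ⟨C, List.mem_cons_self, by linarith, h5⟩
    · obtain ⟨D, hD, h6⟩ := ih h4 (lt_of_not_ge h5)
      exact ⟨D, List.mem_cons_of_mem _ hD, h6⟩

/-- The cover from a chain. -/
lemma cover_of_chain {a b : ℝ} {C : Cell} {L : List Cell} (h : ChainP a (C :: L) b) (h0 : C.l = a) :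
    ∀ x, a ≤ x → x ≤ b → ∃ D ∈ C :: L, D.l ≤ x ∧ x ≤ D.u := by
  intro x h1 h2
  obtain ⟨_, h4⟩ := h
  by_cases h5 : x ≤ C.u
  · exact ⟨C, List.mem_cons_self, by linarith, h5⟩
  · obtain ⟨D, hD, h6⟩ := chain_cover L h4 (lt_of_not_ge h5) h2
    exact ⟨D, List.mem_cons_of_mem _ hD, h6⟩

lemma forall_nil {P : Cell → Prop} : ∀ D ∈ ([] : List Cell), P D := by simp

lemma forall_cons {P : Cell → Prop} {C : Cell} {L : List Cell} (h : P C) (t : ∀ D ∈ L, P D) :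
    ∀ D ∈ C :: L, P D := by
  intro D hD
  rcases List.mem_cons.1 hD with rfl | hD
  · exact h
  · exact t D hD

end Vale.Agent.P154H.Tm
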