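import Vale.Agent.P154H.Defs

/-!
Series of the three functionals at the origin.
The Taylor polynomials of `r8 (1 + u) ^ k` of degree six, their remainders, the truncated products in
three variables, and the averages over the six permutations.
-/

open Finset BigOperators

namespace Vale.Agent.P154H

open Vale.Agent.P154

/-- The series in `A = s2/6`, `b = s3/6` up to order six. -/
noncomputable def serG (q1 q2 q3 q4 q5 q6 : ℝ) (v : Fin 3 → ℝ) : ℝ :=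
  1 - q1 * Aq v + q2 * Bq v - q3 * Aq v ^ 2 + q4 * Aq v * Bq v - q5 * Aq v ^ 3 - q6 * Bq v ^ 2

/-- `b² ≤ A³` on the plane. -/
lemma Bq_sq_le (v : Fin 3 → ℝ) (hv : ∑ i, v i = 0) : Bq v ^ 2 ≤ Aq v ^ 3 := by
  rw [Fin.sum_univ_three] at hv
  have h3 : v 2 = -v 0 - v 1 := by linarith
  unfold Bq Aq
  rw [Fin.sum_univ_three, Fin.sum_univ_three, h3]
  generalize v 0 = x
  generalize v 1 = y
  have e : ((x ^ 2 + y ^ 2 + (-x - y) ^ 2) / 6) ^ 3 - ((x ^ 3 + y ^ 3 + (-x - y) ^ 3) / 6) ^ 2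
      = ((x - y) * (2 * x + y) * (x + 2 * y)) ^ 2 / 108 := by ring
  have h := sq_nonneg ((x - y) * (2 * x + y) * (x + 2 * y))
  linarith [div_nonneg h (by norm_num : (0 : ℝ) ≤ 108)]

namespace Ser

/-- Evaluation of a coefficient list by the Horner rule. -/
noncomputable def hev : List ℝ → ℝ → ℝ
  | [], _ => 0
  | a :: l, u => a + u * hev l u

/-- The majorant of `hev`. -/
noncomputable def hab : List ℝ → ℝ → ℝ
  | [], _ => 0
  | a :: l, r => |a| + r * hab l r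

lemma hev_abs (l : List ℝ) {u r : ℝ} (hu : |u| ≤ r) : |hev l u| ≤ hab l r := by
  have hr : 0 ≤ r := (abs_nonneg u).trans hu
  induction l with
  | nil => simp [hev, hab]
  | cons a l ih =>
    simp only [hev, hab]
    calc |a + u * hev l u| ≤ |a| + |u * hev l u| := abs_add_le _ _
      _ = |a| + |u| * |hev l u| := by rw [abs_mul]
      _ ≤ |a| + r * hab l r := by
          have := mul_le_mul hu ih (abs_nonneg _) hr
          linarith

/-- Three variable monomial lists. -/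
noncomputable def mev (l : List (ℝ × ℕ × ℕ × ℕ)) (x y z : ℝ) : ℝ :=
  (l.map fun t => t.1 * x ^ t.2.1 * y ^ t.2.2.1 * z ^ t.2.2.2).sum

/-- The majorant of `mev`. -/
noncomputable def mab (l : List (ℝ × ℕ × ℕ × ℕ)) : ℝ :=
  (l.map fun t => |t.1| * (1 / 50 : ℝ) ^ (t.2.1 + t.2.2.1 + t.2.2.2 - 7)).sum

lemma mon_abs (c : ℝ) (i j k : ℕ) (h : 7 ≤ i + j + k) {x y z ρ : ℝ} (hx : |x| ≤ ρ) (hy : |y| ≤ ρ)
    (hz : |z| ≤ ρ) (hρ : ρ ≤ 1 / 50) :
    |c * x ^ i * y ^ j * z ^ k| ≤ |c| * (1 / 50 : ℝ) ^ (i + j + k - 7) * ρ ^ 7 := by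
  have h0 : 0 ≤ ρ := (abs_nonneg x).trans hx
  have e : ρ ^ (i + j + k) = ρ ^ 7 * ρ ^ (i + j + k - 7) := by
    rw [← pow_add]; congr 1; omega
  have h1 : |x ^ i * y ^ j * z ^ k| ≤ ρ ^ i * ρ ^ j * ρ ^ k := by
    rw [abs_mul, abs_mul, abs_pow, abs_pow, abs_pow]
    have h2 := pow_le_pow_left₀ (abs_nonneg x) hx i
    have h3 := pow_le_pow_left₀ (abs_nonneg y) hy j
    have h4 := pow_le_pow_left₀ (abs_nonneg z) hz k
    exact mul_le_mul (mul_le_mul h2 h3 (by positivity) (by positivity)) h4 (by positivity)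
      (by positivity)
  have h5 : ρ ^ i * ρ ^ j * ρ ^ k = ρ ^ (i + j + k) := by ring
  have h6 : ρ ^ (i + j + k - 7) ≤ (1 / 50 : ℝ) ^ (i + j + k - 7) := pow_le_pow_left₀ h0 hρ _
  calc |c * x ^ i * y ^ j * z ^ k| = |c| * |x ^ i * y ^ j * z ^ k| := by
        rw [mul_assoc, mul_assoc, abs_mul, mul_assoc]
    _ ≤ |c| * (ρ ^ 7 * (1 / 50 : ℝ) ^ (i + j + k - 7)) := by
        apply mul_le_mul_of_nonneg_left _ (abs_nonneg c)
        calc |x ^ i * y ^ j * z ^ k| ≤ ρ ^ i * ρ ^ j * ρ ^ k := h1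
          _ = ρ ^ 7 * ρ ^ (i + j + k - 7) := by rw [h5, e]
          _ ≤ ρ ^ 7 * (1 / 50 : ℝ) ^ (i + j + k - 7) :=
            mul_le_mul_of_nonneg_left h6 (by positivity)
    _ = |c| * (1 / 50 : ℝ) ^ (i + j + k - 7) * ρ ^ 7 := by ring

lemma mev_abs (l : List (ℝ × ℕ × ℕ × ℕ)) (hl : ∀ t ∈ l, 7 ≤ t.2.1 + t.2.2.1 + t.2.2.2)
    {x y z ρ : ℝ} (hx : |x| ≤ ρ) (hy : |y| ≤ ρ) (hz : |z| ≤ ρ) (hρ : ρ ≤ 1 / 50) :
    |mev l x y z| ≤ mab l * ρ ^ 7 := by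
  induction l with
  | nil => simp [mev, mab]
  | cons t l ih =>
    have h1 := mon_abs t.1 t.2.1 t.2.2.1 t.2.2.2 (hl t (List.mem_cons_self)) hx hy hz hρ
    have h2 := ih fun s hs => hl s (List.mem_cons_of_mem _ hs)
    simp only [mev, mab, List.map_cons, List.sum_cons] at h2 ⊢
    calc _ ≤ _ := abs_add_le _ _
      _ ≤ _ := add_le_add h1 h2
      _ = _ := by ring

/-- Two variable monomial lists. -/
noncomputable def mev1 (l : List (ℝ × ℕ × ℕ)) (x y : ℝ) : ℝ :=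
  (l.map fun t => t.1 * x ^ t.2.1 * y ^ t.2.2).sum

/-- The majorant of `mev1`. -/
noncomputable def mab1 (l : List (ℝ × ℕ × ℕ)) : ℝ :=
  (l.map fun t => |t.1|).sum

lemma mev1_abs {n : ℕ} (l : List (ℝ × ℕ × ℕ)) (hl : ∀ t ∈ l, t.2.1 + t.2.2 = n)
    {x y ρ : ℝ} (hx : |x| ≤ ρ) (hy : |y| ≤ ρ) :
    |mev1 l x y| ≤ mab1 l * ρ ^ n := by
  induction l with
  | nil => simp [mev1, mab1]
  | cons t l ih =>
    have h2 := ih fun s hs => hl s (List.mem_cons_of_mem _ hs)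
    have h3 : t.2.1 + t.2.2 = n := hl t List.mem_cons_self
    have h1 : |t.1 * x ^ t.2.1 * y ^ t.2.2| ≤ |t.1| * ρ ^ n := by
      rw [abs_mul, abs_mul, abs_pow, abs_pow, ← h3, pow_add, mul_assoc]
      apply mul_le_mul_of_nonneg_left _ (abs_nonneg _)
      exact mul_le_mul (pow_le_pow_left₀ (abs_nonneg x) hx _) (pow_le_pow_left₀ (abs_nonneg y) hy _)
        (by positivity) (pow_nonneg ((abs_nonneg x).trans hx) _)
    simp only [mev1, mab1, List.map_cons, List.sum_cons] at h2 ⊢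
    calc _ ≤ _ := abs_add_le _ _
      _ ≤ _ := add_le_add h1 h2
      _ = _ := by ring

lemma triple_diff {X Y Z X' Y' Z' ex ey ez U : ℝ} (hU : 0 ≤ U) (hX : |X - X'| ≤ ex)
    (hY : |Y - Y'| ≤ ey) (hZ : |Z - Z'| ≤ ez) (hY1 : |Y| ≤ U) (hZ1 : |Z| ≤ U) (hX2 : |X'| ≤ U)
    (hY2 : |Y'| ≤ U) : |X * Y * Z - X' * Y' * Z'| ≤ (ex + ey + ez) * U ^ 2 := by
  have e : X * Y * Z - X' * Y' * Z' = (X - X') * (Y * Z) + (X' * Z) * (Y - Y') + (X' * Y') * (Z - Z') := by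
    ring
  have hex : 0 ≤ ex := (abs_nonneg _).trans hX
  have hey : 0 ≤ ey := (abs_nonneg _).trans hY
  have hez : 0 ≤ ez := (abs_nonneg _).trans hZ
  have h1 : |(X - X') * (Y * Z)| ≤ ex * U ^ 2 := by
    rw [abs_mul, abs_mul, pow_two]
    exact mul_le_mul hX (mul_le_mul hY1 hZ1 (abs_nonneg _) hU) (by positivity) hex
  have h2 : |(X' * Z) * (Y - Y')| ≤ ey * U ^ 2 := by
    rw [abs_mul, abs_mul, pow_two, mul_comm ey]
    exact mul_le_mul (mul_le_mul hX2 hZ1 (abs_nonneg _) hU) hY (abs_nonneg _) (by positivity)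
  have h3 : |(X' * Y') * (Z - Z')| ≤ ez * U ^ 2 := by
    rw [abs_mul, abs_mul, pow_two, mul_comm ez]
    exact mul_le_mul (mul_le_mul hX2 hY2 (abs_nonneg _) hU) hZ (abs_nonneg _) (by positivity)
  rw [e]
  calc _ ≤ |(X - X') * (Y * Z) + (X' * Z) * (Y - Y')| + |(X' * Y') * (Z - Z')| := abs_add_le _ _
    _ ≤ |(X - X') * (Y * Z)| + |(X' * Z) * (Y - Y')| + |(X' * Y') * (Z - Z')| := by
        gcongr; exact abs_add_le _ _
    _ ≤ _ := by linarith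

/-- From a bound on the squares to a bound on the numbers. -/
lemma sq_diff {a b E s : ℝ} (hs : 0 < s) (h : s ≤ a + b) (hE : |a ^ 2 - b ^ 2| ≤ E) :
    |a - b| ≤ E / s := by
  rw [le_div_iff₀ hs]
  have e : a ^ 2 - b ^ 2 = (a - b) * (a + b) := by ring
  rw [e, abs_mul, abs_of_pos (by linarith : 0 < a + b)] at hE
  exact (mul_le_mul_of_nonneg_left h (abs_nonneg _)).trans hE

lemma abs_add7 (a b c d e f g : ℝ) :
    |a + b + c + d + e + f + g| ≤ |a| + |b| + |c| + |d| + |e| + |f| + |g| := by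
  have h1 := abs_add_le (a + b + c + d + e + f) g
  have h2 := abs_add_le (a + b + c + d + e) f
  have h3 := abs_add_le (a + b + c + d) e
  have h4 := abs_add_le (a + b + c) d
  have h5 := abs_add_le (a + b) c
  have h6 := abs_add_le a b
  linarith

lemma prod_abs {U t z ρ u k : ℝ} {n s : ℕ} (hU : |U| ≤ u * ρ ^ n) (hz : |z| ≤ ρ) (ht : |t| ≤ k)
    (hns : n + s = 7) : |U * (z ^ s * t)| ≤ u * k * ρ ^ 7 := by
  have h0 : 0 ≤ ρ := (abs_nonneg z).trans hz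
  rw [abs_mul, abs_mul, abs_pow]
  have h1 := pow_le_pow_left₀ (abs_nonneg z) hz s
  have hk : 0 ≤ k := (abs_nonneg t).trans ht
  calc |U| * (|z| ^ s * |t|) ≤ (u * ρ ^ n) * (ρ ^ s * k) :=
        mul_le_mul hU (mul_le_mul h1 ht (abs_nonneg _) (by positivity)) (by positivity)
          ((abs_nonneg U).trans hU)
    _ = u * k * (ρ ^ n * ρ ^ s) := by ring
    _ = u * k * ρ ^ 7 := by rw [← pow_add, hns]


/-- Taylor polynomial of `(1+u)^(1/8)` of degree six. -/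
noncomputable def p1 (u : ℝ) : ℝ :=
  1 + (1 / 8) * u - (7 / 128) * u ^ 2 + (35 / 1024) * u ^ 3 - (805 / 32768) * u ^ 4 + (4991 / 262144) * u ^ 5 - (64883 / 4194304) * u ^ 6

/-- Taylor polynomial of `(1+u)^(2/8)` of degree six. -/
noncomputable def p2 (u : ℝ) : ℝ :=
  1 + (1 / 4) * u - (3 / 32) * u ^ 2 + (7 / 128) * u ^ 3 - (77 / 2048) * u ^ 4 + (231 / 8192) * u ^ 5 - (1463 / 65536) * u ^ 6

/-- Taylor polynomial of `(1+u)^(3/8)` of degree six. -/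
noncomputable def p3 (u : ℝ) : ℝ :=
  1 + (3 / 8) * u - (15 / 128) * u ^ 2 + (65 / 1024) * u ^ 3 - (1365 / 32768) * u ^ 4 + (7917 / 262144) * u ^ 5 - (97643 / 4194304) * u ^ 6

/-- Taylor polynomial of `(1+u)^(4/8)` of degree six. -/
noncomputable def p4 (u : ℝ) : ℝ :=
  1 + (1 / 2) * u - (1 / 8) * u ^ 2 + (1 / 16) * u ^ 3 - (5 / 128) * u ^ 4 + (7 / 256) * u ^ 5 - (21 / 1024) * u ^ 6

/-- Remainder polynomial. -/
noncomputable def r4 (u : ℝ) : ℝ :=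
  hev [-(33 / 1024), (165 / 16384), -(77 / 16384), (77 / 32768), -(147 / 131072), (441 / 1048576)] u

/-- Remainder polynomial. -/
noncomputable def r2 (u : ℝ) : ℝ :=
  hev [-(2695 / 131072), (36421 / 4194304), -(38269 / 8388608), (41503 / 16777216), -(337953 / 268435456), (2140369 / 4294967296)] u

/-- Remainder polynomial. -/
noncomputable def r1 (u : ℝ) : ℝ :=
  hev [-(127995 / 16777216), (3862229 / 1073741824), -(8559565 / 4294967296), (2410653 / 2147483648), -(323831053 / 549755813888), (4209803689 / 17592186044416)] u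

/-- Remainder polynomial. -/
noncomputable def r3 (u : ℝ) : ℝ :=
  hev [-(211617 / 16777216), (751583 / 134217728), -(810019 / 268435456), (14318535 / 8589934592), -(29591639 / 34359738368), (94923829 / 274877906944)] u

set_option linter.unusedSimpArgs false in
lemma p44_id (u : ℝ) : p4 u ^ 2 = 1 + u + u ^ 7 * r4 u := by
  simp only [p1, p2, p3, p4, r4, hev]
  ring

set_option linter.unusedSimpArgs false in
lemma p22_id (u : ℝ) : p2 u ^ 2 = p4 u + u ^ 7 * r2 u := by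
  simp only [p1, p2, p3, p4, r2, hev]
  ring

set_option linter.unusedSimpArgs false in
lemma p11_id (u : ℝ) : p1 u ^ 2 = p2 u + u ^ 7 * r1 u := by
  simp only [p1, p2, p3, p4, r1, hev]
  ring

set_option linter.unusedSimpArgs false in
lemma p12_id (u : ℝ) : p1 u * p2 u = p3 u + u ^ 7 * r3 u := by
  simp only [p1, p2, p3, p4, r3, hev]
  ring

lemma r4_abs {u : ℝ} (hu : |u| ≤ 1 / 50) : |r4 u| ≤ 33 / 1000 := by
  refine (hev_abs _ hu).trans ?_
  norm_num [hab, abs_of_pos, abs_of_neg]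

lemma r2_abs {u : ℝ} (hu : |u| ≤ 1 / 50) : |r2 u| ≤ 21 / 1000 := by
  refine (hev_abs _ hu).trans ?_
  norm_num [hab, abs_of_pos, abs_of_neg]

lemma r1_abs {u : ℝ} (hu : |u| ≤ 1 / 50) : |r1 u| ≤ 8 / 1000 := by
  refine (hev_abs _ hu).trans ?_
  norm_num [hab, abs_of_pos, abs_of_neg]

lemma r3_abs {u : ℝ} (hu : |u| ≤ 1 / 50) : |r3 u| ≤ 13 / 1000 := by
  refine (hev_abs _ hu).trans ?_
  norm_num [hab, abs_of_pos, abs_of_neg]

lemma p1_near {u : ℝ} (hu : |u| ≤ 1 / 50) : |p1 u - 1| ≤ 1 / 50 := by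
  have e : p1 u - 1 = hev [(0), (1 / 8), -(7 / 128), (35 / 1024), -(805 / 32768), (4991 / 262144), -(64883 / 4194304)] u := by
    simp only [p1, hev]
    ring
  rw [e]
  refine (hev_abs _ hu).trans ?_
  norm_num [hab, abs_of_pos, abs_of_neg]

lemma p2_near {u : ℝ} (hu : |u| ≤ 1 / 50) : |p2 u - 1| ≤ 1 / 50 := by
  have e : p2 u - 1 = hev [(0), (1 / 4), -(3 / 32), (7 / 128), -(77 / 2048), (231 / 8192), -(1463 / 65536)] u := by
    simp only [p2, hev]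
    ring
  rw [e]
  refine (hev_abs _ hu).trans ?_
  norm_num [hab, abs_of_pos, abs_of_neg]

lemma p3_near {u : ℝ} (hu : |u| ≤ 1 / 50) : |p3 u - 1| ≤ 1 / 50 := by
  have e : p3 u - 1 = hev [(0), (3 / 8), -(15 / 128), (65 / 1024), -(1365 / 32768), (7917 / 262144), -(97643 / 4194304)] u := by
    simp only [p3, hev]
    ring
  rw [e]
  refine (hev_abs _ hu).trans ?_
  norm_num [hab, abs_of_pos, abs_of_neg]

lemma p4_near {u : ℝ} (hu : |u| ≤ 1 / 50) : |p4 u - 1| ≤ 1 / 50 := by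
  have e : p4 u - 1 = hev [(0), (1 / 2), -(1 / 8), (1 / 16), -(5 / 128), (7 / 256), -(21 / 1024)] u := by
    simp only [p4, hev]
    ring
  rw [e]
  refine (hev_abs _ hu).trans ?_
  norm_num [hab, abs_of_pos, abs_of_neg]

lemma near_bounds {a : ℝ} (h : |a - 1| ≤ 1 / 50) : 49 / 50 ≤ a ∧ a ≤ 51 / 50 ∧ |a| ≤ 51 / 50 := by
  have h1 := abs_le.mp h
  have h2 : 49 / 50 ≤ a := by linarith [h1.1]
  have h3 : a ≤ 51 / 50 := by linarith [h1.2]
  refine ⟨h2, h3, ?_⟩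
  rw [abs_of_nonneg (by linarith)]
  exact h3

/-- The square root of a number near one is near one. -/
lemma sqrt_near {a : ℝ} (h : |a - 1| ≤ 1 / 50) : |Real.sqrt a - 1| ≤ 1 / 50 := by
  have h1 := near_bounds h
  have h0 : 0 ≤ a := by linarith [h1.1]
  have hs := Real.sq_sqrt h0
  have hn := Real.sqrt_nonneg a
  have l1 := h1.1
  have l2 := h1.2.1
  clear h h1
  rw [abs_le]
  constructor
  · by_contra hc
    push Not at hc
    nlinarith
  · by_contra hc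
    push Not at hc
    nlinarith

/-- The three square roots of `1 + u` and their Taylor bounds. -/
lemma roots_bound {u : ℝ} (hu : |u| ≤ 1 / 50) :
    ∃ w z y : ℝ, r8 (1 + u) = y ∧ y ^ 2 = z ∧ z ^ 2 = w ∧ w ^ 2 = 1 + u ∧
      |w - 1| ≤ 1 / 50 ∧ |z - 1| ≤ 1 / 50 ∧ |y - 1| ≤ 1 / 50 := by
  have h1 : |(1 + u) - 1| ≤ 1 / 50 := by simpa using hu
  have h2 := sqrt_near h1
  have h3 := sqrt_near h2
  have h4 := sqrt_near h3
  have b1 := near_bounds h1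
  have b2 := near_bounds h2
  have b3 := near_bounds h3
  refine ⟨Real.sqrt (1 + u), Real.sqrt (Real.sqrt (1 + u)), Real.sqrt (Real.sqrt (Real.sqrt (1 + u))),
    rfl, Real.sq_sqrt (by linarith [b3.1]), Real.sq_sqrt (by linarith [b2.1]),
    Real.sq_sqrt (by linarith [b1.1]), h2, h3, h4⟩

lemma t4_bound {u w : ℝ} (hu : |u| ≤ 1 / 50) (hw : w ^ 2 = 1 + u) (lw : 49 / 50 ≤ w) :
    |w - p4 u| ≤ 17 / 1000 * |u| ^ 7 := by
  have hp : 0 ≤ |u| ^ 7 := by positivity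
  have b4 := near_bounds (p4_near hu)
  have h := sq_diff (a := w) (b := p4 u) (E := 33 / 1000 * |u| ^ 7) (s := 49 / 25) (by norm_num)
    (by linarith [b4.1]) (by
      have e : w ^ 2 - p4 u ^ 2 = -(u ^ 7 * r4 u) := by rw [hw, p44_id]; ring
      rw [e, abs_neg, abs_mul, abs_pow, mul_comm]
      exact mul_le_mul_of_nonneg_right (r4_abs hu) hp)
  refine h.trans ?_
  rw [div_le_iff₀ (by norm_num)]
  linarith

lemma t2_bound {u w z : ℝ} (hu : |u| ≤ 1 / 50) (hz : z ^ 2 = w) (lz : 49 / 50 ≤ z)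
    (h4 : |w - p4 u| ≤ 17 / 1000 * |u| ^ 7) : |z - p2 u| ≤ 2 / 100 * |u| ^ 7 := by
  have hp : 0 ≤ |u| ^ 7 := by positivity
  have b2 := near_bounds (p2_near hu)
  have h := sq_diff (a := z) (b := p2 u) (E := 38 / 1000 * |u| ^ 7) (s := 49 / 25) (by norm_num)
    (by linarith [b2.1]) (by
      have e : z ^ 2 - p2 u ^ 2 = (w - p4 u) - u ^ 7 * r2 u := by rw [hz, p22_id]; ring
      rw [e]
      have h5 : |u ^ 7 * r2 u| ≤ 21 / 1000 * |u| ^ 7 := by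
        rw [abs_mul, abs_pow, mul_comm]
        exact mul_le_mul_of_nonneg_right (r2_abs hu) hp
      calc _ ≤ |w - p4 u| + |u ^ 7 * r2 u| := abs_sub _ _
        _ ≤ _ := by linarith)
  refine h.trans ?_
  rw [div_le_iff₀ (by norm_num)]
  linarith

lemma t1_bound {u z y : ℝ} (hu : |u| ≤ 1 / 50) (hy : y ^ 2 = z) (ly : 49 / 50 ≤ y)
    (h2 : |z - p2 u| ≤ 2 / 100 * |u| ^ 7) : |y - p1 u| ≤ 15 / 1000 * |u| ^ 7 := by
  have hp : 0 ≤ |u| ^ 7 := by positivity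
  have b1 := near_bounds (p1_near hu)
  have h := sq_diff (a := y) (b := p1 u) (E := 28 / 1000 * |u| ^ 7) (s := 49 / 25) (by norm_num)
    (by linarith [b1.1]) (by
      have e : y ^ 2 - p1 u ^ 2 = (z - p2 u) - u ^ 7 * r1 u := by rw [hy, p11_id]; ring
      rw [e]
      have h5 : |u ^ 7 * r1 u| ≤ 8 / 1000 * |u| ^ 7 := by
        rw [abs_mul, abs_pow, mul_comm]
        exact mul_le_mul_of_nonneg_right (r1_abs hu) hp
      calc _ ≤ |z - p2 u| + |u ^ 7 * r1 u| := abs_sub _ _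
        _ ≤ _ := by linarith)
  refine h.trans ?_
  rw [div_le_iff₀ (by norm_num)]
  linarith

lemma t3_bound {u z y : ℝ} (hu : |u| ≤ 1 / 50) (ny : |y| ≤ 51 / 50)
    (h2 : |z - p2 u| ≤ 2 / 100 * |u| ^ 7) (h1 : |y - p1 u| ≤ 15 / 1000 * |u| ^ 7) :
    |y * z - p3 u| ≤ 5 / 100 * |u| ^ 7 := by
  have hp : 0 ≤ |u| ^ 7 := by positivity
  have b2 := near_bounds (p2_near hu)
  have e : y * z - p3 u = y * (z - p2 u) + p2 u * (y - p1 u) + u ^ 7 * r3 u := by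
    have := p12_id u
    linear_combination this
  rw [e]
  have h5 : |u ^ 7 * r3 u| ≤ 13 / 1000 * |u| ^ 7 := by
    rw [abs_mul, abs_pow, mul_comm]
    exact mul_le_mul_of_nonneg_right (r3_abs hu) hp
  have h6 : |y * (z - p2 u)| ≤ 51 / 50 * (2 / 100 * |u| ^ 7) := by
    rw [abs_mul]
    exact mul_le_mul ny h2 (abs_nonneg _) (by norm_num)
  have h7 : |p2 u * (y - p1 u)| ≤ 51 / 50 * (15 / 1000 * |u| ^ 7) := by
    rw [abs_mul]
    exact mul_le_mul b2.2.2 h1 (abs_nonneg _) (by norm_num)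
  calc _ ≤ |y * (z - p2 u) + p2 u * (y - p1 u)| + |u ^ 7 * r3 u| := abs_add_le _ _
    _ ≤ |y * (z - p2 u)| + |p2 u * (y - p1 u)| + |u ^ 7 * r3 u| := by
        gcongr; exact abs_add_le _ _
    _ ≤ _ := by linarith

lemma le_of_sq_bound {a c : ℝ} (hc : 0 ≤ c) (h : a ^ 2 ≤ c ^ 2) : a ≤ c := by
  by_contra hn
  push Not at hn
  nlinarith

lemma cube_le {u w z y : ℝ} (hu : |u| ≤ 1 / 50) (hz0 : 0 ≤ z) (hy0 : 0 ≤ y) (hw : w ^ 2 = 1 + u)
    (hzw : z ^ 2 = w) (hyz : y ^ 2 = z) : |y * z| ≤ 51 / 50 := by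
  rw [abs_of_nonneg (mul_nonneg hy0 hz0)]
  have hu' := (abs_le.mp hu).2
  have hw2 : w ≤ 101 / 100 := le_of_sq_bound (by norm_num) (by rw [hw]; linarith)
  have hz3 : z ≤ 1006 / 1000 := le_of_sq_bound (by norm_num) (by rw [hzw]; linarith)
  have hy3 : y ≤ 1004 / 1000 := le_of_sq_bound (by norm_num) (by rw [hyz]; linarith)
  exact (mul_le_mul hy3 hz3 hz0 (by norm_num)).trans (by norm_num)

/-- The Taylor bounds for the four powers. -/
lemma taylor_all {u : ℝ} (hu : |u| ≤ 1 / 50) :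
    |r8 (1 + u) ^ 4 - p4 u| ≤ 17 / 1000 * |u| ^ 7 ∧ |r8 (1 + u) ^ 2 - p2 u| ≤ 2 / 100 * |u| ^ 7 ∧
    |r8 (1 + u) ^ 1 - p1 u| ≤ 15 / 1000 * |u| ^ 7 ∧ |r8 (1 + u) ^ 3 - p3 u| ≤ 5 / 100 * |u| ^ 7 ∧
    |r8 (1 + u) ^ 4| ≤ 51 / 50 ∧ |r8 (1 + u) ^ 2| ≤ 51 / 50 ∧ |r8 (1 + u) ^ 1| ≤ 51 / 50 ∧
    |r8 (1 + u) ^ 3| ≤ 51 / 50 := by
  obtain ⟨w, z, y, hy, hyz, hzw, hw, nw, nz, ny⟩ := roots_bound hu
  have bw := near_bounds nw
  have bz := near_bounds nz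
  have by' := near_bounds ny
  have h4 := t4_bound hu hw bw.1
  have h2 := t2_bound hu hzw bz.1 h4
  have h1 := t1_bound hu hyz by'.1 h2
  have h3 := t3_bound hu by'.2.2 h2 h1
  have e4 : r8 (1 + u) ^ 4 = w := by
    rw [hy, show y ^ 4 = (y ^ 2) ^ 2 by ring, hyz, hzw]
  have e2 : r8 (1 + u) ^ 2 = z := by rw [hy, hyz]
  have e1 : r8 (1 + u) ^ 1 = y := by rw [hy, pow_one]
  have e3 : r8 (1 + u) ^ 3 = y * z := by
    rw [hy, ← hyz]; ring
  rw [e4, e2, e1, e3]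
  exact ⟨h4, h2, h1, h3, bw.2.2, bz.2.2, by'.2.2,
    cube_le hu (by linarith [bz.1]) (by linarith [by'.1]) hw hzw hyz⟩


/-- Homogeneous part of degree 0 of `p4 x * p4 y`. -/
noncomputable def U44_0 (x y : ℝ) : ℝ :=
  1

/-- Homogeneous part of degree 1 of `p4 x * p4 y`. -/
noncomputable def U44_1 (x y : ℝ) : ℝ :=
  (1 / 2) * y + (1 / 2) * x

/-- Homogeneous part of degree 2 of `p4 x * p4 y`. -/
noncomputable def U44_2 (x y : ℝ) : ℝ :=
  -(1 / 8) * y ^ 2 + (1 / 4) * x * y - (1 / 8) * x ^ 2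

/-- Homogeneous part of degree 3 of `p4 x * p4 y`. -/
noncomputable def U44_3 (x y : ℝ) : ℝ :=
  (1 / 16) * y ^ 3 - (1 / 16) * x * y ^ 2 - (1 / 16) * x ^ 2 * y + (1 / 16) * x ^ 3

/-- Homogeneous part of degree 4 of `p4 x * p4 y`. -/
noncomputable def U44_4 (x y : ℝ) : ℝ :=
  -(5 / 128) * y ^ 4 + (1 / 32) * x * y ^ 3 + (1 / 64) * x ^ 2 * y ^ 2 + (1 / 32) * x ^ 3 * y - (5 / 128) * x ^ 4

/-- Homogeneous part of degree 5 of `p4 x * p4 y`. -/
noncomputable def U44_5 (x y : ℝ) : ℝ :=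
  (7 / 256) * y ^ 5 - (5 / 256) * x * y ^ 4 - (1 / 128) * x ^ 2 * y ^ 3 - (1 / 128) * x ^ 3 * y ^ 2 - (5 / 256) * x ^ 4 * y + (7 / 256) * x ^ 5

/-- Homogeneous part of degree 6 of `p4 x * p4 y`. -/
noncomputable def U44_6 (x y : ℝ) : ℝ :=
  -(21 / 1024) * y ^ 6 + (7 / 512) * x * y ^ 5 + (5 / 1024) * x ^ 2 * y ^ 4 + (1 / 256) * x ^ 3 * y ^ 3 + (5 / 1024) * x ^ 4 * y ^ 2 + (7 / 512) * x ^ 5 * y - (21 / 1024) * x ^ 6

/-- The monomials of degree at least seven of `p4 x * p4 y`. -/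
noncomputable def E44 : List (ℝ × ℕ × ℕ × ℕ) :=
  [(-(21 / 2048), 1, 6, 0),
    (-(7 / 2048), 2, 5, 0),
    ((21 / 8192), 2, 6, 0),
    (-(5 / 2048), 3, 4, 0),
    ((7 / 4096), 3, 5, 0),
    (-(21 / 16384), 3, 6, 0),
    (-(5 / 2048), 4, 3, 0),
    ((25 / 16384), 4, 4, 0),
    (-(35 / 32768), 4, 5, 0),
    ((105 / 131072), 4, 6, 0),
    (-(7 / 2048), 5, 2, 0),
    ((7 / 4096), 5, 3, 0),
    (-(35 / 32768), 5, 4, 0),
    ((49 / 65536), 5, 5, 0),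
    (-(147 / 262144), 5, 6, 0),
    (-(21 / 2048), 6, 1, 0),
    ((21 / 8192), 6, 2, 0),
    (-(21 / 16384), 6, 3, 0),
    ((105 / 131072), 6, 4, 0),
    (-(147 / 262144), 6, 5, 0),
    ((441 / 1048576), 6, 6, 0)]

lemma E44_deg : ∀ t ∈ E44, 7 ≤ t.2.1 + t.2.2.1 + t.2.2.2 := by
  simp [E44]

lemma E44_mab : mab E44 ≤ 324299 / 10000000 := by
  norm_num [mab, E44, abs_of_pos, abs_of_neg]

set_option linter.unusedSimpArgs false in
lemma E44_split (x y : ℝ) : p4 x * p4 y = U44_0 x y + U44_1 x y + U44_2 x y + U44_3 x y + U44_4 x y + U44_5 x y + U44_6 x y + mev E44 x y 0 := by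
  simp only [mev, E44, List.map_cons, List.map_nil, List.sum_cons, List.sum_nil, U44_0, U44_1, U44_2, U44_3, U44_4, U44_5, U44_6, p1, p2, p3, p4]
  ring

lemma U44_1_abs {x y ρ : ℝ} (hx : |x| ≤ ρ) (hy : |y| ≤ ρ) : |U44_1 x y| ≤ (1) * ρ ^ 1 := by
  have e : U44_1 x y = mev1 [((1 / 2), 0, 1), ((1 / 2), 1, 0)] x y := by
    simp only [mev1, List.map_cons, List.map_nil, List.sum_cons, List.sum_nil, U44_1]
    ring
  rw [e]
  refine (mev1_abs (n := 1) _ (by simp) hx hy).trans (mul_le_mul_of_nonneg_right ?_ (pow_nonneg ((abs_nonneg x).trans hx) _))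
  norm_num [mab1, abs_of_pos, abs_of_neg]

lemma U44_2_abs {x y ρ : ℝ} (hx : |x| ≤ ρ) (hy : |y| ≤ ρ) : |U44_2 x y| ≤ (1 / 2) * ρ ^ 2 := by
  have e : U44_2 x y = mev1 [(-(1 / 8), 0, 2), ((1 / 4), 1, 1), (-(1 / 8), 2, 0)] x y := by
    simp only [mev1, List.map_cons, List.map_nil, List.sum_cons, List.sum_nil, U44_2]
    ring
  rw [e]
  refine (mev1_abs (n := 2) _ (by simp) hx hy).trans (mul_le_mul_of_nonneg_right ?_ (pow_nonneg ((abs_nonneg x).trans hx) _))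
  norm_num [mab1, abs_of_pos, abs_of_neg]

lemma U44_3_abs {x y ρ : ℝ} (hx : |x| ≤ ρ) (hy : |y| ≤ ρ) : |U44_3 x y| ≤ (1 / 4) * ρ ^ 3 := by
  have e : U44_3 x y = mev1 [((1 / 16), 0, 3), (-(1 / 16), 1, 2), (-(1 / 16), 2, 1), ((1 / 16), 3, 0)] x y := by
    simp only [mev1, List.map_cons, List.map_nil, List.sum_cons, List.sum_nil, U44_3]
    ring
  rw [e]
  refine (mev1_abs (n := 3) _ (by simp) hx hy).trans (mul_le_mul_of_nonneg_right ?_ (pow_nonneg ((abs_nonneg x).trans hx) _))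
  norm_num [mab1, abs_of_pos, abs_of_neg]

lemma U44_4_abs {x y ρ : ℝ} (hx : |x| ≤ ρ) (hy : |y| ≤ ρ) : |U44_4 x y| ≤ (5 / 32) * ρ ^ 4 := by
  have e : U44_4 x y = mev1 [(-(5 / 128), 0, 4), ((1 / 32), 1, 3), ((1 / 64), 2, 2), ((1 / 32), 3, 1), (-(5 / 128), 4, 0)] x y := by
    simp only [mev1, List.map_cons, List.map_nil, List.sum_cons, List.sum_nil, U44_4]
    ring
  rw [e]
  refine (mev1_abs (n := 4) _ (by simp) hx hy).trans (mul_le_mul_of_nonneg_right ?_ (pow_nonneg ((abs_nonneg x).trans hx) _))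
  norm_num [mab1, abs_of_pos, abs_of_neg]

lemma U44_5_abs {x y ρ : ℝ} (hx : |x| ≤ ρ) (hy : |y| ≤ ρ) : |U44_5 x y| ≤ (7 / 64) * ρ ^ 5 := by
  have e : U44_5 x y = mev1 [((7 / 256), 0, 5), (-(5 / 256), 1, 4), (-(1 / 128), 2, 3), (-(1 / 128), 3, 2), (-(5 / 256), 4, 1), ((7 / 256), 5, 0)] x y := by
    simp only [mev1, List.map_cons, List.map_nil, List.sum_cons, List.sum_nil, U44_5]
    ring
  rw [e]
  refine (mev1_abs (n := 5) _ (by simp) hx hy).trans (mul_le_mul_of_nonneg_right ?_ (pow_nonneg ((abs_nonneg x).trans hx) _))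
  norm_num [mab1, abs_of_pos, abs_of_neg]

lemma U44_6_abs {x y ρ : ℝ} (hx : |x| ≤ ρ) (hy : |y| ≤ ρ) : |U44_6 x y| ≤ (820313 / 10000000) * ρ ^ 6 := by
  have e : U44_6 x y = mev1 [(-(21 / 1024), 0, 6), ((7 / 512), 1, 5), ((5 / 1024), 2, 4), ((1 / 256), 3, 3), ((5 / 1024), 4, 2), ((7 / 512), 5, 1), (-(21 / 1024), 6, 0)] x y := by
    simp only [mev1, List.map_cons, List.map_nil, List.sum_cons, List.sum_nil, U44_6]
    ring
  rw [e]
  refine (mev1_abs (n := 6) _ (by simp) hx hy).trans (mul_le_mul_of_nonneg_right ?_ (pow_nonneg ((abs_nonneg x).trans hx) _))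
  norm_num [mab1, abs_of_pos, abs_of_neg]

/-- Homogeneous part of degree 0 of `p4 x * p3 y`. -/
noncomputable def U43_0 (x y : ℝ) : ℝ :=
  1

/-- Homogeneous part of degree 1 of `p4 x * p3 y`. -/
noncomputable def U43_1 (x y : ℝ) : ℝ :=
  (3 / 8) * y + (1 / 2) * x

/-- Homogeneous part of degree 2 of `p4 x * p3 y`. -/
noncomputable def U43_2 (x y : ℝ) : ℝ :=
  -(15 / 128) * y ^ 2 + (3 / 16) * x * y - (1 / 8) * x ^ 2

/-- Homogeneous part of degree 3 of `p4 x * p3 y`. -/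
noncomputable def U43_3 (x y : ℝ) : ℝ :=
  (65 / 1024) * y ^ 3 - (15 / 256) * x * y ^ 2 - (3 / 64) * x ^ 2 * y + (1 / 16) * x ^ 3

/-- Homogeneous part of degree 4 of `p4 x * p3 y`. -/
noncomputable def U43_4 (x y : ℝ) : ℝ :=
  -(1365 / 32768) * y ^ 4 + (65 / 2048) * x * y ^ 3 + (15 / 1024) * x ^ 2 * y ^ 2 + (3 / 128) * x ^ 3 * y - (5 / 128) * x ^ 4

/-- Homogeneous part of degree 5 of `p4 x * p3 y`. -/
noncomputable def U43_5 (x y : ℝ) : ℝ :=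
  (7917 / 262144) * y ^ 5 - (1365 / 65536) * x * y ^ 4 - (65 / 8192) * x ^ 2 * y ^ 3 - (15 / 2048) * x ^ 3 * y ^ 2 - (15 / 1024) * x ^ 4 * y + (7 / 256) * x ^ 5

/-- Homogeneous part of degree 6 of `p4 x * p3 y`. -/
noncomputable def U43_6 (x y : ℝ) : ℝ :=
  -(97643 / 4194304) * y ^ 6 + (7917 / 524288) * x * y ^ 5 + (1365 / 262144) * x ^ 2 * y ^ 4 + (65 / 16384) * x ^ 3 * y ^ 3 + (75 / 16384) * x ^ 4 * y ^ 2 + (21 / 2048) * x ^ 5 * y - (21 / 1024) * x ^ 6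

/-- The monomials of degree at least seven of `p4 x * p3 y`. -/
noncomputable def E43 : List (ℝ × ℕ × ℕ × ℕ) :=
  [(-(97643 / 8388608), 1, 6, 0),
    (-(7917 / 2097152), 2, 5, 0),
    ((97643 / 33554432), 2, 6, 0),
    (-(1365 / 524288), 3, 4, 0),
    ((7917 / 4194304), 3, 5, 0),
    (-(97643 / 67108864), 3, 6, 0),
    (-(325 / 131072), 4, 3, 0),
    ((6825 / 4194304), 4, 4, 0),
    (-(39585 / 33554432), 4, 5, 0),
    ((488215 / 536870912), 4, 6, 0),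
    (-(105 / 32768), 5, 2, 0),
    ((455 / 262144), 5, 3, 0),
    (-(9555 / 8388608), 5, 4, 0),
    ((55419 / 67108864), 5, 5, 0),
    (-(683501 / 1073741824), 5, 6, 0),
    (-(63 / 8192), 6, 1, 0),
    ((315 / 131072), 6, 2, 0),
    (-(1365 / 1048576), 6, 3, 0),
    ((28665 / 33554432), 6, 4, 0),
    (-(166257 / 268435456), 6, 5, 0),
    ((2050503 / 4294967296), 6, 6, 0)]

lemma E43_deg : ∀ t ∈ E43, 7 ≤ t.2.1 + t.2.2.1 + t.2.2.2 := by
  simp [E43]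

lemma E43_mab : mab E43 ≤ 316063 / 10000000 := by
  norm_num [mab, E43, abs_of_pos, abs_of_neg]

set_option linter.unusedSimpArgs false in
lemma E43_split (x y : ℝ) : p4 x * p3 y = U43_0 x y + U43_1 x y + U43_2 x y + U43_3 x y + U43_4 x y + U43_5 x y + U43_6 x y + mev E43 x y 0 := by
  simp only [mev, E43, List.map_cons, List.map_nil, List.sum_cons, List.sum_nil, U43_0, U43_1, U43_2, U43_3, U43_4, U43_5, U43_6, p1, p2, p3, p4]
  ring

lemma U43_1_abs {x y ρ : ℝ} (hx : |x| ≤ ρ) (hy : |y| ≤ ρ) : |U43_1 x y| ≤ (7 / 8) * ρ ^ 1 := by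
  have e : U43_1 x y = mev1 [((3 / 8), 0, 1), ((1 / 2), 1, 0)] x y := by
    simp only [mev1, List.map_cons, List.map_nil, List.sum_cons, List.sum_nil, U43_1]
    ring
  rw [e]
  refine (mev1_abs (n := 1) _ (by simp) hx hy).trans (mul_le_mul_of_nonneg_right ?_ (pow_nonneg ((abs_nonneg x).trans hx) _))
  norm_num [mab1, abs_of_pos, abs_of_neg]

lemma U43_2_abs {x y ρ : ℝ} (hx : |x| ≤ ρ) (hy : |y| ≤ ρ) : |U43_2 x y| ≤ (55 / 128) * ρ ^ 2 := by
  have e : U43_2 x y = mev1 [(-(15 / 128), 0, 2), ((3 / 16), 1, 1), (-(1 / 8), 2, 0)] x y := by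
    simp only [mev1, List.map_cons, List.map_nil, List.sum_cons, List.sum_nil, U43_2]
    ring
  rw [e]
  refine (mev1_abs (n := 2) _ (by simp) hx hy).trans (mul_le_mul_of_nonneg_right ?_ (pow_nonneg ((abs_nonneg x).trans hx) _))
  norm_num [mab1, abs_of_pos, abs_of_neg]

lemma U43_3_abs {x y ρ : ℝ} (hx : |x| ≤ ρ) (hy : |y| ≤ ρ) : |U43_3 x y| ≤ (1157227 / 5000000) * ρ ^ 3 := by
  have e : U43_3 x y = mev1 [((65 / 1024), 0, 3), (-(15 / 256), 1, 2), (-(3 / 64), 2, 1), ((1 / 16), 3, 0)] x y := by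
    simp only [mev1, List.map_cons, List.map_nil, List.sum_cons, List.sum_nil, U43_3]
    ring
  rw [e]
  refine (mev1_abs (n := 3) _ (by simp) hx hy).trans (mul_le_mul_of_nonneg_right ?_ (pow_nonneg ((abs_nonneg x).trans hx) _))
  norm_num [mab1, abs_of_pos, abs_of_neg]

lemma U43_4_abs {x y ρ : ℝ} (hx : |x| ≤ ρ) (hy : |y| ≤ ρ) : |U43_4 x y| ≤ (1505433 / 10000000) * ρ ^ 4 := by
  have e : U43_4 x y = mev1 [(-(1365 / 32768), 0, 4), ((65 / 2048), 1, 3), ((15 / 1024), 2, 2), ((3 / 128), 3, 1), (-(5 / 128), 4, 0)] x y := by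
    simp only [mev1, List.map_cons, List.map_nil, List.sum_cons, List.sum_nil, U43_4]
    ring
  rw [e]
  refine (mev1_abs (n := 4) _ (by simp) hx hy).trans (mul_le_mul_of_nonneg_right ?_ (pow_nonneg ((abs_nonneg x).trans hx) _))
  norm_num [mab1, abs_of_pos, abs_of_neg]

lemma U43_5_abs {x y ρ : ℝ} (hx : |x| ≤ ρ) (hy : |y| ≤ ρ) : |U43_5 x y| ≤ (541401 / 5000000) * ρ ^ 5 := by
  have e : U43_5 x y = mev1 [((7917 / 262144), 0, 5), (-(1365 / 65536), 1, 4), (-(65 / 8192), 2, 3), (-(15 / 2048), 3, 2), (-(15 / 1024), 4, 1), ((7 / 256), 5, 0)] x y := by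
    simp only [mev1, List.map_cons, List.map_nil, List.sum_cons, List.sum_nil, U43_5]
    ring
  rw [e]
  refine (mev1_abs (n := 5) _ (by simp) hx hy).trans (mul_le_mul_of_nonneg_right ?_ (pow_nonneg ((abs_nonneg x).trans hx) _))
  norm_num [mab1, abs_of_pos, abs_of_neg]

lemma U43_6_abs {x y ρ : ℝ} (hx : |x| ≤ ρ) (hy : |y| ≤ ρ) : |U43_6 x y| ≤ (828941 / 10000000) * ρ ^ 6 := by
  have e : U43_6 x y = mev1 [(-(97643 / 4194304), 0, 6), ((7917 / 524288), 1, 5), ((1365 / 262144), 2, 4), ((65 / 16384), 3, 3), ((75 / 16384), 4, 2), ((21 / 2048), 5, 1), (-(21 / 1024), 6, 0)] x y := by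
    simp only [mev1, List.map_cons, List.map_nil, List.sum_cons, List.sum_nil, U43_6]
    ring
  rw [e]
  refine (mev1_abs (n := 6) _ (by simp) hx hy).trans (mul_le_mul_of_nonneg_right ?_ (pow_nonneg ((abs_nonneg x).trans hx) _))
  norm_num [mab1, abs_of_pos, abs_of_neg]

/-- Homogeneous part of degree 0 of `p3 x * p3 y`. -/
noncomputable def U33_0 (x y : ℝ) : ℝ :=
  1

/-- Homogeneous part of degree 1 of `p3 x * p3 y`. -/
noncomputable def U33_1 (x y : ℝ) : ℝ :=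
  (3 / 8) * y + (3 / 8) * x

/-- Homogeneous part of degree 2 of `p3 x * p3 y`. -/
noncomputable def U33_2 (x y : ℝ) : ℝ :=
  -(15 / 128) * y ^ 2 + (9 / 64) * x * y - (15 / 128) * x ^ 2

/-- Homogeneous part of degree 3 of `p3 x * p3 y`. -/
noncomputable def U33_3 (x y : ℝ) : ℝ :=
  (65 / 1024) * y ^ 3 - (45 / 1024) * x * y ^ 2 - (45 / 1024) * x ^ 2 * y + (65 / 1024) * x ^ 3

/-- Homogeneous part of degree 4 of `p3 x * p3 y`. -/
noncomputable def U33_4 (x y : ℝ) : ℝ :=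
  -(1365 / 32768) * y ^ 4 + (195 / 8192) * x * y ^ 3 + (225 / 16384) * x ^ 2 * y ^ 2 + (195 / 8192) * x ^ 3 * y - (1365 / 32768) * x ^ 4

/-- Homogeneous part of degree 5 of `p3 x * p3 y`. -/
noncomputable def U33_5 (x y : ℝ) : ℝ :=
  (7917 / 262144) * y ^ 5 - (4095 / 262144) * x * y ^ 4 - (975 / 131072) * x ^ 2 * y ^ 3 - (975 / 131072) * x ^ 3 * y ^ 2 - (4095 / 262144) * x ^ 4 * y + (7917 / 262144) * x ^ 5

/-- Homogeneous part of degree 6 of `p3 x * p3 y`. -/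
noncomputable def U33_6 (x y : ℝ) : ℝ :=
  -(97643 / 4194304) * y ^ 6 + (23751 / 2097152) * x * y ^ 5 + (20475 / 4194304) * x ^ 2 * y ^ 4 + (4225 / 1048576) * x ^ 3 * y ^ 3 + (20475 / 4194304) * x ^ 4 * y ^ 2 + (23751 / 2097152) * x ^ 5 * y - (97643 / 4194304) * x ^ 6

/-- The monomials of degree at least seven of `p3 x * p3 y`. -/
noncomputable def E33 : List (ℝ × ℕ × ℕ × ℕ) :=
  [(-(292929 / 33554432), 1, 6, 0),
    (-(118755 / 33554432), 2, 5, 0),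
    ((1464645 / 536870912), 2, 6, 0),
    (-(88725 / 33554432), 3, 4, 0),
    ((514605 / 268435456), 3, 5, 0),
    (-(6346795 / 4294967296), 3, 6, 0),
    (-(88725 / 33554432), 4, 3, 0),
    ((1863225 / 1073741824), 4, 4, 0),
    (-(10806705 / 8589934592), 4, 5, 0),
    ((133282695 / 137438953472), 4, 6, 0),
    (-(118755 / 33554432), 5, 2, 0),
    ((514605 / 268435456), 5, 3, 0),
    (-(10806705 / 8589934592), 5, 4, 0),
    ((62678889 / 68719476736), 5, 5, 0),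
    (-(773039631 / 1099511627776), 5, 6, 0),
    (-(292929 / 33554432), 6, 1, 0),
    ((1464645 / 536870912), 6, 2, 0),
    (-(6346795 / 4294967296), 6, 3, 0),
    ((133282695 / 137438953472), 6, 4, 0),
    (-(773039631 / 1099511627776), 6, 5, 0),
    ((9534155449 / 17592186044416), 6, 6, 0)]

lemma E33_deg : ∀ t ∈ E33, 7 ≤ t.2.1 + t.2.2.1 + t.2.2.2 := by
  simp [E33]

lemma E33_mab : mab E33 ≤ 60099 / 2000000 := by
  norm_num [mab, E33, abs_of_pos, abs_of_neg]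

set_option linter.unusedSimpArgs false in
lemma E33_split (x y : ℝ) : p3 x * p3 y = U33_0 x y + U33_1 x y + U33_2 x y + U33_3 x y + U33_4 x y + U33_5 x y + U33_6 x y + mev E33 x y 0 := by
  simp only [mev, E33, List.map_cons, List.map_nil, List.sum_cons, List.sum_nil, U33_0, U33_1, U33_2, U33_3, U33_4, U33_5, U33_6, p1, p2, p3, p4]
  ring

lemma U33_1_abs {x y ρ : ℝ} (hx : |x| ≤ ρ) (hy : |y| ≤ ρ) : |U33_1 x y| ≤ (3 / 4) * ρ ^ 1 := by
  have e : U33_1 x y = mev1 [((3 / 8), 0, 1), ((3 / 8), 1, 0)] x y := by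
    simp only [mev1, List.map_cons, List.map_nil, List.sum_cons, List.sum_nil, U33_1]
    ring
  rw [e]
  refine (mev1_abs (n := 1) _ (by simp) hx hy).trans (mul_le_mul_of_nonneg_right ?_ (pow_nonneg ((abs_nonneg x).trans hx) _))
  norm_num [mab1, abs_of_pos, abs_of_neg]

lemma U33_2_abs {x y ρ : ℝ} (hx : |x| ≤ ρ) (hy : |y| ≤ ρ) : |U33_2 x y| ≤ (3 / 8) * ρ ^ 2 := by
  have e : U33_2 x y = mev1 [(-(15 / 128), 0, 2), ((9 / 64), 1, 1), (-(15 / 128), 2, 0)] x y := by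
    simp only [mev1, List.map_cons, List.map_nil, List.sum_cons, List.sum_nil, U33_2]
    ring
  rw [e]
  refine (mev1_abs (n := 2) _ (by simp) hx hy).trans (mul_le_mul_of_nonneg_right ?_ (pow_nonneg ((abs_nonneg x).trans hx) _))
  norm_num [mab1, abs_of_pos, abs_of_neg]

lemma U33_3_abs {x y ρ : ℝ} (hx : |x| ≤ ρ) (hy : |y| ≤ ρ) : |U33_3 x y| ≤ (1074219 / 5000000) * ρ ^ 3 := by
  have e : U33_3 x y = mev1 [((65 / 1024), 0, 3), (-(45 / 1024), 1, 2), (-(45 / 1024), 2, 1), ((65 / 1024), 3, 0)] x y := by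
    simp only [mev1, List.map_cons, List.map_nil, List.sum_cons, List.sum_nil, U33_3]
    ring
  rw [e]
  refine (mev1_abs (n := 3) _ (by simp) hx hy).trans (mul_le_mul_of_nonneg_right ?_ (pow_nonneg ((abs_nonneg x).trans hx) _))
  norm_num [mab1, abs_of_pos, abs_of_neg]

lemma U33_4_abs {x y ρ : ℝ} (hx : |x| ≤ ρ) (hy : |y| ≤ ρ) : |U33_4 x y| ≤ (723267 / 5000000) * ρ ^ 4 := by
  have e : U33_4 x y = mev1 [(-(1365 / 32768), 0, 4), ((195 / 8192), 1, 3), ((225 / 16384), 2, 2), ((195 / 8192), 3, 1), (-(1365 / 32768), 4, 0)] x y := by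
    simp only [mev1, List.map_cons, List.map_nil, List.sum_cons, List.sum_nil, U33_4]
    ring
  rw [e]
  refine (mev1_abs (n := 4) _ (by simp) hx hy).trans (mul_le_mul_of_nonneg_right ?_ (pow_nonneg ((abs_nonneg x).trans hx) _))
  norm_num [mab1, abs_of_pos, abs_of_neg]

lemma U33_5_abs {x y ρ : ℝ} (hx : |x| ≤ ρ) (hy : |y| ≤ ρ) : |U33_5 x y| ≤ (1065217 / 10000000) * ρ ^ 5 := by
  have e : U33_5 x y = mev1 [((7917 / 262144), 0, 5), (-(4095 / 262144), 1, 4), (-(975 / 131072), 2, 3), (-(975 / 131072), 3, 2), (-(4095 / 262144), 4, 1), ((7917 / 262144), 5, 0)] x y := by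
    simp only [mev1, List.map_cons, List.map_nil, List.sum_cons, List.sum_nil, U33_5]
    ring
  rw [e]
  refine (mev1_abs (n := 5) _ (by simp) hx hy).trans (mul_le_mul_of_nonneg_right ?_ (pow_nonneg ((abs_nonneg x).trans hx) _))
  norm_num [mab1, abs_of_pos, abs_of_neg]

lemma U33_6_abs {x y ρ : ℝ} (hx : |x| ≤ ρ) (hy : |y| ≤ ρ) : |U33_6 x y| ≤ (830031 / 10000000) * ρ ^ 6 := by
  have e : U33_6 x y = mev1 [(-(97643 / 4194304), 0, 6), ((23751 / 2097152), 1, 5), ((20475 / 4194304), 2, 4), ((4225 / 1048576), 3, 3), ((20475 / 4194304), 4, 2), ((23751 / 2097152), 5, 1), (-(97643 / 4194304), 6, 0)] x y := by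
    simp only [mev1, List.map_cons, List.map_nil, List.sum_cons, List.sum_nil, U33_6]
    ring
  rw [e]
  refine (mev1_abs (n := 6) _ (by simp) hx hy).trans (mul_le_mul_of_nonneg_right ?_ (pow_nonneg ((abs_nonneg x).trans hx) _))
  norm_num [mab1, abs_of_pos, abs_of_neg]

/-- Truncation to degree 0 of `p1`. -/
noncomputable def q1_0 (z : ℝ) : ℝ :=
  1

/-- Truncation to degree 1 of `p1`. -/
noncomputable def q1_1 (z : ℝ) : ℝ :=
  1 + (1 / 8) * z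

/-- Truncation to degree 2 of `p1`. -/
noncomputable def q1_2 (z : ℝ) : ℝ :=
  1 + (1 / 8) * z - (7 / 128) * z ^ 2

/-- Truncation to degree 3 of `p1`. -/
noncomputable def q1_3 (z : ℝ) : ℝ :=
  1 + (1 / 8) * z - (7 / 128) * z ^ 2 + (35 / 1024) * z ^ 3

/-- Truncation to degree 4 of `p1`. -/
noncomputable def q1_4 (z : ℝ) : ℝ :=
  1 + (1 / 8) * z - (7 / 128) * z ^ 2 + (35 / 1024) * z ^ 3 - (805 / 32768) * z ^ 4

/-- Truncation to degree 5 of `p1`. -/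
noncomputable def q1_5 (z : ℝ) : ℝ :=
  1 + (1 / 8) * z - (7 / 128) * z ^ 2 + (35 / 1024) * z ^ 3 - (805 / 32768) * z ^ 4 + (4991 / 262144) * z ^ 5

/-- The tail of `p1` from degree 1, divided by `z ^ 1`. -/
noncomputable def t1_1 (z : ℝ) : ℝ :=
  hev [(1 / 8), -(7 / 128), (35 / 1024), -(805 / 32768), (4991 / 262144), -(64883 / 4194304)] z

lemma t1_1_abs {z : ℝ} (hz : |z| ≤ 1 / 50) : |t1_1 z| ≤ 1261077 / 10000000 := by
  refine (hev_abs _ hz).trans ?_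
  norm_num [hab, abs_of_pos, abs_of_neg]

set_option linter.unusedSimpArgs false in
lemma split1_1 (z : ℝ) : p1 z = q1_0 z + z ^ 1 * t1_1 z := by
  simp only [p1, p2, p3, p4, q1_0, t1_1, hev]
  ring

/-- The tail of `p1` from degree 2, divided by `z ^ 2`. -/
noncomputable def t1_2 (z : ℝ) : ℝ :=
  hev [-(7 / 128), (35 / 1024), -(805 / 32768), (4991 / 262144), -(64883 / 4194304)] z

lemma t1_2_abs {z : ℝ} (hz : |z| ≤ 1 / 50) : |t1_2 z| ≤ 553811 / 10000000 := by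
  refine (hev_abs _ hz).trans ?_
  norm_num [hab, abs_of_pos, abs_of_neg]

set_option linter.unusedSimpArgs false in
lemma split1_2 (z : ℝ) : p1 z = q1_1 z + z ^ 2 * t1_2 z := by
  simp only [p1, p2, p3, p4, q1_1, t1_2, hev]
  ring

/-- The tail of `p1` from degree 3, divided by `z ^ 3`. -/
noncomputable def t1_3 (z : ℝ) : ℝ :=
  hev [(35 / 1024), -(805 / 32768), (4991 / 262144), -(64883 / 4194304)] z

lemma t1_3_abs {z : ℝ} (hz : |z| ≤ 1 / 50) : |t1_3 z| ≤ 86697 / 2500000 := by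
  refine (hev_abs _ hz).trans ?_
  norm_num [hab, abs_of_pos, abs_of_neg]

set_option linter.unusedSimpArgs false in
lemma split1_3 (z : ℝ) : p1 z = q1_2 z + z ^ 3 * t1_3 z := by
  simp only [p1, p2, p3, p4, q1_2, t1_3, hev]
  ring

/-- The tail of `p1` from degree 4, divided by `z ^ 4`. -/
noncomputable def t1_4 (z : ℝ) : ℝ :=
  hev [-(805 / 32768), (4991 / 262144), -(64883 / 4194304)] z

lemma t1_4_abs {z : ℝ} (hz : |z| ≤ 1 / 50) : |t1_4 z| ≤ 249537 / 10000000 := by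
  refine (hev_abs _ hz).trans ?_
  norm_num [hab, abs_of_pos, abs_of_neg]

set_option linter.unusedSimpArgs false in
lemma split1_4 (z : ℝ) : p1 z = q1_3 z + z ^ 4 * t1_4 z := by
  simp only [p1, p2, p3, p4, q1_3, t1_4, hev]
  ring

/-- The tail of `p1` from degree 5, divided by `z ^ 5`. -/
noncomputable def t1_5 (z : ℝ) : ℝ :=
  hev [(4991 / 262144), -(64883 / 4194304)] z

lemma t1_5_abs {z : ℝ} (hz : |z| ≤ 1 / 50) : |t1_5 z| ≤ 96743 / 5000000 := by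
  refine (hev_abs _ hz).trans ?_
  norm_num [hab, abs_of_pos, abs_of_neg]

set_option linter.unusedSimpArgs false in
lemma split1_5 (z : ℝ) : p1 z = q1_4 z + z ^ 5 * t1_5 z := by
  simp only [p1, p2, p3, p4, q1_4, t1_5, hev]
  ring

/-- The tail of `p1` from degree 6, divided by `z ^ 6`. -/
noncomputable def t1_6 (z : ℝ) : ℝ :=
  hev [-(64883 / 4194304)] z

lemma t1_6_abs {z : ℝ} (hz : |z| ≤ 1 / 50) : |t1_6 z| ≤ 77347 / 5000000 := by
  refine (hev_abs _ hz).trans ?_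
  norm_num [hab, abs_of_pos, abs_of_neg]

set_option linter.unusedSimpArgs false in
lemma split1_6 (z : ℝ) : p1 z = q1_5 z + z ^ 6 * t1_6 z := by
  simp only [p1, p2, p3, p4, q1_5, t1_6, hev]
  ring

/-- Truncation to degree 0 of `p2`. -/
noncomputable def q2_0 (z : ℝ) : ℝ :=
  1

/-- Truncation to degree 1 of `p2`. -/
noncomputable def q2_1 (z : ℝ) : ℝ :=
  1 + (1 / 4) * z

/-- Truncation to degree 2 of `p2`. -/
noncomputable def q2_2 (z : ℝ) : ℝ :=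
  1 + (1 / 4) * z - (3 / 32) * z ^ 2

/-- Truncation to degree 3 of `p2`. -/
noncomputable def q2_3 (z : ℝ) : ℝ :=
  1 + (1 / 4) * z - (3 / 32) * z ^ 2 + (7 / 128) * z ^ 3

/-- Truncation to degree 4 of `p2`. -/
noncomputable def q2_4 (z : ℝ) : ℝ :=
  1 + (1 / 4) * z - (3 / 32) * z ^ 2 + (7 / 128) * z ^ 3 - (77 / 2048) * z ^ 4

/-- Truncation to degree 5 of `p2`. -/
noncomputable def q2_5 (z : ℝ) : ℝ :=
  1 + (1 / 4) * z - (3 / 32) * z ^ 2 + (7 / 128) * z ^ 3 - (77 / 2048) * z ^ 4 + (231 / 8192) * z ^ 5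

/-- The tail of `p2` from degree 1, divided by `z ^ 1`. -/
noncomputable def t2_1 (z : ℝ) : ℝ :=
  hev [(1 / 4), -(3 / 32), (7 / 128), -(77 / 2048), (231 / 8192), -(1463 / 65536)] z

lemma t2_1_abs {z : ℝ} (hz : |z| ≤ 1 / 50) : |t2_1 z| ≤ 629743 / 2500000 := by
  refine (hev_abs _ hz).trans ?_
  norm_num [hab, abs_of_pos, abs_of_neg]

set_option linter.unusedSimpArgs false in
lemma split2_1 (z : ℝ) : p2 z = q2_0 z + z ^ 1 * t2_1 z := by
  simp only [p1, p2, p3, p4, q2_0, t2_1, hev]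
  ring

/-- The tail of `p2` from degree 2, divided by `z ^ 2`. -/
noncomputable def t2_2 (z : ℝ) : ℝ :=
  hev [-(3 / 32), (7 / 128), -(77 / 2048), (231 / 8192), -(1463 / 65536)] z

lemma t2_2_abs {z : ℝ} (hz : |z| ≤ 1 / 50) : |t2_2 z| ≤ 948591 / 10000000 := by
  refine (hev_abs _ hz).trans ?_
  norm_num [hab, abs_of_pos, abs_of_neg]

set_option linter.unusedSimpArgs false in
lemma split2_2 (z : ℝ) : p2 z = q2_1 z + z ^ 2 * t2_2 z := by
  simp only [p1, p2, p3, p4, q2_1, t2_2, hev]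
  ring

/-- The tail of `p2` from degree 3, divided by `z ^ 3`. -/
noncomputable def t2_3 (z : ℝ) : ℝ :=
  hev [(7 / 128), -(77 / 2048), (231 / 8192), -(1463 / 65536)] z

lemma t2_3_abs {z : ℝ} (hz : |z| ≤ 1 / 50) : |t2_3 z| ≤ 55451 / 1000000 := by
  refine (hev_abs _ hz).trans ?_
  norm_num [hab, abs_of_pos, abs_of_neg]

set_option linter.unusedSimpArgs false in
lemma split2_3 (z : ℝ) : p2 z = q2_2 z + z ^ 3 * t2_3 z := by
  simp only [p1, p2, p3, p4, q2_2, t2_3, hev]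
  ring

/-- The tail of `p2` from degree 4, divided by `z ^ 4`. -/
noncomputable def t2_4 (z : ℝ) : ℝ :=
  hev [-(77 / 2048), (231 / 8192), -(1463 / 65536)] z

lemma t2_4_abs {z : ℝ} (hz : |z| ≤ 1 / 50) : |t2_4 z| ≤ 190853 / 5000000 := by
  refine (hev_abs _ hz).trans ?_
  norm_num [hab, abs_of_pos, abs_of_neg]

set_option linter.unusedSimpArgs false in
lemma split2_4 (z : ℝ) : p2 z = q2_3 z + z ^ 4 * t2_4 z := by
  simp only [p1, p2, p3, p4, q2_3, t2_4, hev]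
  ring

/-- The tail of `p2` from degree 5, divided by `z ^ 5`. -/
noncomputable def t2_5 (z : ℝ) : ℝ :=
  hev [(231 / 8192), -(1463 / 65536)] z

lemma t2_5_abs {z : ℝ} (hz : |z| ≤ 1 / 50) : |t2_5 z| ≤ 17903 / 625000 := by
  refine (hev_abs _ hz).trans ?_
  norm_num [hab, abs_of_pos, abs_of_neg]

set_option linter.unusedSimpArgs false in
lemma split2_5 (z : ℝ) : p2 z = q2_4 z + z ^ 5 * t2_5 z := by
  simp only [p1, p2, p3, p4, q2_4, t2_5, hev]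
  ring

/-- The tail of `p2` from degree 6, divided by `z ^ 6`. -/
noncomputable def t2_6 (z : ℝ) : ℝ :=
  hev [-(1463 / 65536)] z

lemma t2_6_abs {z : ℝ} (hz : |z| ≤ 1 / 50) : |t2_6 z| ≤ 223237 / 10000000 := by
  refine (hev_abs _ hz).trans ?_
  norm_num [hab, abs_of_pos, abs_of_neg]

set_option linter.unusedSimpArgs false in
lemma split2_6 (z : ℝ) : p2 z = q2_5 z + z ^ 6 * t2_6 z := by
  simp only [p1, p2, p3, p4, q2_5, t2_6, hev]
  ring

/-- The truncation of the product. -/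
noncomputable def T440 (x y _z : ℝ) : ℝ :=
  U44_0 x y + U44_1 x y + U44_2 x y + U44_3 x y + U44_4 x y + U44_5 x y + U44_6 x y

lemma H440_bound {x y z ρ : ℝ} (hx : |x| ≤ ρ) (hy : |y| ≤ ρ) (hρ : ρ ≤ 1 / 50) :
    |p4 x * p4 y * 1 - T440 x y z| ≤ (324299 / 10000000) * ρ ^ 7 := by
  have h0 : 0 ≤ ρ := (abs_nonneg x).trans hx
  have e : p4 x * p4 y * 1 - T440 x y z = mev E44 x y 0 := by
    rw [mul_one, E44_split]
    simp only [T440]
    ring
  rw [e]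
  refine (mev_abs _ E44_deg (z := 0) hx hy (by simpa using h0) hρ).trans (mul_le_mul_of_nonneg_right E44_mab (by positivity))

lemma core440 {x y z ρ : ℝ} (hx : |x| ≤ ρ) (hy : |y| ≤ ρ) (hz : |z| ≤ ρ) (hρ : ρ ≤ 1 / 50) :
    |r8 (1 + x) ^ 4 * r8 (1 + y) ^ 4 * r8 (1 + z) ^ 0 - T440 x y z| ≤ 1 / 2 * ρ ^ 7 := by
  have hρ0 : 0 ≤ ρ := (abs_nonneg x).trans hx
  have hρ7 : 0 ≤ ρ ^ 7 := by positivity
  have fa := taylor_all (u := x) (hx.trans hρ)
  have ga : |x| ^ 7 ≤ ρ ^ 7 := pow_le_pow_left₀ (abs_nonneg _) hx 7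
  have fb := taylor_all (u := y) (hy.trans hρ)
  have gb : |y| ^ 7 ≤ ρ ^ 7 := pow_le_pow_left₀ (abs_nonneg _) hy 7
  have fc := taylor_all (u := z) (hz.trans hρ)
  have gc : |z| ^ 7 ≤ ρ ^ 7 := pow_le_pow_left₀ (abs_nonneg _) hz 7

  have t1 := triple_diff (X := r8 (1 + x) ^ 4) (Y := r8 (1 + y) ^ 4) (Z := r8 (1 + z) ^ 0)
      (X' := p4 x) (Y' := p4 y) (Z' := 1) (ex := 17 / 1000 * ρ ^ 7) (ey := 17 / 1000 * ρ ^ 7) (ez := 0 * ρ ^ 7) (U := 51 / 50)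
      (by norm_num) (fa.1.trans (mul_le_mul_of_nonneg_left ga (by norm_num))) (fb.1.trans (mul_le_mul_of_nonneg_left gb (by norm_num))) (by simp) (fb.2.2.2.2.1) (by norm_num) ((near_bounds (p4_near (hx.trans hρ))).2.2) ((near_bounds (p4_near (hy.trans hρ))).2.2)
  have t2 := H440_bound (z := z) hx hy hρ
  calc _ ≤ |r8 (1 + x) ^ 4 * r8 (1 + y) ^ 4 * r8 (1 + z) ^ 0 - p4 x * p4 y * 1|
          + |p4 x * p4 y * 1 - T440 x y z| := abs_sub_le _ _ _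
    _ ≤ _ := by linarith

/-- The truncation of the product. -/
noncomputable def T431 (x y z : ℝ) : ℝ :=
  U43_0 x y * p1 z + U43_1 x y * q1_5 z + U43_2 x y * q1_4 z + U43_3 x y * q1_3 z + U43_4 x y * q1_2 z + U43_5 x y * q1_1 z + U43_6 x y * q1_0 z

lemma H431_bound {x y z ρ : ℝ} (hx : |x| ≤ ρ) (hy : |y| ≤ ρ) (hz : |z| ≤ ρ) (hρ : ρ ≤ 1 / 50) :
    |p4 x * p3 y * p1 z - T431 x y z| ≤ (4077 / 50000) * ρ ^ 7 := by
  have h0 : 0 ≤ ρ := (abs_nonneg x).trans hx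
  have hz' : |z| ≤ 1 / 50 := hz.trans hρ
  have hρ7 : 0 ≤ ρ ^ 7 := by positivity
  have e1 := E43_split x y
  have e2_1 := split1_6 z
  have e2_2 := split1_5 z
  have e2_3 := split1_4 z
  have e2_4 := split1_3 z
  have e2_5 := split1_2 z
  have e2_6 := split1_1 z
  have e : p4 x * p3 y * p1 z - T431 x y z =
      mev E43 x y 0 * p1 z + U43_1 x y * (z ^ 6 * t1_6 z) + U43_2 x y * (z ^ 5 * t1_5 z) + U43_3 x y * (z ^ 4 * t1_4 z) + U43_4 x y * (z ^ 3 * t1_3 z) + U43_5 x y * (z ^ 2 * t1_2 z) + U43_6 x y * (z ^ 1 * t1_1 z) := by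
    simp only [T431]
    linear_combination p1 z * e1 + U43_1 x y * e2_1 + U43_2 x y * e2_2 + U43_3 x y * e2_3 + U43_4 x y * e2_4 + U43_5 x y * e2_5 + U43_6 x y * e2_6
  have b0 : |mev E43 x y 0 * p1 z| ≤ (316063 / 10000000) * (51 / 50) * ρ ^ 7 := by
    have h1 := (mev_abs _ E43_deg (z := 0) hx hy (by simpa using h0) hρ).trans (mul_le_mul_of_nonneg_right E43_mab hρ7)
    have h2 := (near_bounds (p1_near hz')).2.2
    rw [abs_mul]
    calc _ ≤ ((316063 / 10000000) * ρ ^ 7) * (51 / 50) := mul_le_mul h1 h2 (abs_nonneg _) (by positivity)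
      _ = _ := by ring
  have b1 : |U43_1 x y * (z ^ 6 * t1_6 z)| ≤ (7 / 8) * (77347 / 5000000) * ρ ^ 7 :=
    prod_abs (U43_1_abs hx hy) hz (t1_6_abs hz') (by norm_num)
  have b2 : |U43_2 x y * (z ^ 5 * t1_5 z)| ≤ (55 / 128) * (96743 / 5000000) * ρ ^ 7 :=
    prod_abs (U43_2_abs hx hy) hz (t1_5_abs hz') (by norm_num)
  have b3 : |U43_3 x y * (z ^ 4 * t1_4 z)| ≤ (1157227 / 5000000) * (249537 / 10000000) * ρ ^ 7 :=
    prod_abs (U43_3_abs hx hy) hz (t1_4_abs hz') (by norm_num)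
  have b4 : |U43_4 x y * (z ^ 3 * t1_3 z)| ≤ (1505433 / 10000000) * (86697 / 2500000) * ρ ^ 7 :=
    prod_abs (U43_4_abs hx hy) hz (t1_3_abs hz') (by norm_num)
  have b5 : |U43_5 x y * (z ^ 2 * t1_2 z)| ≤ (541401 / 5000000) * (553811 / 10000000) * ρ ^ 7 :=
    prod_abs (U43_5_abs hx hy) hz (t1_2_abs hz') (by norm_num)
  have b6 : |U43_6 x y * (z ^ 1 * t1_1 z)| ≤ (828941 / 10000000) * (1261077 / 10000000) * ρ ^ 7 :=
    prod_abs (U43_6_abs hx hy) hz (t1_1_abs hz') (by norm_num)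
  rw [e]
  have := abs_add7 (mev E43 x y 0 * p1 z) (U43_1 x y * (z ^ 6 * t1_6 z)) (U43_2 x y * (z ^ 5 * t1_5 z)) (U43_3 x y * (z ^ 4 * t1_4 z)) (U43_4 x y * (z ^ 3 * t1_3 z)) (U43_5 x y * (z ^ 2 * t1_2 z)) (U43_6 x y * (z ^ 1 * t1_1 z))
  refine this.trans ?_
  linarith

lemma core431 {x y z ρ : ℝ} (hx : |x| ≤ ρ) (hy : |y| ≤ ρ) (hz : |z| ≤ ρ) (hρ : ρ ≤ 1 / 50) :
    |r8 (1 + x) ^ 4 * r8 (1 + y) ^ 3 * r8 (1 + z) ^ 1 - T431 x y z| ≤ 1 / 2 * ρ ^ 7 := by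
  have hρ0 : 0 ≤ ρ := (abs_nonneg x).trans hx
  have hρ7 : 0 ≤ ρ ^ 7 := by positivity
  have fa := taylor_all (u := x) (hx.trans hρ)
  have ga : |x| ^ 7 ≤ ρ ^ 7 := pow_le_pow_left₀ (abs_nonneg _) hx 7
  have fb := taylor_all (u := y) (hy.trans hρ)
  have gb : |y| ^ 7 ≤ ρ ^ 7 := pow_le_pow_left₀ (abs_nonneg _) hy 7
  have fc := taylor_all (u := z) (hz.trans hρ)
  have gc : |z| ^ 7 ≤ ρ ^ 7 := pow_le_pow_left₀ (abs_nonneg _) hz 7

  have t1 := triple_diff (X := r8 (1 + x) ^ 4) (Y := r8 (1 + y) ^ 3) (Z := r8 (1 + z) ^ 1)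
      (X' := p4 x) (Y' := p3 y) (Z' := p1 z) (ex := 17 / 1000 * ρ ^ 7) (ey := 5 / 100 * ρ ^ 7) (ez := 15 / 1000 * ρ ^ 7) (U := 51 / 50)
      (by norm_num) (fa.1.trans (mul_le_mul_of_nonneg_left ga (by norm_num))) (fb.2.2.2.1.trans (mul_le_mul_of_nonneg_left gb (by norm_num))) (fc.2.2.1.trans (mul_le_mul_of_nonneg_left gc (by norm_num))) (fb.2.2.2.2.2.2.2) (fc.2.2.2.2.2.2.1) ((near_bounds (p4_near (hx.trans hρ))).2.2) ((near_bounds (p3_near (hy.trans hρ))).2.2)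
  have t2 := H431_bound (z := z) hx hy hz hρ
  calc _ ≤ |r8 (1 + x) ^ 4 * r8 (1 + y) ^ 3 * r8 (1 + z) ^ 1 - p4 x * p3 y * p1 z|
          + |p4 x * p3 y * p1 z - T431 x y z| := abs_sub_le _ _ _
    _ ≤ _ := by linarith

/-- The truncation of the product. -/
noncomputable def T332 (x y z : ℝ) : ℝ :=
  U33_0 x y * p2 z + U33_1 x y * q2_5 z + U33_2 x y * q2_4 z + U33_3 x y * q2_3 z + U33_4 x y * q2_2 z + U33_5 x y * q2_1 z + U33_6 x y * q2_0 z

lemma H332_bound {x y z ρ : ℝ} (hx : |x| ≤ ρ) (hy : |y| ≤ ρ) (hz : |z| ≤ ρ) (hρ : ρ ≤ 1 / 50) :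
    |p3 x * p3 y * p2 z - T332 x y z| ≤ (10537 / 100000) * ρ ^ 7 := by
  have h0 : 0 ≤ ρ := (abs_nonneg x).trans hx
  have hz' : |z| ≤ 1 / 50 := hz.trans hρ
  have hρ7 : 0 ≤ ρ ^ 7 := by positivity
  have e1 := E33_split x y
  have e2_1 := split2_6 z
  have e2_2 := split2_5 z
  have e2_3 := split2_4 z
  have e2_4 := split2_3 z
  have e2_5 := split2_2 z
  have e2_6 := split2_1 z
  have e : p3 x * p3 y * p2 z - T332 x y z =
      mev E33 x y 0 * p2 z + U33_1 x y * (z ^ 6 * t2_6 z) + U33_2 x y * (z ^ 5 * t2_5 z) + U33_3 x y * (z ^ 4 * t2_4 z) + U33_4 x y * (z ^ 3 * t2_3 z) + U33_5 x y * (z ^ 2 * t2_2 z) + U33_6 x y * (z ^ 1 * t2_1 z) := by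
    simp only [T332]
    linear_combination p2 z * e1 + U33_1 x y * e2_1 + U33_2 x y * e2_2 + U33_3 x y * e2_3 + U33_4 x y * e2_4 + U33_5 x y * e2_5 + U33_6 x y * e2_6
  have b0 : |mev E33 x y 0 * p2 z| ≤ (60099 / 2000000) * (51 / 50) * ρ ^ 7 := by
    have h1 := (mev_abs _ E33_deg (z := 0) hx hy (by simpa using h0) hρ).trans (mul_le_mul_of_nonneg_right E33_mab hρ7)
    have h2 := (near_bounds (p2_near hz')).2.2
    rw [abs_mul]
    calc _ ≤ ((60099 / 2000000) * ρ ^ 7) * (51 / 50) := mul_le_mul h1 h2 (abs_nonneg _) (by positivity)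
      _ = _ := by ring
  have b1 : |U33_1 x y * (z ^ 6 * t2_6 z)| ≤ (3 / 4) * (223237 / 10000000) * ρ ^ 7 :=
    prod_abs (U33_1_abs hx hy) hz (t2_6_abs hz') (by norm_num)
  have b2 : |U33_2 x y * (z ^ 5 * t2_5 z)| ≤ (3 / 8) * (17903 / 625000) * ρ ^ 7 :=
    prod_abs (U33_2_abs hx hy) hz (t2_5_abs hz') (by norm_num)
  have b3 : |U33_3 x y * (z ^ 4 * t2_4 z)| ≤ (1074219 / 5000000) * (190853 / 5000000) * ρ ^ 7 :=
    prod_abs (U33_3_abs hx hy) hz (t2_4_abs hz') (by norm_num)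
  have b4 : |U33_4 x y * (z ^ 3 * t2_3 z)| ≤ (723267 / 5000000) * (55451 / 1000000) * ρ ^ 7 :=
    prod_abs (U33_4_abs hx hy) hz (t2_3_abs hz') (by norm_num)
  have b5 : |U33_5 x y * (z ^ 2 * t2_2 z)| ≤ (1065217 / 10000000) * (948591 / 10000000) * ρ ^ 7 :=
    prod_abs (U33_5_abs hx hy) hz (t2_2_abs hz') (by norm_num)
  have b6 : |U33_6 x y * (z ^ 1 * t2_1 z)| ≤ (830031 / 10000000) * (629743 / 2500000) * ρ ^ 7 :=
    prod_abs (U33_6_abs hx hy) hz (t2_1_abs hz') (by norm_num)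
  rw [e]
  have := abs_add7 (mev E33 x y 0 * p2 z) (U33_1 x y * (z ^ 6 * t2_6 z)) (U33_2 x y * (z ^ 5 * t2_5 z)) (U33_3 x y * (z ^ 4 * t2_4 z)) (U33_4 x y * (z ^ 3 * t2_3 z)) (U33_5 x y * (z ^ 2 * t2_2 z)) (U33_6 x y * (z ^ 1 * t2_1 z))
  refine this.trans ?_
  linarith

lemma core332 {x y z ρ : ℝ} (hx : |x| ≤ ρ) (hy : |y| ≤ ρ) (hz : |z| ≤ ρ) (hρ : ρ ≤ 1 / 50) :
    |r8 (1 + x) ^ 3 * r8 (1 + y) ^ 3 * r8 (1 + z) ^ 2 - T332 x y z| ≤ 1 / 2 * ρ ^ 7 := by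
  have hρ0 : 0 ≤ ρ := (abs_nonneg x).trans hx
  have hρ7 : 0 ≤ ρ ^ 7 := by positivity
  have fa := taylor_all (u := x) (hx.trans hρ)
  have ga : |x| ^ 7 ≤ ρ ^ 7 := pow_le_pow_left₀ (abs_nonneg _) hx 7
  have fb := taylor_all (u := y) (hy.trans hρ)
  have gb : |y| ^ 7 ≤ ρ ^ 7 := pow_le_pow_left₀ (abs_nonneg _) hy 7
  have fc := taylor_all (u := z) (hz.trans hρ)
  have gc : |z| ^ 7 ≤ ρ ^ 7 := pow_le_pow_left₀ (abs_nonneg _) hz 7

  have t1 := triple_diff (X := r8 (1 + x) ^ 3) (Y := r8 (1 + y) ^ 3) (Z := r8 (1 + z) ^ 2)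
      (X' := p3 x) (Y' := p3 y) (Z' := p2 z) (ex := 5 / 100 * ρ ^ 7) (ey := 5 / 100 * ρ ^ 7) (ez := 2 / 100 * ρ ^ 7) (U := 51 / 50)
      (by norm_num) (fa.2.2.2.1.trans (mul_le_mul_of_nonneg_left ga (by norm_num))) (fb.2.2.2.1.trans (mul_le_mul_of_nonneg_left gb (by norm_num))) (fc.2.1.trans (mul_le_mul_of_nonneg_left gc (by norm_num))) (fb.2.2.2.2.2.2.2) (fc.2.2.2.2.2.1) ((near_bounds (p3_near (hx.trans hρ))).2.2) ((near_bounds (p3_near (hy.trans hρ))).2.2)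
  have t2 := H332_bound (z := z) hx hy hz hρ
  calc _ ≤ |r8 (1 + x) ^ 3 * r8 (1 + y) ^ 3 * r8 (1 + z) ^ 2 - p3 x * p3 y * p2 z|
          + |p3 x * p3 y * p2 z - T332 x y z| := abs_sub_le _ _ _
    _ ≤ _ := by linarith

/-- The six permutations of `Fin 3`. -/
lemma perm3_expand (F : Fin 3 → Fin 3 → Fin 3 → ℝ) :
    ∑ g : Equiv.Perm (Fin 3), F (g 0) (g 1) (g 2)
      = F 0 1 2 + F 0 2 1 + F 1 0 2 + F 1 2 0 + F 2 0 1 + F 2 1 0 := by
  have h : (Finset.univ : Finset (Equiv.Perm (Fin 3))) =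
      {1, Equiv.swap 1 2, Equiv.swap 0 1, Equiv.swap 0 1 * Equiv.swap 1 2,
        Equiv.swap 1 2 * Equiv.swap 0 1, Equiv.swap 0 2} := by decide
  rw [h]
  rw [Finset.sum_insert (by decide), Finset.sum_insert (by decide), Finset.sum_insert (by decide),
    Finset.sum_insert (by decide), Finset.sum_insert (by decide), Finset.sum_singleton]
  have e1 : (Equiv.swap (1 : Fin 3) 2) 0 = 0 := by decide
  have e2 : (Equiv.swap (1 : Fin 3) 2) 1 = 2 := by decide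
  have e3 : (Equiv.swap (1 : Fin 3) 2) 2 = 1 := by decide
  simp only [show ((1 : Equiv.Perm (Fin 3)) 0 = 0) by decide, show ((1 : Equiv.Perm (Fin 3)) 1 = 1) by decide,
    show ((1 : Equiv.Perm (Fin 3)) 2 = 2) by decide, e1, e2, e3,
    show (Equiv.swap (0 : Fin 3) 1) 0 = 1 by decide, show (Equiv.swap (0 : Fin 3) 1) 1 = 0 by decide,
    show (Equiv.swap (0 : Fin 3) 1) 2 = 2 by decide,
    show (Equiv.swap (0 : Fin 3) 1 * Equiv.swap 1 2 : Equiv.Perm (Fin 3)) 0 = 1 by decide,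
    show (Equiv.swap (0 : Fin 3) 1 * Equiv.swap 1 2 : Equiv.Perm (Fin 3)) 1 = 2 by decide,
    show (Equiv.swap (0 : Fin 3) 1 * Equiv.swap 1 2 : Equiv.Perm (Fin 3)) 2 = 0 by decide,
    show (Equiv.swap (1 : Fin 3) 2 * Equiv.swap 0 1 : Equiv.Perm (Fin 3)) 0 = 2 by decide,
    show (Equiv.swap (1 : Fin 3) 2 * Equiv.swap 0 1 : Equiv.Perm (Fin 3)) 1 = 0 by decide,
    show (Equiv.swap (1 : Fin 3) 2 * Equiv.swap 0 1 : Equiv.Perm (Fin 3)) 2 = 1 by decide,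
    show (Equiv.swap (0 : Fin 3) 2) 0 = 2 by decide, show (Equiv.swap (0 : Fin 3) 2) 1 = 1 by decide,
    show (Equiv.swap (0 : Fin 3) 2) 2 = 0 by decide]
  ring

/-- `GS` written out over the six permutations. -/
lemma GS_expand (m : Fin 3 → ℕ) (x : Fin 3 → ℝ) :
    GS m x = (1 / 6) * (
      r8 (x 0) ^ m 0 * r8 (x 1) ^ m 1 * r8 (x 2) ^ m 2
      + r8 (x 0) ^ m 0 * r8 (x 1) ^ m 2 * r8 (x 2) ^ m 1
      + r8 (x 0) ^ m 1 * r8 (x 1) ^ m 0 * r8 (x 2) ^ m 2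
      + r8 (x 0) ^ m 1 * r8 (x 1) ^ m 2 * r8 (x 2) ^ m 0
      + r8 (x 0) ^ m 2 * r8 (x 1) ^ m 0 * r8 (x 2) ^ m 1
      + r8 (x 0) ^ m 2 * r8 (x 1) ^ m 1 * r8 (x 2) ^ m 0) := by
  unfold GS Gm
  simp only [Fin.prod_univ_three, Function.comp]
  rw [perm3_expand (fun a b c => r8 (x 0) ^ m a * r8 (x 1) ^ m b * r8 (x 2) ^ m c)]

/-- The elementary bounds on a vector of the plane with small `A`. -/
lemma plane_bounds {δ : ℝ} (h0 : 0 < δ) (h1 : δ ≤ 1 / 100) {v : Fin 3 → ℝ} (hv : ∑ i, v i = 0)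
    (hA : Aq v ≤ δ ^ 2) :
    0 ≤ Aq v ∧ |v 0| ≤ 2 * Real.sqrt (Aq v) ∧ |v 1| ≤ 2 * Real.sqrt (Aq v) ∧
      |v 2| ≤ 2 * Real.sqrt (Aq v) ∧ 2 * Real.sqrt (Aq v) ≤ 1 / 50 ∧
      (2 * Real.sqrt (Aq v)) ^ 7 ≤ 128 * δ * Aq v ^ 3 := by
  rw [Fin.sum_univ_three] at hv
  have hA0 : 0 ≤ Aq v := by
    unfold Aq
    positivity
  have hs := Real.sq_sqrt hA0
  have hn := Real.sqrt_nonneg (Aq v)
  have hsd : Real.sqrt (Aq v) ≤ δ := by
    rw [← Real.sqrt_sq h0.le]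
    exact Real.sqrt_le_sqrt hA
  have key : ∀ a b c : ℝ, a + b + c = 0 → (a ^ 2 + b ^ 2 + c ^ 2) / 6 = Aq v →
      |a| ≤ 2 * Real.sqrt (Aq v) := by
    intro a b c habc h
    apply abs_le_of_sq_le_sq _ (by positivity)
    have e : a = -(b + c) := by linarith
    rw [mul_pow, hs, ← h, e]
    nlinarith [sq_nonneg (b - c)]
  have eA : (v 0 ^ 2 + v 1 ^ 2 + v 2 ^ 2) / 6 = Aq v := by
    unfold Aq
    rw [Fin.sum_univ_three]
  refine ⟨hA0, key _ _ _ hv eA, key (v 1) (v 0) (v 2) (by linarith) (by rw [← eA]; ring),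
    key (v 2) (v 0) (v 1) (by linarith) (by rw [← eA]; ring), by linarith, ?_⟩
  have e7 : (2 * Real.sqrt (Aq v)) ^ 7 = 128 * Real.sqrt (Aq v) * (Real.sqrt (Aq v) ^ 2) ^ 3 := by ring
  rw [e7, hs]
  have hA3 : 0 ≤ Aq v ^ 3 := by positivity
  apply mul_le_mul_of_nonneg_right _ hA3
  linarith


set_option maxHeartbeats 2000000 in
set_option linter.unusedSimpArgs false in
lemma avg440 (x y z : ℝ) (h : x + y + z = 0) :
    (1 / 6) * (T440 x y z + T440 x z y + T440 y x z + T440 z x y + T440 y z x + T440 z y x)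
      = serG (3 / 4) (3 / 8) (39 / 64) (93 / 128) (477 / 512) (57 / 256) ![x, y, z] := by
  have hz : z = -x - y := by linarith
  subst hz
  simp only [serG, Aq, Bq, Fin.sum_univ_three, T440, U44_0, U44_1, U44_2, U44_3, U44_4, U44_5, U44_6, Matrix.cons_val_zero, Matrix.cons_val_one, Matrix.cons_val]
  ring

set_option maxHeartbeats 2000000 in
set_option linter.unusedSimpArgs false in
lemma avg431 (x y z : ℝ) (h : x + y + z = 0) :
    (1 / 6) * (T431 x y z + T431 x z y + T431 y x z + T431 z x y + T431 y z x + T431 z y x)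
      = serG (57 / 64) (141 / 256) (13935 / 16384) (72663 / 65536) (2941479 / 2097152)
            (382683 / 1048576) ![x, y, z] := by
  have hz : z = -x - y := by linarith
  subst hz
  simp only [serG, Aq, Bq, Fin.sum_univ_three, T431, U43_0, U43_1, U43_2, U43_3, U43_4, U43_5, U43_6, p1, q1_0, q1_1, q1_2, q1_3, q1_4, q1_5, Matrix.cons_val_zero, Matrix.cons_val_one, Matrix.cons_val]
  ring

set_option maxHeartbeats 2000000 in
set_option linter.unusedSimpArgs false in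
lemma avg332 (x y z : ℝ) (h : x + y + z = 0) :
    (1 / 6) * (T332 x y z + T332 x z y + T332 y x z + T332 z x y + T332 y z x + T332 z y x)
      = serG (63 / 64) (333 / 512) (16047 / 16384) (170757 / 131072) (3421035 / 2097152)
            (454851 / 1048576) ![x, y, z] := by
  have hz : z = -x - y := by linarith
  subst hz
  simp only [serG, Aq, Bq, Fin.sum_univ_three, T332, U33_0, U33_1, U33_2, U33_3, U33_4, U33_5, U33_6, p2, q2_0, q2_1, q2_2, q2_3, q2_4, q2_5, Matrix.cons_val_zero, Matrix.cons_val_one, Matrix.cons_val]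
  ring

end Ser

open Ser

theorem series_440 (δ : ℝ) (h0 : 0 < δ) (h1 : δ ≤ 1 / 100) (v : Fin 3 → ℝ) (hv : ∑ i, v i = 0)
    (hA : Aq v ≤ δ ^ 2) :
    |GS ![4, 4, 0] (fun i => 1 + v i)
        - serG (3 / 4) (3 / 8) (39 / 64) (93 / 128) (477 / 512) (57 / 256) v|
      ≤ 64 * δ * Aq v ^ 3 := by
  obtain ⟨hA0, h0', h1', h2', hρ, h7⟩ := plane_bounds h0 h1 hv hA
  have hsum : v 0 + v 1 + v 2 = 0 := by rwa [Fin.sum_univ_three] at hv
  have ev : v = ![v 0, v 1, v 2] := by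
    funext i
    fin_cases i <;> rfl
  have e := avg440 (v 0) (v 1) (v 2) hsum
  rw [← ev] at e
  rw [GS_expand]
  simp only [Matrix.cons_val_zero, Matrix.cons_val_one, Matrix.cons_val]
  rw [← e]
  have c0 := core440 (x := v 0) (y := v 1) (z := v 2) (ρ := 2 * Real.sqrt (Aq v)) h0' h1' h2' hρ
  have c1 := core440 (x := v 0) (y := v 2) (z := v 1) (ρ := 2 * Real.sqrt (Aq v)) h0' h2' h1' hρ
  have c2 := core440 (x := v 1) (y := v 0) (z := v 2) (ρ := 2 * Real.sqrt (Aq v)) h1' h0' h2' hρ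
  have c3 := core440 (x := v 2) (y := v 0) (z := v 1) (ρ := 2 * Real.sqrt (Aq v)) h2' h0' h1' hρ
  have c4 := core440 (x := v 1) (y := v 2) (z := v 0) (ρ := 2 * Real.sqrt (Aq v)) h1' h2' h0' hρ
  have c5 := core440 (x := v 2) (y := v 1) (z := v 0) (ρ := 2 * Real.sqrt (Aq v)) h2' h1' h0' hρ
  have hb : 1 / 2 * (2 * Real.sqrt (Aq v)) ^ 7 ≤ 64 * δ * Aq v ^ 3 := by linarith
  generalize (2 * Real.sqrt (Aq v)) ^ 7 = ρ7 at c0 c1 c2 c3 c4 c5 hb
  rw [abs_le] at c0 c1 c2 c3 c4 c5 ⊢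
  constructor <;> nlinarith [c0.1, c0.2, c1.1, c1.2, c2.1, c2.2, c3.1, c3.2, c4.1, c4.2, c5.1, c5.2]

theorem series_431 (δ : ℝ) (h0 : 0 < δ) (h1 : δ ≤ 1 / 100) (v : Fin 3 → ℝ) (hv : ∑ i, v i = 0)
    (hA : Aq v ≤ δ ^ 2) :
    |GS ![4, 3, 1] (fun i => 1 + v i)
        - serG (57 / 64) (141 / 256) (13935 / 16384) (72663 / 65536) (2941479 / 2097152)
            (382683 / 1048576) v|
      ≤ 64 * δ * Aq v ^ 3 := by
  obtain ⟨hA0, h0', h1', h2', hρ, h7⟩ := plane_bounds h0 h1 hv hA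
  have hsum : v 0 + v 1 + v 2 = 0 := by rwa [Fin.sum_univ_three] at hv
  have ev : v = ![v 0, v 1, v 2] := by
    funext i
    fin_cases i <;> rfl
  have e := avg431 (v 0) (v 1) (v 2) hsum
  rw [← ev] at e
  rw [GS_expand]
  simp only [Matrix.cons_val_zero, Matrix.cons_val_one, Matrix.cons_val]
  rw [← e]
  have c0 := core431 (x := v 0) (y := v 1) (z := v 2) (ρ := 2 * Real.sqrt (Aq v)) h0' h1' h2' hρ
  have c1 := core431 (x := v 0) (y := v 2) (z := v 1) (ρ := 2 * Real.sqrt (Aq v)) h0' h2' h1' hρ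
  have c2 := core431 (x := v 1) (y := v 0) (z := v 2) (ρ := 2 * Real.sqrt (Aq v)) h1' h0' h2' hρ
  have c3 := core431 (x := v 2) (y := v 0) (z := v 1) (ρ := 2 * Real.sqrt (Aq v)) h2' h0' h1' hρ
  have c4 := core431 (x := v 1) (y := v 2) (z := v 0) (ρ := 2 * Real.sqrt (Aq v)) h1' h2' h0' hρ
  have c5 := core431 (x := v 2) (y := v 1) (z := v 0) (ρ := 2 * Real.sqrt (Aq v)) h2' h1' h0' hρ
  have hb : 1 / 2 * (2 * Real.sqrt (Aq v)) ^ 7 ≤ 64 * δ * Aq v ^ 3 := by linarith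
  generalize (2 * Real.sqrt (Aq v)) ^ 7 = ρ7 at c0 c1 c2 c3 c4 c5 hb
  rw [abs_le] at c0 c1 c2 c3 c4 c5 ⊢
  constructor <;> nlinarith [c0.1, c0.2, c1.1, c1.2, c2.1, c2.2, c3.1, c3.2, c4.1, c4.2, c5.1, c5.2]

theorem series_332 (δ : ℝ) (h0 : 0 < δ) (h1 : δ ≤ 1 / 100) (v : Fin 3 → ℝ) (hv : ∑ i, v i = 0)
    (hA : Aq v ≤ δ ^ 2) :
    |GS ![3, 3, 2] (fun i => 1 + v i)
        - serG (63 / 64) (333 / 512) (16047 / 16384) (170757 / 131072) (3421035 / 2097152)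
            (454851 / 1048576) v|
      ≤ 64 * δ * Aq v ^ 3 := by
  obtain ⟨hA0, h0', h1', h2', hρ, h7⟩ := plane_bounds h0 h1 hv hA
  have hsum : v 0 + v 1 + v 2 = 0 := by rwa [Fin.sum_univ_three] at hv
  have ev : v = ![v 0, v 1, v 2] := by
    funext i
    fin_cases i <;> rfl
  have e := avg332 (v 0) (v 1) (v 2) hsum
  rw [← ev] at e
  rw [GS_expand]
  simp only [Matrix.cons_val_zero, Matrix.cons_val_one, Matrix.cons_val]
  rw [← e]
  have c0 := core332 (x := v 0) (y := v 1) (z := v 2) (ρ := 2 * Real.sqrt (Aq v)) h0' h1' h2' hρ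
  have c1 := core332 (x := v 0) (y := v 2) (z := v 1) (ρ := 2 * Real.sqrt (Aq v)) h0' h2' h1' hρ
  have c2 := core332 (x := v 1) (y := v 0) (z := v 2) (ρ := 2 * Real.sqrt (Aq v)) h1' h0' h2' hρ
  have c3 := core332 (x := v 2) (y := v 0) (z := v 1) (ρ := 2 * Real.sqrt (Aq v)) h2' h0' h1' hρ
  have c4 := core332 (x := v 1) (y := v 2) (z := v 0) (ρ := 2 * Real.sqrt (Aq v)) h1' h2' h0' hρ
  have c5 := core332 (x := v 2) (y := v 1) (z := v 0) (ρ := 2 * Real.sqrt (Aq v)) h2' h1' h0' hρ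
  have hb : 1 / 2 * (2 * Real.sqrt (Aq v)) ^ 7 ≤ 64 * δ * Aq v ^ 3 := by linarith
  generalize (2 * Real.sqrt (Aq v)) ^ 7 = ρ7 at c0 c1 c2 c3 c4 c5 hb
  rw [abs_le] at c0 c1 c2 c3 c4 c5 ⊢
  constructor <;> nlinarith [c0.1, c0.2, c1.1, c1.2, c2.1, c2.2, c3.1, c3.2, c4.1, c4.2, c5.1, c5.2]

end Vale.Agent.P154H
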