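import Vale.Agent.P154H.Check
import Vale.Agent.P154H.Series

/-!
From the chart to messages: ordering a message and the formulas for the three functionals.
-/

open Finset BigOperators

namespace Vale.Agent.P154H.Tm

open Vale.Agent.P154 Vale.Agent.P154H

/-- The functional `(4,4,0)/8`. -/
abbrev m1 : Fin 3 → ℕ := ![4, 4, 0]
/-- The functional `(4,3,1)/8`. -/
abbrev m2 : Fin 3 → ℕ := ![4, 3, 1]
/-- The functional `(3,3,2)/8`. -/
abbrev mc : Fin 3 → ℕ := ![3, 3, 2]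

lemma GS_m1 (x : Fin 3 → ℝ) : 3 * GS m1 x = gF1 (r8 (x 0)) (r8 (x 1)) (r8 (x 2)) := by
  rw [Ser.GS_expand]
  simp only [m1, Matrix.cons_val_zero, Matrix.cons_val_one, Matrix.cons_val]
  unfold gF1
  ring

lemma GS_m2 (x : Fin 3 → ℝ) : 6 * GS m2 x = gF2 (r8 (x 0)) (r8 (x 1)) (r8 (x 2)) := by
  rw [Ser.GS_expand]
  simp only [m2, Matrix.cons_val_zero, Matrix.cons_val_one, Matrix.cons_val]
  unfold gF2
  ring

lemma GS_mc (x : Fin 3 → ℝ) : 3 * GS mc x = gF3 (r8 (x 0)) (r8 (x 1)) (r8 (x 2)) := by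
  rw [Ser.GS_expand]
  simp only [mc, Matrix.cons_val_zero, Matrix.cons_val_one, Matrix.cons_val]
  unfold gF3
  ring

/-- The value of a linear form at a message. -/
noncomputable def evalMsg (lam : ℝ) (R : Row) (v : Fin 3 → ℝ) : ℝ :=
  ((R.k1p : ℝ) - R.k1n) * (3 * GS m1 (fun i => 1 + v i))
    + ((R.k2p : ℝ) - R.k2n) * (6 * GS m2 (fun i => 1 + v i))
    + ((R.k3p : ℝ) - R.k3n) * (3 * GS mc (fun i => 1 + v i))
    + ((R.k4p : ℝ) - R.k4n) * (3 * GS m1 (fun i => 1 + lam * v i))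
    + ((R.k5p : ℝ) - R.k5n) * (6 * GS m2 (fun i => 1 + lam * v i))
    + ((R.k6p : ℝ) - R.k6n) * (3 * GS mc (fun i => 1 + lam * v i))
    + ((R.k7p : ℝ) - R.k7n) * (3 * Aq v) ^ 2
    + ((R.k8p : ℝ) - R.k8n) * (3 - 3 * GS mc (fun i => 1 + lam * v i)) ^ 2
    + ((R.k9p : ℝ) - R.k9n)

lemma evalRow_eq (lam : ℝ) (R : Row) (v : Fin 3 → ℝ) (hs : ∑ i, v i = 0) (h1 : -1 ≤ v 1) (h2 : -1 ≤ v 2) :
    evalRow lam R (r8 (1 + v 1)) (r8 (1 + v 2)) = evalMsg lam R v := by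
  rw [Fin.sum_univ_three] at hs
  have e1 : r8 (1 + v 1) ^ 8 = 1 + v 1 := r8pow _ (by linarith)
  have e2 : r8 (1 + v 2) ^ 8 = 1 + v 2 := r8pow _ (by linarith)
  have e3 : t1F (r8 (1 + v 1)) (r8 (1 + v 2)) = r8 (1 + v 0) := by
    unfold t1F
    rw [e1, e2]
    congr 1
    linarith
  have e4 : v1F (r8 (1 + v 1)) (r8 (1 + v 2)) = v 0 := by
    unfold v1F
    rw [e1, e2]
    linarith
  have e5 : v2F (r8 (1 + v 1)) = v 1 := by
    unfold v2F
    rw [e1]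
    ring
  have e6 : v2F (r8 (1 + v 2)) = v 2 := by
    unfold v2F
    rw [e2]
    ring
  have e7 : a3F (r8 (1 + v 1)) (r8 (1 + v 2)) = 3 * Aq v := by
    unfold a3F
    rw [e5, e6]
    unfold Aq
    rw [Fin.sum_univ_three]
    have : v 0 = - v 1 - v 2 := by linarith
    rw [this]
    ring
  unfold evalRow evalMsg
  simp only [e3, e4, e5, e6, e7, tpF]
  rw [GS_m1 (fun i => 1 + v i), GS_m2 (fun i => 1 + v i), GS_mc (fun i => 1 + v i),
    GS_m1 (fun i => 1 + lam * v i), GS_m2 (fun i => 1 + lam * v i), GS_mc (fun i => 1 + lam * v i)]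

lemma Aq_perm (v : Fin 3 → ℝ) (g : Equiv.Perm (Fin 3)) : Aq (v ∘ g) = Aq v := by
  unfold Aq
  congr 1
  exact Equiv.sum_comp g (fun i => v i ^ 2)

lemma evalMsg_perm (lam : ℝ) (R : Row) (v : Fin 3 → ℝ) (g : Equiv.Perm (Fin 3)) :
    evalMsg lam R (v ∘ g) = evalMsg lam R v := by
  unfold evalMsg
  have e1 : ∀ m : Fin 3 → ℕ, GS m (fun i => 1 + (v ∘ g) i) = GS m (fun i => 1 + v i) :=
    fun m => GS_perm m g (fun i => 1 + v i)
  have e2 : ∀ m : Fin 3 → ℕ, GS m (fun i => 1 + lam * (v ∘ g) i) = GS m (fun i => 1 + lam * v i) :=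
    fun m => GS_perm m g (fun i => 1 + lam * v i)
  rw [e1, e1, e1, e2, e2, e2, Aq_perm]

lemma exists_sorted (v : Fin 3 → ℝ) : ∃ g : Equiv.Perm (Fin 3),
    (v ∘ g) 1 ≤ (v ∘ g) 0 ∧ (v ∘ g) 2 ≤ (v ∘ g) 1 := by
  have hm := Tuple.monotone_sort v
  refine ⟨(Tuple.sort v) * Equiv.swap 0 2, ?_, ?_⟩
  · have := hm (show (1 : Fin 3) ≤ 2 by decide)
    simpa [Function.comp, Equiv.Perm.mul_apply, Equiv.swap_apply_def] using this
  · have := hm (show (0 : Fin 3) ≤ 1 by decide)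
    simpa [Function.comp, Equiv.Perm.mul_apply, Equiv.swap_apply_def] using this

lemma r8_mono {a b : ℝ} (h : a ≤ b) : r8 a ≤ r8 b := by
  unfold r8
  exact Real.sqrt_le_sqrt (Real.sqrt_le_sqrt (Real.sqrt_le_sqrt h))

/-- The half width of the root box, `17 * 2^35`. -/
def HH : ℕ := 584115552256

/-- The statement on messages from the statement on the root box. -/
theorem msg_sound {lam : ℝ} {P : Pb} (hB : BoxS lam P 0 HH 0 HH) (v : Fin 3 → ℝ) (hv : Msg v) :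
    (∀ R ∈ P.r2, 0 ≤ evalMsg lam R v) ∧
      ((P.ab : ℝ) < (S : ℝ) * (3 * Aq v) → ∀ R ∈ P.r1, 0 ≤ evalMsg lam R v) := by
  obtain ⟨g, h1, h2⟩ := exists_sorted v
  set u := v ∘ g with hu
  have hs : ∑ i, u i = 0 := by
    rw [hu]
    have := Equiv.sum_comp g v
    simp only [Function.comp]
    rw [this]
    exact hv.1
  have hge : ∀ i, -1 ≤ u i := fun i => hv.2 (g i)
  have hs3 := hs
  rw [Fin.sum_univ_three] at hs3
  set s := r8 (1 + u 1) with hsd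
  set r := r8 (1 + u 2) with hrd
  have hs0 : 0 ≤ s := r8nn _
  have hr0 : 0 ≤ r := r8nn _
  have es : s ^ 8 = 1 + u 1 := r8pow _ (by linarith [hge 1])
  have er : r ^ 8 = 1 + u 2 := r8pow _ (by linarith [hge 2])
  have hrs : r ≤ s := r8_mono (by linarith)
  have hD : Dom s r := ⟨hs0, hr0, hrs, by rw [es, er]; linarith⟩
  -- the root box
  have hs1 : s ≤ 17 / 16 := by
    by_contra hc
    push Not at hc
    have h3 : ((17 : ℝ) / 16) ^ 8 < s ^ 8 := pow_lt_pow_left₀ hc (by norm_num) (by norm_num)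
    norm_num at h3
    rw [es] at h3
    linarith [hge 2]
  have hG : Gr * (17 / 16) = (0 : ℝ) + 2 * (HH : ℝ) := by norm_num [Gr, HH]
  have hG0 : 0 < Gr := Gr_pos
  have b1 : ((0 : ℕ) : ℝ) ≤ Gr * s := by simpa using mul_nonneg hG0.le hs0
  have b2 : Gr * s ≤ ((0 : ℕ) : ℝ) + 2 * (HH : ℝ) := by
    have := mul_le_mul_of_nonneg_left hs1 hG0.le
    simp only [Nat.cast_zero]
    linarith
  have b3 : ((0 : ℕ) : ℝ) ≤ Gr * r := by simpa using mul_nonneg hG0.le hr0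
  have b4 : Gr * r ≤ ((0 : ℕ) : ℝ) + 2 * (HH : ℝ) := by
    have := mul_le_mul_of_nonneg_left (hrs.trans hs1) hG0.le
    simp only [Nat.cast_zero]
    linarith
  obtain ⟨c1, c2⟩ := hB s r b1 b2 b3 b4 hD
  have eA : a3F s r = 3 * Aq u := by
    unfold a3F v2F
    rw [es, er]
    unfold Aq
    rw [Fin.sum_univ_three]
    have : u 0 = - u 1 - u 2 := by linarith
    rw [this]
    ring
  have eA2 : Aq u = Aq v := Aq_perm v g
  constructor
  · intro R hR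
    have := c1 R hR
    rw [evalRow_eq lam R u hs (hge 1) (hge 2)] at this
    rwa [hu, evalMsg_perm] at this
  · intro hgt R hR
    have := c2 (by rw [eA, eA2]; exact hgt) R hR
    rw [evalRow_eq lam R u hs (hge 1) (hge 2)] at this
    rwa [hu, evalMsg_perm] at this

/-- Box assembly with numerals. -/
theorem BoxS.sa' {lam : ℝ} {P : Pb} {x0 x1 h h1 t0 h2 : ℕ} (e1 : h1 = 2 * h) (e2 : x1 = x0 + 2 * h)
    (hL : BoxS lam P x0 h t0 h2) (hR : BoxS lam P x1 h t0 h2) : BoxS lam P x0 h1 t0 h2 := by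
  subst e1 e2
  exact BoxS.sa hL hR

/-- Box assembly with numerals. -/
theorem BoxS.sb' {lam : ℝ} {P : Pb} {x0 h1 t0 t1 h h2 : ℕ} (e1 : h2 = 2 * h) (e2 : t1 = t0 + 2 * h)
    (hL : BoxS lam P x0 h1 t0 h) (hR : BoxS lam P x0 h1 t1 h) : BoxS lam P x0 h1 t0 h2 := by
  subst e1 e2
  exact BoxS.sb hL hR

end Vale.Agent.P154H.Tm
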