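import Vale.Agent.P154H.Origin
import Vale.Agent.P154H.Msg

/-!
The origin hypotheses of the final assembly, in numerical form.
-/

open Finset BigOperators

namespace Vale.Agent.P154H.Tm

open Vale.Agent.P154 Vale.Agent.P154H

/-- The two facts near the origin. -/
def OriginH (d : ℕ) (lam α1 α2 c1 c2 τ ρ1 ρ2 δ : ℝ) (ab : ℕ) : Prop :=
  (∀ v, Msg v → ¬ ((ab : ℝ) < (S : ℝ) * (3 * Aq v)) → 0 ≤ Ta d lam m1 m2 mc α1 α2 c1 c2 τ v) ∧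
  (∀ v, Msg v → ¬ ((ab : ℝ) < (S : ℝ) * (3 * Aq v)) →
      0 ≤ ρ1 * Xw lam m1 v + ρ2 * Xw lam m2 v - Xw lam mc v)

lemma small_of_not {ab : ℕ} {δ : ℝ} (hab : (ab : ℝ) ≤ (S : ℝ) * (3 * δ ^ 2)) {v : Fin 3 → ℝ}
    (h : ¬ ((ab : ℝ) < (S : ℝ) * (3 * Aq v))) : Aq v ≤ δ ^ 2 := by
  push Not at h
  have h1 := h.trans hab
  have h2 := le_of_mul_le_mul_left h1 S_pos
  linarith

/-- The origin facts from numerical conditions. -/
theorem originH_of_num {d : ℕ} {lam lb α1 α2 c1 c2 τ ρ1 ρ2 δ : ℝ} {ab : ℕ} (hd : (d : ℝ) * lam ^ 2 = 1)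
    (hb : |lam| ≤ lb)
    (hα1 : 0 ≤ α1) (hα2 : 0 ≤ α2) (hc1 : 0 ≤ c1) (hc2 : 0 ≤ c2) (hτ : 0 ≤ τ) (hρ1 : 0 ≤ ρ1) (hρ2 : 0 ≤ ρ2)
    (hδ0 : 0 < δ) (hδ1 : δ ≤ 1 / 100) (hd1 : 1 ≤ d)
    (hab : (ab : ℝ) ≤ (S : ℝ) * (3 * δ ^ 2))
    (hcub : α1 * (3 / 8) + α2 * (141 / 256) = (c1 + c2) * (333 / 512))
    (hm : 0 ≤ (α1 * (39 / 64) + α2 * (13935 / 16384) - (c1 + c2) * (16047 / 16384)) * (1 - 1 / d) - τ
      - c2 * (Nat.choose d 2 : ℝ) * (1 / d) ^ 2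
      - |α1 * (93 / 128) + α2 * (72663 / 65536) - (c1 + c2) * (170757 / 131072)| * (1 + lb ^ 3) * δ
      - (|α1 * (477 / 512) + α2 * (2941479 / 2097152) - (c1 + c2) * (3421035 / 2097152)|
        + |α1 * (57 / 256) + α2 * (382683 / 1048576) - (c1 + c2) * (454851 / 1048576)|
        + 64 * (α1 + α2 + (c1 + c2)) * δ) * (1 + (1 / d) ^ 2) * δ ^ 2)
    (hn : 0 ≤ (ρ1 * (3 / 4) + ρ2 * (57 / 64) - 63 / 64)
      - |ρ1 * (3 / 8) + ρ2 * (141 / 256) - 333 / 512| * lb * δ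
      - (ρ1 * (39 / 64 + 93 / 128 + 477 / 512 + 57 / 256)
          + ρ2 * (13935 / 16384 + 72663 / 65536 + 2941479 / 2097152 + 382683 / 1048576)
          + (16047 / 16384 + 170757 / 131072 + 3421035 / 2097152 + 454851 / 1048576)
          + 64 * (ρ1 + ρ2 + 1) * δ) * (1 / d) * δ ^ 2) :
    OriginH d lam α1 α2 c1 c2 τ ρ1 ρ2 δ ab := by
  have hdR : (0 : ℝ) < d := by exact_mod_cast hd1
  have hdR1 : (1 : ℝ) ≤ d := by exact_mod_cast hd1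
  have hl2 : lam ^ 2 = 1 / d := by
    field_simp; linarith
  have hl21 : lam ^ 2 ≤ 1 := by
    rw [hl2, div_le_one hdR]; exact hdR1
  have hl4 : lam ^ 4 = (1 / d) ^ 2 := by
    rw [← hl2]; ring
  have hb3 : |lam| ^ 3 ≤ lb ^ 3 := pow_le_pow_left₀ (abs_nonneg _) hb 3
  constructor
  · intro v hv hgt
    refine origin_Ta hδ0 hδ1 hv.1 (small_of_not hab hgt) hd hl21 hα1 hα2 hc1 hc2 hcub ?_
    rw [hl2, hl4]
    simp only [orB1, orB2, orB3, orB4]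
    have h3 : |α1 * (93 / 128) + α2 * (72663 / 65536) - (c1 + c2) * (170757 / 131072)| * (1 + |lam| ^ 3) * δ
        ≤ |α1 * (93 / 128) + α2 * (72663 / 65536) - (c1 + c2) * (170757 / 131072)| * (1 + lb ^ 3) * δ := by
      apply mul_le_mul_of_nonneg_right _ hδ0.le
      apply mul_le_mul_of_nonneg_left _ (abs_nonneg _)
      linarith
    linarith
  · intro v hv hgt
    refine origin_N hδ0 hδ1 hv.1 (small_of_not hab hgt) hl21 hρ1 hρ2 ?_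
    rw [hl2]
    have h3 : |ρ1 * (3 / 8) + ρ2 * (141 / 256) - 333 / 512| * |lam| * δ
        ≤ |ρ1 * (3 / 8) + ρ2 * (141 / 256) - 333 / 512| * lb * δ := by
      apply mul_le_mul_of_nonneg_right _ hδ0.le
      apply mul_le_mul_of_nonneg_left hb (abs_nonneg _)
    linarith

end Vale.Agent.P154H.Tm
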