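import Vale.Agent.P154H.Phase

/-!
The positive eigenvalue at the bound, in fixed point.
-/

namespace Vale.Agent.P154H.Tm

open Vale.Agent.P154 Vale.Agent.P154H

/-- The eigenvalue `1 / √d` in fixed point. -/
lemma lam_enc_pos (d n : ℕ) (hd : 0 < d) (h1 : n ^ 2 * d ≤ S ^ 2) (h2 : S ^ 2 ≤ (n + 1) ^ 2 * d) :
    |(S : ℝ) * (1 / Real.sqrt d) - ((n : ℝ) - ((0 : ℕ) : ℝ))| ≤ ((1 : ℕ) : ℝ) := by
  have h := lam_enc d n hd h1 h2
  have e : (S : ℝ) * (1 / Real.sqrt d) - ((n : ℝ) - ((0 : ℕ) : ℝ))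
      = -((S : ℝ) * (-(1 / Real.sqrt d)) - (((0 : ℕ) : ℝ) - n)) := by
    push_cast
    ring
  rw [e, abs_neg]
  exact h

end Vale.Agent.P154H.Tm
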