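import Vale.Agent.P154H.OriginW

/-!
The origin hypotheses below the Kesten-Stigum bound.
-/

open Finset BigOperators

namespace Vale.Agent.P154H

open Vale.Agent.P154

/-- Near the origin `Ta` with a real factor in place of the degree. -/
theorem origin_real {lam δ α1 α2 c1 c2 τ dd K : ℝ} (h0 : 0 < δ) (h1 : δ ≤ 1 / 100)
    {v : Fin 3 → ℝ} (hv : ∑ i, v i = 0) (hA : Aq v ≤ δ ^ 2)
    (hd : dd * lam ^ 2 = 1) (hl : lam ^ 2 ≤ 1) (hK : 0 ≤ K)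
    (hα1 : 0 ≤ α1) (hα2 : 0 ≤ α2) (hc1 : 0 ≤ c1) (hc2 : 0 ≤ c2)
    (hcub : α1 * (3 / 8) + α2 * (141 / 256) = (c1 + c2) * (333 / 512))
    (hstar : 0 ≤ orB1 α1 α2 (c1 + c2) * (1 - lam ^ 2) - τ - c2 * K * lam ^ 4
      - |orB2 α1 α2 (c1 + c2)| * (1 + |lam| ^ 3) * δ
      - (|orB3 α1 α2 (c1 + c2)| + |orB4 α1 α2 (c1 + c2)| + 64 * (α1 + α2 + (c1 + c2)) * δ)
        * (1 + lam ^ 4) * δ ^ 2) :
    0 ≤ Psi ![4, 4, 0] ![4, 3, 1] ![3, 3, 2] α1 α2 (c1 + c2) v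
      - dd * PsiL lam ![4, 4, 0] ![4, 3, 1] ![3, 3, 2] α1 α2 (c1 + c2) v - τ * Aq v ^ 2
      - c2 * K * Xw lam ![3, 3, 2] v ^ 2 := by
  have hA0 := Aq_nonneg v
  have hw := sum_smul_zero lam v hv
  have hAw : Aq (fun i => lam * v i) ≤ δ ^ 2 := by
    rw [Aq_smul]
    calc lam ^ 2 * Aq v ≤ 1 * Aq v := mul_le_mul_of_nonneg_right hl hA0
      _ ≤ δ ^ 2 := by rw [one_mul]; exact hA
  have s1 := series_440 δ h0 h1 v hv hA
  have s2 := series_431 δ h0 h1 v hv hA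
  have s3 := series_332 δ h0 h1 v hv hA
  have t1 := series_440 δ h0 h1 (fun i => lam * v i) hw hAw
  have t2 := series_431 δ h0 h1 (fun i => lam * v i) hw hAw
  have t3 := series_332 δ h0 h1 (fun i => lam * v i) hw hAw
  have hX := Xw_mc_abs h0 h1 hl v hv hA
  have hB := Bq_abs_le h0 v hv hA
  have hB2 := Bq_sq_le v hv
  unfold serG at s1 s2 s3 t1 t2 t3
  rw [Aq_smul, Bq_smul] at t1 t2 t3
  have hX2 : Xw lam ![3, 3, 2] v ^ 2 ≤ lam ^ 4 * Aq v ^ 2 := by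
    have := sq_le_sq' (by linarith [abs_le.1 hX]) (abs_le.1 hX).2
    calc _ ≤ (lam ^ 2 * Aq v) ^ 2 := this
      _ = _ := by ring
  unfold Psi PsiL Lw
  unfold Xw at hX2 ⊢
  generalize Bq v = B at *
  generalize Aq v = A at *
  generalize GS ![4, 4, 0] (fun i => 1 + v i) = G1 at *
  generalize GS ![4, 3, 1] (fun i => 1 + v i) = G2 at *
  generalize GS ![3, 3, 2] (fun i => 1 + v i) = Gc at *
  generalize GS ![4, 4, 0] (fun i => 1 + lam * v i) = H1 at *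
  generalize GS ![4, 3, 1] (fun i => 1 + lam * v i) = H2 at *
  generalize GS ![3, 3, 2] (fun i => 1 + lam * v i) = Hc at *
  have core := origin_core (dd := dd) (c := c1 + c2) h0 hA0 hA hB hB2 hd hl hα1 hα2
    (add_nonneg hc1 hc2) hc2 hK s1 s2 s3 t1 t2 t3 hX2 hstar
  unfold orB1 orB2 orB3 orB4 at core
  refine core.trans_eq ?_
  linear_combination
    ((α1 * (3 / 4) + α2 * (57 / 64) - (c1 + c2) * (63 / 64)) * A
      - (α1 * (3 / 8) + α2 * (141 / 256) - (c1 + c2) * (333 / 512)) * lam * B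
      + (α1 * (39 / 64) + α2 * (13935 / 16384) - (c1 + c2) * (16047 / 16384)) * lam ^ 2 * A ^ 2
      - (α1 * (93 / 128) + α2 * (72663 / 65536) - (c1 + c2) * (170757 / 131072)) * lam ^ 3 * (A * B)
      + (α1 * (477 / 512) + α2 * (2941479 / 2097152) - (c1 + c2) * (3421035 / 2097152)) * lam ^ 4 * A ^ 3
      + (α1 * (57 / 256) + α2 * (382683 / 1048576) - (c1 + c2) * (454851 / 1048576)) * lam ^ 4 * B ^ 2) * hd
    + (B * (1 - lam)) * hcub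

/-- The scalar core of `PsiL_small`. -/
lemma psiL_core {a b δ κ b1 b2 b3 b4 R E : ℝ} (h0 : 0 < δ) (ha0 : 0 ≤ a) (haδ : a ≤ δ ^ 2)
    (hb : |b| ≤ δ * a) (hb2 : b ^ 2 ≤ a ^ 3) (hR : 0 ≤ R) (hE : |E| ≤ R * δ * a ^ 3)
    (hκ : |b1| * δ ^ 2 + |b2| * δ ^ 3 + (|b3| + |b4| + R * δ) * δ ^ 4 ≤ κ) :
    0 ≤ κ * a + b1 * a ^ 2 - b2 * (a * b) + b3 * a ^ 3 + b4 * b ^ 2 - E := by
  have hd2 : 0 ≤ δ ^ 2 := by positivity
  have a2 : a ^ 2 ≤ δ ^ 2 * a := by nlinarith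
  have a3 : a ^ 3 ≤ δ ^ 4 * a := by
    have h1 : a ^ 2 ≤ δ ^ 4 := by
      have := mul_le_mul haδ haδ ha0 hd2
      calc a ^ 2 = a * a := by ring
        _ ≤ δ ^ 2 * δ ^ 2 := this
        _ = δ ^ 4 := by ring
    have := mul_le_mul_of_nonneg_right h1 ha0
    calc a ^ 3 = a ^ 2 * a := by ring
      _ ≤ _ := this
  have t1 : |b1 * a ^ 2| ≤ |b1| * (δ ^ 2 * a) := by
    rw [abs_mul, abs_of_nonneg (sq_nonneg a)]
    exact mul_le_mul_of_nonneg_left a2 (abs_nonneg _)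
  have t2 : |b2 * (a * b)| ≤ |b2| * (δ ^ 3 * a) := by
    rw [abs_mul, abs_mul, abs_of_nonneg ha0]
    apply mul_le_mul_of_nonneg_left _ (abs_nonneg _)
    have h3 : a * |b| ≤ a * (δ * a) := mul_le_mul_of_nonneg_left hb ha0
    have h4 : a * (δ * a) = δ * a ^ 2 := by ring
    have h5 : δ * a ^ 2 ≤ δ * (δ ^ 2 * a) := mul_le_mul_of_nonneg_left a2 h0.le
    have h6 : δ * (δ ^ 2 * a) = δ ^ 3 * a := by ring
    linarith
  have t3 : |b3 * a ^ 3| ≤ |b3| * (δ ^ 4 * a) := by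
    rw [abs_mul, abs_of_nonneg (pow_nonneg ha0 3)]
    exact mul_le_mul_of_nonneg_left a3 (abs_nonneg _)
  have t4 : |b4 * b ^ 2| ≤ |b4| * (δ ^ 4 * a) := by
    rw [abs_mul, abs_of_nonneg (sq_nonneg b)]
    exact mul_le_mul_of_nonneg_left (hb2.trans a3) (abs_nonneg _)
  have t5 : |E| ≤ R * δ * (δ ^ 4 * a) := by
    refine hE.trans ?_
    exact mul_le_mul_of_nonneg_left a3 (by positivity)
  have hκa := mul_le_mul_of_nonneg_right hκ ha0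
  have c1 := abs_le.1 t1
  have c2 := abs_le.1 t2
  have c3 := abs_le.1 t3
  have c4 := abs_le.1 t4
  have c5 := abs_le.1 t5
  nlinarith [c1.1, c2.2, c3.1, c4.1, c5.2]

/-- Near the origin the combination at `lam v` is nonnegative. -/
theorem PsiL_small {lam δ α1 α2 c : ℝ} (h0 : 0 < δ) (h1 : δ ≤ 1 / 100)
    {v : Fin 3 → ℝ} (hv : ∑ i, v i = 0) (hA : Aq v ≤ δ ^ 2) (hl : lam ^ 2 ≤ 1)
    (hα1 : 0 ≤ α1) (hα2 : 0 ≤ α2) (hc : 0 ≤ c)
    (hcub : α1 * (3 / 8) + α2 * (141 / 256) = c * (333 / 512))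
    (hκ : |orB1 α1 α2 c| * δ ^ 2 + |orB2 α1 α2 c| * δ ^ 3
        + (|orB3 α1 α2 c| + |orB4 α1 α2 c| + 64 * (α1 + α2 + c) * δ) * δ ^ 4
      ≤ α1 * (3 / 4) + α2 * (57 / 64) - c * (63 / 64)) :
    0 ≤ PsiL lam ![4, 4, 0] ![4, 3, 1] ![3, 3, 2] α1 α2 c v := by
  have hA0 := Aq_nonneg v
  have hw := sum_smul_zero lam v hv
  have hAw : Aq (fun i => lam * v i) ≤ δ ^ 2 := by
    rw [Aq_smul]
    calc lam ^ 2 * Aq v ≤ 1 * Aq v := mul_le_mul_of_nonneg_right hl hA0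
      _ ≤ δ ^ 2 := by rw [one_mul]; exact hA
  have t1 := series_440 δ h0 h1 (fun i => lam * v i) hw hAw
  have t2 := series_431 δ h0 h1 (fun i => lam * v i) hw hAw
  have t3 := series_332 δ h0 h1 (fun i => lam * v i) hw hAw
  have hB := Bq_abs_le h0 (fun i => lam * v i) hw hAw
  have hB2 := Bq_sq_le (fun i => lam * v i) hw
  have ha0 := Aq_nonneg (fun i => lam * v i)
  unfold serG at t1 t2 t3
  unfold PsiL Xw
  generalize Bq (fun i => lam * v i) = b at *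
  generalize Aq (fun i => lam * v i) = a at *
  generalize GS ![4, 4, 0] (fun i => 1 + lam * v i) = H1 at *
  generalize GS ![4, 3, 1] (fun i => 1 + lam * v i) = H2 at *
  generalize GS ![3, 3, 2] (fun i => 1 + lam * v i) = Hc at *
  set E : ℝ := α1 * (H1 - (1 - 3 / 4 * a + 3 / 8 * b - 39 / 64 * a ^ 2 + 93 / 128 * a * b - 477 / 512 * a ^ 3 - 57 / 256 * b ^ 2))
    + α2 * (H2 - (1 - 57 / 64 * a + 141 / 256 * b - 13935 / 16384 * a ^ 2 + 72663 / 65536 * a * b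
        - 2941479 / 2097152 * a ^ 3 - 382683 / 1048576 * b ^ 2))
    - c * (Hc - (1 - 63 / 64 * a + 333 / 512 * b - 16047 / 16384 * a ^ 2 + 170757 / 131072 * a * b
        - 3421035 / 2097152 * a ^ 3 - 454851 / 1048576 * b ^ 2)) with hE
  have hR : 0 ≤ 64 * (α1 + α2 + c) := by positivity
  have hEb : |E| ≤ 64 * (α1 + α2 + c) * δ * a ^ 3 := by
    have h1' := mul_le_mul_of_nonneg_left t1 hα1
    have h2' := mul_le_mul_of_nonneg_left t2 hα2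
    have h3' := mul_le_mul_of_nonneg_left t3 hc
    have h4 : |E| ≤ α1 * |H1 - (1 - 3 / 4 * a + 3 / 8 * b - 39 / 64 * a ^ 2 + 93 / 128 * a * b - 477 / 512 * a ^ 3 - 57 / 256 * b ^ 2)|
        + α2 * |H2 - (1 - 57 / 64 * a + 141 / 256 * b - 13935 / 16384 * a ^ 2 + 72663 / 65536 * a * b
        - 2941479 / 2097152 * a ^ 3 - 382683 / 1048576 * b ^ 2)|
        + c * |Hc - (1 - 63 / 64 * a + 333 / 512 * b - 16047 / 16384 * a ^ 2 + 170757 / 131072 * a * b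
        - 3421035 / 2097152 * a ^ 3 - 454851 / 1048576 * b ^ 2)| := by
      rw [hE]
      refine (abs_sub _ _).trans ?_
      refine add_le_add ((abs_add_le _ _).trans ?_) ?_
      · rw [abs_mul, abs_mul, abs_of_nonneg hα1, abs_of_nonneg hα2]
      · rw [abs_mul, abs_of_nonneg hc]
    refine h4.trans ?_
    have e : 64 * (α1 + α2 + c) * δ * a ^ 3
        = α1 * (64 * δ * a ^ 3) + α2 * (64 * δ * a ^ 3) + c * (64 * δ * a ^ 3) := by ring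
    rw [e]
    linarith
  have core := psiL_core (κ := α1 * (3 / 4) + α2 * (57 / 64) - c * (63 / 64)) (b1 := orB1 α1 α2 c)
    (b2 := orB2 α1 α2 c) (b3 := orB3 α1 α2 c) (b4 := orB4 α1 α2 c) (R := 64 * (α1 + α2 + c)) (E := E)
    h0 ha0 hAw hB hB2 hR hEb hκ
  refine core.trans_eq ?_
  unfold orB1 orB2 orB3 orB4
  rw [hE]
  linear_combination b * hcub

/-- The two facts near the origin below the bound, for an explicit eigenvalue. -/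
theorem originH_sub {d : ℕ} {lam α1 α2 c1 c2 τ ρ1 ρ2 δ : ℝ} {ab : ℕ} (hd : (d : ℝ) * lam ^ 2 ≤ 1)
    (hlam : lam ≠ 0) (hl : lam ^ 2 ≤ 1)
    (hα1 : 0 ≤ α1) (hα2 : 0 ≤ α2) (hc1 : 0 ≤ c1) (hc2 : 0 ≤ c2) (hρ1 : 0 ≤ ρ1) (hρ2 : 0 ≤ ρ2)
    (hδ0 : 0 < δ) (hδ1 : δ ≤ 1 / 100)
    (hab : (ab : ℝ) ≤ (Tm.S : ℝ) * (3 * δ ^ 2))
    (hcub : α1 * (3 / 8) + α2 * (141 / 256) = (c1 + c2) * (333 / 512))
    (hstar : 0 ≤ orB1 α1 α2 (c1 + c2) * (1 - lam ^ 2) - τ - c2 * (Nat.choose d 2 : ℝ) * lam ^ 4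
      - |orB2 α1 α2 (c1 + c2)| * (1 + |lam| ^ 3) * δ
      - (|orB3 α1 α2 (c1 + c2)| + |orB4 α1 α2 (c1 + c2)| + 64 * (α1 + α2 + (c1 + c2)) * δ)
        * (1 + lam ^ 4) * δ ^ 2)
    (hκ : |orB1 α1 α2 (c1 + c2)| * δ ^ 2 + |orB2 α1 α2 (c1 + c2)| * δ ^ 3
        + (|orB3 α1 α2 (c1 + c2)| + |orB4 α1 α2 (c1 + c2)| + 64 * (α1 + α2 + (c1 + c2)) * δ) * δ ^ 4
      ≤ α1 * (3 / 4) + α2 * (57 / 64) - (c1 + c2) * (63 / 64))
    (hn : 0 ≤ (ρ1 * (3 / 4) + ρ2 * (57 / 64) - 63 / 64)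
      - |ρ1 * (3 / 8) + ρ2 * (141 / 256) - 333 / 512| * |lam| * δ
      - (ρ1 * (39 / 64 + 93 / 128 + 477 / 512 + 57 / 256)
          + ρ2 * (13935 / 16384 + 72663 / 65536 + 2941479 / 2097152 + 382683 / 1048576)
          + (16047 / 16384 + 170757 / 131072 + 3421035 / 2097152 + 454851 / 1048576)
          + 64 * (ρ1 + ρ2 + 1) * δ) * lam ^ 2 * δ ^ 2) :
    Tm.OriginH d lam α1 α2 c1 c2 τ ρ1 ρ2 δ ab := by
  have hl2 : 0 < lam ^ 2 := by positivity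
  have hdd : (1 / lam ^ 2) * lam ^ 2 = 1 := by field_simp
  have hdd2 : (d : ℝ) ≤ 1 / lam ^ 2 := by
    rw [le_div_iff₀ hl2]
    exact hd
  constructor
  · intro v hv hgt
    have hsm := Tm.small_of_not hab hgt
    have h1 := origin_real (dd := 1 / lam ^ 2) (K := (Nat.choose d 2 : ℝ)) hδ0 hδ1 hv.1 hsm hdd hl
      (Nat.cast_nonneg _) hα1 hα2 hc1 hc2 hcub hstar
    have h2 := PsiL_small (c := c1 + c2) hδ0 hδ1 hv.1 hsm hl hα1 hα2 (add_nonneg hc1 hc2) hcub hκ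
    have h3 := mul_nonneg (sub_nonneg.2 hdd2) h2
    unfold Ta
    have e : c2 * (Nat.choose d 2 : ℝ) * Xw lam ![3, 3, 2] v ^ 2 = c2 * (Nat.choose d 2 : ℝ) * Xw lam ![3, 3, 2] v ^ 2 := rfl
    nlinarith
  · intro v hv hgt
    exact origin_N hδ0 hδ1 hv.1 (Tm.small_of_not hab hgt) hl hρ1 hρ2 hn

end Vale.Agent.P154H
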