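import Vale.Agent.P154H.FinalD

/-!
A chain of potentials along the monotone quantity `1 - En`: each potential is only required to
decrease while `1 - En` lies in a given range, and the last one handles the final range.
-/

open Finset BigOperators Filter Topology

namespace Vale.Agent.P154H.Tm

open Vale.Agent.P154 Vale.Agent.P154H

variable {d : ℕ} {lam : ℝ}

/-- Superadditivity of the weighted geometric mean. -/
lemma Gm_superadd (m : Fin 3 → ℕ) (hm : ∑ i, m i = 8) (x y : Fin 3 → ℝ)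
    (hx : ∀ i, 0 ≤ x i) (hy : ∀ i, 0 ≤ y i) : Gm m x + Gm m y ≤ Gm m (x + y) := by
  set t : Fin 3 → ℝ := x + y with ht
  have ht0 : ∀ i, 0 ≤ t i := fun i => add_nonneg (hx i) (hy i)
  have hti : ∀ i, t i = x i + y i := fun i => rfl
  have ex : ∀ i, t i * (x i / t i) = x i := by
    intro i
    by_cases h : t i = 0
    · have h1 : x i = 0 := by
        have := hx i
        have := hy i
        have := hti i
        linarith
      simp [h1]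
    · field_simp
  have ey : ∀ i, t i * (y i / t i) = y i := by
    intro i
    by_cases h : t i = 0
    · have h1 : y i = 0 := by
        have := hx i
        have := hy i
        have := hti i
        linarith
      simp [h1]
    · field_simp
  have hxq : ∀ i, 0 ≤ x i / t i := fun i => div_nonneg (hx i) (ht0 i)
  have hyq : ∀ i, 0 ≤ y i / t i := fun i => div_nonneg (hy i) (ht0 i)
  have e1 : Gm m x = Gm m t * Gm m (fun i => x i / t i) := by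
    rw [← Gm_mul m t _ ht0 hxq]
    congr 1
    funext i
    exact (ex i).symm
  have e2 : Gm m y = Gm m t * Gm m (fun i => y i / t i) := by
    rw [← Gm_mul m t _ ht0 hyq]
    congr 1
    funext i
    exact (ey i).symm
  have h1 := Gm_le m hm (fun i => x i / t i) hxq
  have h2 := Gm_le m hm (fun i => y i / t i) hyq
  have hw' : ∑ i, ((m i : ℝ) / 8) = 1 := by
    rw [← Finset.sum_div, ← Nat.cast_sum, hm]
    norm_num
  have h3 : ∑ i, ((m i : ℝ) / 8) * (x i / t i) + ∑ i, ((m i : ℝ) / 8) * (y i / t i) ≤ 1 := by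
    rw [← Finset.sum_add_distrib, ← hw']
    refine Finset.sum_le_sum fun i _ => ?_
    have hw0 : (0 : ℝ) ≤ (m i : ℝ) / 8 := by positivity
    have h4 : x i / t i + y i / t i ≤ 1 := by
      by_cases h : t i = 0
      · simp [h]
      · rw [← add_div, div_le_one (lt_of_le_of_ne (ht0 i) (Ne.symm h))]
        exact (hti i).symm.le
    have := mul_le_mul_of_nonneg_left h4 hw0
    linarith
  have hG := Gm_nonneg m t
  rw [e1, e2, ← mul_add]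
  have h5 : Gm m (fun i => x i / t i) + Gm m (fun i => y i / t i) ≤ 1 := by linarith
  have := mul_le_mul_of_nonneg_left h5 hG
  linarith

/-- The defect of a geometric mean as a homogeneous subadditive function. -/
noncomputable def gmF (m : Fin 3 → ℕ) (x : Fin 3 → ℝ) : ℝ := (∑ i, x i) / 3 - Gm m x

lemma gmF_subH (m : Fin 3 → ℕ) (hm : ∑ i, m i = 8) : SubH (gmF m) := by
  constructor
  · intro x y hx hy
    have := Gm_superadd m hm x y hx hy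
    unfold gmF
    have e : ∑ i, (x + y) i = ∑ i, x i + ∑ i, y i := by
      simp only [Pi.add_apply, Finset.sum_add_distrib]
    rw [e]
    linarith
  · intro c x hc hx
    unfold gmF
    have e : ∑ i, (c • x) i = c * ∑ i, x i := by
      simp only [Pi.smul_apply, smul_eq_mul, Finset.mul_sum]
    have e2 : Gm m (c • x) = c * Gm m x := Gm_smul m hm c hc x hx
    rw [e, e2]
    ring

lemma Un_gmF (m : Fin 3 → ℕ) (n : ℕ) : Un d lam n (gmF m) = 1 - Hn d lam n m := by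
  unfold Un gmF Hn
  rw [Finset.sum_sub_distrib]
  congr 1
  have := sum_pn (d := d) (lam := lam) n
  rw [← this]
  rfl

lemma Hn_mono (h0 : -(1 / 2) ≤ lam) (h1 : lam ≤ 1) (m : Fin 3 → ℕ) (hm : ∑ i, m i = 8) (n : ℕ) :
    Hn d lam n m ≤ Hn d lam (n + 1) m := by
  have := Un_anti (d := d) h0 h1 n (gmF m) (gmF_subH m hm)
  rw [Un_gmF, Un_gmF] at this
  linarith

lemma En_nonneg (m : Fin 3 → ℕ) (n : ℕ) : 0 ≤ En d lam n m :=
  Finset.sum_nonneg fun _ _ => Gm_nonneg _ _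

lemma En_mono (hd : d ≠ 0) (h0 : -(1 / 2) < lam) (h1 : lam < 1) (m : Fin 3 → ℕ)
    (hm : ∑ i, m i = 8) : Monotone fun n => En d lam n m := by
  refine monotone_nat_of_le_succ fun n => ?_
  have h2 := Hn_mono (d := d) h0.le h1.le m hm (n + 1)
  rw [Hn_succ h0 h1 (n + 1) m, Hn_succ h0 h1 n m] at h2
  exact (pow_le_pow_iff_left₀ (En_nonneg m n) (En_nonneg m (n + 1)) hd).1 h2

/-- The descent of one potential in one range of `1 - En`. -/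
theorem phase_descent (hd : d ≠ 0) (h0 : -(1 / 2) < lam) (h1 : lam < 1)
    (m1 m2 mc : Fin 3 → ℕ) (hm1 : ∑ i, m1 i = 8) (hm2 : ∑ i, m2 i = 8) (hmc : ∑ i, mc i = 8)
    (α1 α2 c δ l u : ℝ) (hδ : 0 < δ) (cells : List Cell)
    (hcover : ∀ x, l ≤ x → x ≤ u → ∃ C ∈ cells, C.l ≤ x ∧ x ≤ C.u)
    (hcellL : ∀ C ∈ cells, ∀ x1 x2 xc : ℝ, 0 ≤ x1 → x1 ≤ 1 → 0 ≤ x2 → x2 ≤ 1 → C.l ≤ xc → xc ≤ C.u →
      α1 * (1 - (1 - x1) ^ d) + α2 * (1 - (1 - x2) ^ d) - c * (1 - (1 - xc) ^ d) + δ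
        ≤ - C.a1 * x1 - C.a2 * x2 + C.e * xc + C.f)
    (hcellT : ∀ C ∈ cells, ∀ v, Msg v →
      0 ≤ Psi m1 m2 mc α1 α2 c v
        + C.a1 * Xw lam m1 v + C.a2 * Xw lam m2 v - C.e * Xw lam mc v - C.f)
    (hstart : ∃ n0, 1 - En d lam n0 mc ≤ u) :
    ∃ n1, 1 - En d lam n1 mc ≤ l := by
  by_contra hcon
  simp only [not_exists, not_le] at hcon
  obtain ⟨n0, hn0⟩ := hstart
  let Φ : ℕ → ℝ := fun n => α1 * (1 - Hn d lam n m1) + α2 * (1 - Hn d lam n m2)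
    - c * (1 - Hn d lam n mc)
  have hp := fun n (η : Cfg d n) => NegT.pn_nonneg (d := d) h0 h1 n η
  have hstep : ∀ n, n0 ≤ n → Φ (n + 1) + δ ≤ Φ n := by
    intro n hn
    have hz1 : 1 - En d lam n mc ≤ u := by
      have := En_mono hd h0 h1 mc hmc hn
      simp only at this
      linarith
    obtain ⟨C, hC, hl, hu⟩ := hcover _ (hcon n).le hz1
    have hbd : ∀ (m : Fin 3 → ℕ), ∑ i, m i = 8 → 0 ≤ 1 - En d lam n m ∧ 1 - En d lam n m ≤ 1 := by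
      intro m hm
      rw [← exp_Xw h0 h1 n m hm]
      exact exp_mem _ _ (hp n) (sum_pn n)
        (fun η => (Xw_bounds h0 h1 m hm _ ⟨NegT.yn_sum h0 h1 n η, fun i => NegT.yn_ge h0 h1 n η i⟩).1)
        (fun η => (Xw_bounds h0 h1 m hm _ ⟨NegT.yn_sum h0 h1 n η, fun i => NegT.yn_ge h0 h1 n η i⟩).2)
    have hL := hcellL C hC _ _ _ (hbd m1 hm1).1 (hbd m1 hm1).2 (hbd m2 hm2).1 (hbd m2 hm2).2 hl hu
    have hT : 0 ≤ ∑ η : Cfg d n, pn d lam n η * (Psi m1 m2 mc α1 α2 c (yn d lam n η)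
        + C.a1 * Xw lam m1 (yn d lam n η) + C.a2 * Xw lam m2 (yn d lam n η)
        - C.e * Xw lam mc (yn d lam n η) - C.f) :=
      Finset.sum_nonneg fun η _ => mul_nonneg (hp n η)
        (hcellT C hC _ ⟨NegT.yn_sum h0 h1 n η, fun i => NegT.yn_ge h0 h1 n η i⟩)
    have eT : ∑ η : Cfg d n, pn d lam n η * (Psi m1 m2 mc α1 α2 c (yn d lam n η)
        + C.a1 * Xw lam m1 (yn d lam n η) + C.a2 * Xw lam m2 (yn d lam n η)
        - C.e * Xw lam mc (yn d lam n η) - C.f)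
        = α1 * ∑ η : Cfg d n, pn d lam n η * Lw m1 (yn d lam n η)
          + α2 * ∑ η : Cfg d n, pn d lam n η * Lw m2 (yn d lam n η)
          - c * ∑ η : Cfg d n, pn d lam n η * Lw mc (yn d lam n η)
          + C.a1 * ∑ η : Cfg d n, pn d lam n η * Xw lam m1 (yn d lam n η)
          + C.a2 * ∑ η : Cfg d n, pn d lam n η * Xw lam m2 (yn d lam n η)
          - C.e * ∑ η : Cfg d n, pn d lam n η * Xw lam mc (yn d lam n η)
          - C.f * ∑ η : Cfg d n, pn d lam n η := by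
      simp only [Finset.mul_sum, ← Finset.sum_add_distrib, ← Finset.sum_sub_distrib, Psi]
      refine Finset.sum_congr rfl fun η _ => ?_
      ring
    rw [eT, sum_pn, exp_Lw h0 h1 n m1 hm1, exp_Lw h0 h1 n m2 hm2, exp_Lw h0 h1 n mc hmc,
      exp_Xw h0 h1 n m1 hm1, exp_Xw h0 h1 n m2 hm2, exp_Xw h0 h1 n mc hmc] at hT
    have e1 : ∀ m : Fin 3 → ℕ, 1 - (1 - (1 - En d lam n m)) ^ d = 1 - Hn d lam (n + 1) m := by
      intro m
      rw [Hn_succ h0 h1 n m]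
      congr 2
      ring
    rw [e1, e1, e1] at hL
    show α1 * (1 - Hn d lam (n + 1) m1) + α2 * (1 - Hn d lam (n + 1) m2)
      - c * (1 - Hn d lam (n + 1) mc) + δ
      ≤ α1 * (1 - Hn d lam n m1) + α2 * (1 - Hn d lam n m2) - c * (1 - Hn d lam n mc)
    linarith
  have hdesc : ∀ k : ℕ, Φ (n0 + k) + k * δ ≤ Φ n0 := by
    intro k
    induction k with
    | zero => simp
    | succ k ih =>
      have := hstep (n0 + k) (by omega)
      have e : n0 + (k + 1) = n0 + k + 1 := by omega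
      rw [e]
      push_cast
      nlinarith
  have hΦB : ∀ n, |Φ n| ≤ |α1| + |α2| + |c| := by
    intro n
    have hb : ∀ (w : ℝ) (m : Fin 3 → ℕ), ∑ i, m i = 8 → |w * (1 - Hn d lam n m)| ≤ |w| := by
      intro w m hm
      have hb := Hn_bounds (d := d) h0 h1 n m hm
      rw [abs_mul]
      have h3 : |1 - Hn d lam n m| ≤ 1 := by
        rw [abs_le]
        constructor <;> linarith [hb.1, hb.2]
      calc |w| * |1 - Hn d lam n m| ≤ |w| * 1 := mul_le_mul_of_nonneg_left h3 (abs_nonneg _)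
        _ = |w| := mul_one _
    have h1' := abs_le.1 (hb α1 m1 hm1)
    have h2' := abs_le.1 (hb α2 m2 hm2)
    have h3' := abs_le.1 (hb c mc hmc)
    show |α1 * (1 - Hn d lam n m1) + α2 * (1 - Hn d lam n m2) - c * (1 - Hn d lam n mc)| ≤ _
    rw [abs_le]
    constructor <;> linarith [h1'.1, h1'.2, h2'.1, h2'.2, h3'.1, h3'.2]
  obtain ⟨k, hk⟩ := exists_nat_gt (2 * (|α1| + |α2| + |c|) / δ)
  rw [div_lt_iff₀ hδ] at hk
  have h5 := hdesc k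
  have h6 := abs_le.1 (hΦB (n0 + k))
  have h7 := abs_le.1 (hΦB n0)
  linarith [h6.1, h7.2]

/-- A starting point for the chain. -/
lemma start_of_cap (h0 : -(1 / 2) < lam) (h1 : lam < 1) (mc : Fin 3 → ℕ) (hmc : ∑ i, mc i = 8)
    (xmax : ℝ) (hXc : ∀ v, Msg v → Xw lam mc v ≤ xmax) : ∃ n0, 1 - En d lam n0 mc ≤ xmax := by
  refine ⟨0, ?_⟩
  rw [← exp_Xw h0 h1 0 mc hmc]
  have := exp_le_const (pn d lam 0) (fun η => Xw lam mc (yn d lam 0 η))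
    (fun η => NegT.pn_nonneg (d := d) h0 h1 0 η) (sum_pn 0) 1 xmax
    (fun η => by simpa using hXc _ ⟨NegT.yn_sum h0 h1 0 η, fun i => NegT.yn_ge h0 h1 0 η i⟩)
  simpa using this

/-- The one-step inequality at a law of bounded `Xc`-mean. -/
def StepHypB (d : ℕ) (lam : ℝ) {K : ℕ} (w : Fin K → ℝ) (m : Fin K → Fin 3 → ℕ) (τ : ℝ)
    (mc : Fin 3 → ℕ) (xb : ℝ) : Prop :=
  ∀ (ι : Type) [Fintype ι] (p : ι → ℝ) (v : ι → Fin 3 → ℝ),
    (∀ η, 0 ≤ p η) → ∑ η, p η = 1 → (∀ η, Msg (v η)) → ∑ η, p η * Xw lam mc (v η) ≤ xb →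
    ∑ k, w k * (1 - (1 - ∑ η, p η * Xw lam (m k) (v η)) ^ d) + τ * ∑ η, p η * Aq (v η) ^ 2
      ≤ ∑ k, w k * ∑ η, p η * Lw (m k) (v η)

/-- From the eventual one-step inequality to nonreconstruction. -/
theorem nonrecon_of_stepB (hd : d ≠ 0) (h0 : -(1 / 2) < lam) (h1 : lam < 1) {K : ℕ}
    (w : Fin K → ℝ) (m : Fin K → Fin 3 → ℕ) (τ : ℝ) (hτ : 0 < τ)
    (hm : ∀ k, ∑ i, m k i = 8) (mc : Fin 3 → ℕ) (hmc : ∑ i, mc i = 8) (xb : ℝ)
    (h : StepHypB d lam w m τ mc xb) (hev : ∃ n0, 1 - En d lam n0 mc ≤ xb) :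
    Tendsto (reconError 3 d lam) atTop (𝓝 0) := by
  obtain ⟨n0, hn0⟩ := hev
  let Φ : ℕ → ℝ := fun n => ∑ k, w k * (1 - Hn d lam n (m k))
  let e : ℕ → ℝ := fun n => ∑ η : Cfg d n, pn d lam n η * Aq (yn d lam n η) ^ 2
  have hp := fun n (η : Cfg d n) => NegT.pn_nonneg (d := d) h0 h1 n η
  have hstep : ∀ n, n0 ≤ n → Φ (n + 1) + τ * e n ≤ Φ n := by
    intro n hn
    have hz : ∑ η : Cfg d n, pn d lam n η * Xw lam mc (yn d lam n η) ≤ xb := by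
      rw [exp_Xw h0 h1 n mc hmc]
      have := En_mono hd h0 h1 mc hmc hn
      simp only at this
      linarith
    have h2 := h (Cfg d n) (pn d lam n) (yn d lam n) (hp n) (sum_pn n)
      (fun η => ⟨NegT.yn_sum h0 h1 n η, fun i => NegT.yn_ge h0 h1 n η i⟩) hz
    have e1 : ∀ k, 1 - (1 - ∑ η : Cfg d n, pn d lam n η * Xw lam (m k) (yn d lam n η)) ^ d
        = 1 - Hn d lam (n + 1) (m k) := by
      intro k
      rw [exp_Xw h0 h1 n (m k) (hm k), Hn_succ h0 h1 n (m k)]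
      congr 2
      ring
    have e2 : ∀ k, ∑ η : Cfg d n, pn d lam n η * Lw (m k) (yn d lam n η)
        = 1 - Hn d lam n (m k) := fun k => exp_Lw h0 h1 n (m k) (hm k)
    simp only [e1, e2] at h2
    exact h2
  let B : ℝ := ∑ k, |w k|
  have hΦB : ∀ n, |Φ n| ≤ B := by
    intro n
    refine (Finset.abs_sum_le_sum_abs _ _).trans (Finset.sum_le_sum fun k _ => ?_)
    rw [abs_mul]
    have hb := Hn_bounds (d := d) h0 h1 n (m k) (hm k)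
    have h3 : |1 - Hn d lam n (m k)| ≤ 1 := by
      rw [abs_le]
      constructor <;> linarith [hb.1, hb.2]
    calc |w k| * |1 - Hn d lam n (m k)| ≤ |w k| * 1 :=
          mul_le_mul_of_nonneg_left h3 (abs_nonneg _)
      _ = |w k| := mul_one _
  have he0 : ∀ n, 0 ≤ e n := fun n =>
    Finset.sum_nonneg fun η _ => mul_nonneg (hp n η) (sq_nonneg _)
  have hsum : ∀ N, ∑ n ∈ range N, e (n + n0) ≤ 2 * B / τ := by
    intro N
    have h3 : τ * ∑ n ∈ range N, e (n + n0) ≤ Φ n0 - Φ (N + n0) := by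
      induction N with
      | zero => simp
      | succ N ih =>
        rw [Finset.sum_range_succ, mul_add]
        have e3 : N + 1 + n0 = N + n0 + 1 := by omega
        rw [e3]
        linarith [hstep (N + n0) (by omega)]
    rw [le_div_iff₀ hτ]
    have h4 := abs_le.1 (hΦB n0)
    have h5 := abs_le.1 (hΦB (N + n0))
    linarith [h4.1, h4.2, h5.1, h5.2]
  have hs' : Summable fun n => e (n + n0) := summable_of_sum_range_le (fun n => he0 _) hsum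
  have hs : Summable e := (summable_nat_add_iff n0).1 hs'
  have hlim : Tendsto e atTop (𝓝 0) := hs.tendsto_atTop_zero
  have hbound : ∀ n, (reconError 3 d lam n ^ 2) ^ 2 ≤ e n / 4 := by
    intro n
    have hr := NegT.reconError_sq_le (d := d) h0 h1 n
    have hs2 : (∑ η : Cfg d n, pn d lam n η * s2 (yn d lam n η)) / 12
        = (∑ η : Cfg d n, pn d lam n η * Aq (yn d lam n η)) / 2 := by
      rw [div_eq_div_iff (by norm_num) (by norm_num), Finset.sum_mul, Finset.sum_mul]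
      refine Finset.sum_congr rfl fun η _ => ?_
      unfold s2 Aq
      ring
    rw [hs2] at hr
    have hJ := Real.pow_arith_mean_le_arith_mean_pow (Finset.univ : Finset (Cfg d n))
      (pn d lam n) (fun η => Aq (yn d lam n η)) (fun η _ => hp n η) (sum_pn n)
      (fun η _ => by unfold Aq; positivity) 2
    have hA0 : 0 ≤ ∑ η : Cfg d n, pn d lam n η * Aq (yn d lam n η) :=
      Finset.sum_nonneg fun η _ => mul_nonneg (hp n η) (by unfold Aq; positivity)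
    have h6 : (reconError 3 d lam n ^ 2) ^ 2
        ≤ ((∑ η : Cfg d n, pn d lam n η * Aq (yn d lam n η)) / 2) ^ 2 :=
      pow_le_pow_left₀ (sq_nonneg _) hr 2
    have h7 : ((∑ η : Cfg d n, pn d lam n η * Aq (yn d lam n η)) / 2) ^ 2
        = (∑ η : Cfg d n, pn d lam n η * Aq (yn d lam n η)) ^ 2 / 4 := by ring
    rw [h7] at h6
    have h8 : e n = ∑ η : Cfg d n, pn d lam n η * Aq (yn d lam n η) ^ 2 := rfl
    rw [h8]
    linarith
  have h12 : Tendsto (fun n => Real.sqrt (Real.sqrt (e n / 4))) atTop (𝓝 0) := by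
    have := (hlim.div_const 4).sqrt.sqrt
    simpa using this
  refine squeeze_zero_norm (fun n => ?_) h12
  rw [Real.norm_eq_abs]
  have h9 : |reconError 3 d lam n ^ 2| ≤ Real.sqrt (e n / 4) := Real.abs_le_sqrt (hbound n)
  rw [abs_of_nonneg (sq_nonneg _)] at h9
  exact Real.abs_le_sqrt h9

/-- The regime argument for a law of bounded `Xc`-mean. -/
theorem step_of_cellsB (hd : 2 ≤ d) (h0 : -(1 / 2) < lam) (h1 : lam < 1)
    (m1 m2 mc : Fin 3 → ℕ) (hm1 : ∑ i, m1 i = 8) (hm2 : ∑ i, m2 i = 8) (hmc : ∑ i, mc i = 8)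
    (α1 α2 c1 c2 ρ1 ρ2 uu Du τ xmax : ℝ) (cells : List Cell)
    (hα1 : 0 < α1) (hα2 : 0 < α2) (hc1 : 0 < c1) (hc2 : 0 ≤ c2) (hρ1 : 0 < ρ1) (hρ2 : 0 < ρ2)
    (huu1 : uu ≤ 1)
    (hρ : c1 * ρ1 ^ 2 * α2 + c1 * ρ2 ^ 2 * α1 ≤ α1 * α2)
    (hκ1 : c1 * ρ1 ≤ α1) (hκ2 : c1 * ρ2 ≤ α2)
    (hcap1 : ∀ v, Msg v → α1 * Xw lam m1 v ≤ c1 * ρ1)
    (hcap2 : ∀ v, Msg v → α2 * Xw lam m2 v ≤ c1 * ρ2)
    (hDu : (d : ℝ) * (1 - (1 - uu) ^ (d - 1)) ≤ Du)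
    (hTa : ∀ v, Msg v → 0 ≤ Ta d lam m1 m2 mc α1 α2 c1 c2 τ v)
    (hTb : ∀ v, Msg v → 0 ≤ Ta d lam m1 m2 mc α1 α2 c1 c2 τ v
      - c1 * Du * (Xw lam mc v - ρ1 * Xw lam m1 v - ρ2 * Xw lam m2 v))
    (hcover : ∀ x, uu ≤ x → x ≤ xmax → ∃ C ∈ cells, C.l ≤ x ∧ x ≤ C.u)
    (hcellL : ∀ C ∈ cells, ∀ x1 x2 xc : ℝ, 0 ≤ x1 → x1 ≤ 1 → 0 ≤ x2 → x2 ≤ 1 → C.l ≤ xc → xc ≤ C.u →
      α1 * (1 - (1 - x1) ^ d) + α2 * (1 - (1 - x2) ^ d) - (c1 + c2) * (1 - (1 - xc) ^ d)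
        ≤ - C.a1 * x1 - C.a2 * x2 + C.e * xc + C.f)
    (hcellT : ∀ C ∈ cells, ∀ v, Msg v →
      0 ≤ Psi m1 m2 mc α1 α2 (c1 + c2) v - τ * Aq v ^ 2
        + C.a1 * Xw lam m1 v + C.a2 * Xw lam m2 v - C.e * Xw lam mc v - C.f) :
    StepHypB d lam ![α1, α2, -(c1 + c2)] ![m1, m2, mc] τ mc xmax := by
  intro ι _ p v hp hp1 hv hxm
  simp only [Fin.sum_univ_three]
  change α1 * (1 - (1 - ∑ η, p η * Xw lam m1 (v η)) ^ d)
      + α2 * (1 - (1 - ∑ η, p η * Xw lam m2 (v η)) ^ d)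
      + -(c1 + c2) * (1 - (1 - ∑ η, p η * Xw lam mc (v η)) ^ d)
      + τ * ∑ η, p η * Aq (v η) ^ 2
    ≤ α1 * (∑ η, p η * Lw m1 (v η)) + α2 * (∑ η, p η * Lw m2 (v η))
      + -(c1 + c2) * (∑ η, p η * Lw mc (v η))
  obtain ⟨x10, x11⟩ := exp_mem p (fun η => Xw lam m1 (v η)) hp hp1
    (fun η => (Xw_bounds h0 h1 m1 hm1 (v η) (hv η)).1)
    (fun η => (Xw_bounds h0 h1 m1 hm1 (v η) (hv η)).2)
  obtain ⟨x20, x21⟩ := exp_mem p (fun η => Xw lam m2 (v η)) hp hp1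
    (fun η => (Xw_bounds h0 h1 m2 hm2 (v η) (hv η)).1)
    (fun η => (Xw_bounds h0 h1 m2 hm2 (v η) (hv η)).2)
  obtain ⟨xc0, _⟩ := exp_mem p (fun η => Xw lam mc (v η)) hp hp1
    (fun η => (Xw_bounds h0 h1 mc hmc (v η) (hv η)).1)
    (fun η => (Xw_bounds h0 h1 mc hmc (v η) (hv η)).2)
  have eTa := exp_Ta p (fun η => Lw m1 (v η)) (fun η => Lw m2 (v η)) (fun η => Lw mc (v η))
    (fun η => Xw lam m1 (v η)) (fun η => Xw lam m2 (v η)) (fun η => Xw lam mc (v η))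
    (fun η => Aq (v η)) α1 α2 (c1 + c2) d τ (c2 * (Nat.choose d 2 : ℝ))
  have hEa0 : 0 ≤ ∑ η, p η * Ta d lam m1 m2 mc α1 α2 c1 c2 τ (v η) :=
    Finset.sum_nonneg fun η _ => mul_nonneg (hp η) (hTa _ (hv η))
  have hEb0 : 0 ≤ ∑ η, p η * (Ta d lam m1 m2 mc α1 α2 c1 c2 τ (v η)
      - (c1 * Du) * (Xw lam mc (v η) - ρ1 * Xw lam m1 (v η) - ρ2 * Xw lam m2 (v η))) :=
    Finset.sum_nonneg fun η _ => mul_nonneg (hp η) (hTb _ (hv η))
  rw [exp_Tb p (fun η => Ta d lam m1 m2 mc α1 α2 c1 c2 τ (v η))] at hEb0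
  have eTa' : ∑ η, p η * Ta d lam m1 m2 mc α1 α2 c1 c2 τ (v η) = _ := eTa
  rw [eTa'] at hEa0 hEb0
  by_cases hcase : ∑ η, p η * Xw lam mc (v η) ≤ uu
  · refine core_small hd α1 α2 c1 c2 ρ1 ρ2 uu Du τ hα1 hα2 hc1 hc2 hρ1 hρ2 huu1 hρ hκ1 hκ2 hDu
      _ _ _ _ _ _ _ (∑ η, p η * Xw lam mc (v η) ^ 2) x10 x20 xc0
      (exp_le_const p _ hp hp1 _ _ fun η => hcap1 _ (hv η))
      (exp_le_const p _ hp hp1 _ _ fun η => hcap2 _ (hv η)) ?_ hcase hEa0 ?_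
    · exact Real.pow_arith_mean_le_arith_mean_pow (Finset.univ : Finset ι) p
        (fun η => Xw lam mc (v η)) (fun η _ => hp η) hp1
        (fun η _ => (Xw_bounds h0 h1 mc hmc (v η) (hv η)).1) 2
    · linarith
  · have hcase' := le_of_lt (not_le.1 hcase)
    obtain ⟨C, hC, hl, hu⟩ := hcover _ hcase' hxm
    have hL := hcellL C hC _ _ _ x10 x11 x20 x21 hl hu
    have hT0 : 0 ≤ ∑ η, p η * (Psi m1 m2 mc α1 α2 (c1 + c2) (v η) - τ * Aq (v η) ^ 2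
        + C.a1 * Xw lam m1 (v η) + C.a2 * Xw lam m2 (v η) - C.e * Xw lam mc (v η) - C.f) :=
      Finset.sum_nonneg fun η _ => mul_nonneg (hp η) (hcellT C hC _ (hv η))
    have eT := exp_cell p hp1 (fun η => Lw m1 (v η)) (fun η => Lw m2 (v η))
      (fun η => Lw mc (v η)) (fun η => Xw lam m1 (v η)) (fun η => Xw lam m2 (v η))
      (fun η => Xw lam mc (v η)) (fun η => Aq (v η)) α1 α2 (c1 + c2) τ C.a1 C.a2 C.e C.f
    have eT' : ∑ η, p η * (Psi m1 m2 mc α1 α2 (c1 + c2) (v η) - τ * Aq (v η) ^ 2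
        + C.a1 * Xw lam m1 (v η) + C.a2 * Xw lam m2 (v η) - C.e * Xw lam mc (v η) - C.f) = _ := eT
    rw [eT'] at hT0
    linarith

/-- The conclusion of the chain from all the checks. -/
theorem final_of_boxB {lam : ℝ} (hd : 2 ≤ d) (h0 : -(1 / 2) < lam) (h1 : lam < 1) {P : Pb}
    (hB : BoxS lam P 0 HH 0 HH)
    (α1 α2 c1 c2 ρ1 ρ2 uu Du τ xmax : ℝ) (cells : List Cell)
    (hα1 : 0 < α1) (hα2 : 0 < α2) (hc1 : 0 < c1) (hc2 : 0 ≤ c2) (hρ1 : 0 < ρ1) (hρ2 : 0 < ρ2)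
    (huu1 : uu ≤ 1) (hτ : 0 < τ)
    (hρ : c1 * ρ1 ^ 2 * α2 + c1 * ρ2 ^ 2 * α1 ≤ α1 * α2)
    (hκ1 : c1 * ρ1 ≤ α1) (hκ2 : c1 * ρ2 ≤ α2)
    (hDu : (d : ℝ) * (1 - (1 - uu) ^ (d - 1)) ≤ Du) (hDu0 : 0 ≤ Du)
    (hOa : ∀ v, Msg v → ¬ ((P.ab : ℝ) < (S : ℝ) * (3 * Aq v)) → 0 ≤ Ta d lam m1 m2 mc α1 α2 c1 c2 τ v)
    (hON : ∀ v, Msg v → ¬ ((P.ab : ℝ) < (S : ℝ) * (3 * Aq v)) →
      0 ≤ ρ1 * Xw lam m1 v + ρ2 * Xw lam m2 v - Xw lam mc v)
    {Na Nb N1 N2 : ℝ}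
    (rTa : Rw4 P.r1 Na (coTa d α1 α2 c1 c2 τ))
    (rTb : Rw4 P.r1 Nb (coTb d α1 α2 c1 c2 τ ρ1 ρ2 Du))
    (rc1 : Rw4 P.r2 N1 ⟨0, 0, 0, -α1, 0, 0, 0, 0, c1 * ρ1⟩)
    (rc2 : Rw4 P.r2 N2 ⟨0, 0, 0, 0, -α2, 0, 0, 0, c1 * ρ2⟩)
    (rcell : ∀ C ∈ cells, ∃ N : ℝ, Rw4 P.r2 N (coCell α1 α2 (c1 + c2) τ C))
    (hcover : ∀ x, uu ≤ x → x ≤ xmax → ∃ C ∈ cells, C.l ≤ x ∧ x ≤ C.u)
    (hcellL : ∀ C ∈ cells, ∀ x1 x2 xc : ℝ, 0 ≤ x1 → x1 ≤ 1 → 0 ≤ x2 → x2 ≤ 1 → C.l ≤ xc → xc ≤ C.u →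
      α1 * (1 - (1 - x1) ^ d) + α2 * (1 - (1 - x2) ^ d) - (c1 + c2) * (1 - (1 - xc) ^ d)
        ≤ - C.a1 * x1 - C.a2 * x2 + C.e * xc + C.f)
    (hev : ∃ n0, 1 - En d lam n0 mc ≤ xmax) :
    Tendsto (reconError 3 d lam) atTop (𝓝 0) := by
  have useR2 : ∀ {N : ℝ} {co : Co}, Rw4 P.r2 N co → ∀ v, Msg v → 0 ≤ evalCo lam co v := by
    intro N co r v hv
    obtain ⟨R, hR, hF⟩ := r.ex
    exact evalCo_nonneg hF r.pos ((msg_sound hB v hv).1 R hR)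
  have useR1 : ∀ {N : ℝ} {co : Co}, Rw4 P.r1 N co → ∀ v, Msg v → (P.ab : ℝ) < (S : ℝ) * (3 * Aq v) →
      0 ≤ evalCo lam co v := by
    intro N co r v hv hgt
    obtain ⟨R, hR, hF⟩ := r.ex
    exact evalCo_nonneg hF r.pos ((msg_sound hB v hv).2 hgt R hR)
  have hTa : ∀ v, Msg v → 0 ≤ Ta d lam m1 m2 mc α1 α2 c1 c2 τ v := by
    intro v hv
    by_cases hgt : (P.ab : ℝ) < (S : ℝ) * (3 * Aq v)
    · have := useR1 rTa v hv hgt
      rwa [evalCo_Ta] at this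
    · exact hOa v hv hgt
  have hTb : ∀ v, Msg v → 0 ≤ Ta d lam m1 m2 mc α1 α2 c1 c2 τ v
      - c1 * Du * (Xw lam mc v - ρ1 * Xw lam m1 v - ρ2 * Xw lam m2 v) := by
    intro v hv
    by_cases hgt : (P.ab : ℝ) < (S : ℝ) * (3 * Aq v)
    · have := useR1 rTb v hv hgt
      rwa [evalCo_Tb] at this
    · have h3 := hOa v hv hgt
      have h4 := hON v hv hgt
      have h5 : 0 ≤ c1 * Du := mul_nonneg hc1.le hDu0
      have h6 := mul_nonneg h5 h4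
      nlinarith
  have hcap1 : ∀ v, Msg v → α1 * Xw lam m1 v ≤ c1 * ρ1 := by
    intro v hv
    have := useR2 rc1 v hv
    simp only [evalCo] at this
    linarith
  have hcap2 : ∀ v, Msg v → α2 * Xw lam m2 v ≤ c1 * ρ2 := by
    intro v hv
    have := useR2 rc2 v hv
    simp only [evalCo] at this
    linarith
  have hcellT : ∀ C ∈ cells, ∀ v, Msg v →
      0 ≤ Psi m1 m2 mc α1 α2 (c1 + c2) v - τ * Aq v ^ 2
        + C.a1 * Xw lam m1 v + C.a2 * Xw lam m2 v - C.e * Xw lam mc v - C.f := by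
    intro C hC v hv
    obtain ⟨N, hN⟩ := rcell C hC
    have := useR2 hN v hv
    rwa [evalCo_cell] at this
  have hS := step_of_cellsB hd h0 h1 m1 m2 mc m1_sum m2_sum mc_sum α1 α2 c1 c2 ρ1 ρ2 uu Du τ xmax cells
    hα1 hα2 hc1 hc2 hρ1 hρ2 huu1 hρ hκ1 hκ2 hcap1 hcap2 hDu hTa hTb hcover hcellL hcellT
  refine nonrecon_of_stepB (by omega) h0 h1 _ _ τ hτ ?_ mc mc_sum xmax hS hev
  intro k
  fin_cases k
  · exact m1_sum
  · exact m2_sum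
  · exact mc_sum

/-- One link of the chain, from the checks. -/
theorem phase_of_box {lam : ℝ} (hd : d ≠ 0) (h0 : -(1 / 2) < lam) (h1 : lam < 1) {P : Pb}
    (hB : BoxS lam P 0 HH 0 HH)
    (α1 α2 c δ l u : ℝ) (hδ : 0 < δ) (cells : List Cell)
    (hcover : ∀ x, l ≤ x → x ≤ u → ∃ C ∈ cells, C.l ≤ x ∧ x ≤ C.u)
    (hcellL : ∀ C ∈ cells, ∀ x1 x2 xc : ℝ, 0 ≤ x1 → x1 ≤ 1 → 0 ≤ x2 → x2 ≤ 1 → C.l ≤ xc → xc ≤ C.u →
      α1 * (1 - (1 - x1) ^ d) + α2 * (1 - (1 - x2) ^ d) - c * (1 - (1 - xc) ^ d) + δ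
        ≤ - C.a1 * x1 - C.a2 * x2 + C.e * xc + C.f)
    (rcell : ∀ C ∈ cells, ∃ N : ℝ, Rw4 P.r2 N (coCell α1 α2 c 0 C))
    (hstart : ∃ n0, 1 - En d lam n0 mc ≤ u) :
    ∃ n1, 1 - En d lam n1 mc ≤ l := by
  refine phase_descent hd h0 h1 m1 m2 mc m1_sum m2_sum mc_sum α1 α2 c δ l u hδ cells hcover hcellL
    ?_ hstart
  intro C hC v hv
  obtain ⟨N, hN⟩ := rcell C hC
  obtain ⟨R, hR, hF⟩ := hN.ex
  have := evalCo_nonneg hF hN.pos ((msg_sound hB v hv).1 R hR)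
  rw [evalCo_cell] at this
  simpa using this

/-- The first link. -/
theorem start_of_box {lam : ℝ} (h0 : -(1 / 2) < lam) (h1 : lam < 1) {P : Pb}
    (hB : BoxS lam P 0 HH 0 HH) (xmax : ℝ) {N3 : ℝ}
    (rc3 : Rw4 P.r2 N3 ⟨0, 0, 0, 0, 0, -1, 0, 0, xmax⟩) : ∃ n0, 1 - En d lam n0 mc ≤ xmax := by
  refine start_of_cap h0 h1 mc mc_sum xmax ?_
  intro v hv
  obtain ⟨R, hR, hF⟩ := rc3.ex
  have := evalCo_nonneg hF rc3.pos ((msg_sound hB v hv).1 R hR)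
  simp only [evalCo] at this
  linarith

/-- The side condition of a cell of a chain link. -/
lemma cell_lines_delta (d : ℕ) {α1 α2 c y1 y2 A1 B1 A2 B2 l u E F δ : ℝ} (hα1 : 0 ≤ α1) (hα2 : 0 ≤ α2)
    (hc : 0 ≤ c)
    (hy10 : 0 ≤ y1) (hy11 : y1 ≤ 1) (hy20 : 0 ≤ y2) (hy21 : y2 ≤ 1) (hl0 : 0 ≤ l) (hu1 : u ≤ 1)
    (t10 : α1 * (1 - (1 - y1) ^ d + (d * (1 - y1) ^ (d - 1)) * (0 - y1)) ≤ B1)
    (t11 : α1 * (1 - (1 - y1) ^ d + (d * (1 - y1) ^ (d - 1)) * (1 - y1)) ≤ A1 + B1)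
    (t20 : α2 * (1 - (1 - y2) ^ d + (d * (1 - y2) ^ (d - 1)) * (0 - y2)) ≤ B2)
    (t21 : α2 * (1 - (1 - y2) ^ d + (d * (1 - y2) ^ (d - 1)) * (1 - y2)) ≤ A2 + B2)
    (c1 : -c * (1 - (1 - l) ^ d) ≤ E * l + F) (c2 : -c * (1 - (1 - u) ^ d) ≤ E * u + F) :
    ∀ x1 x2 xc : ℝ, 0 ≤ x1 → x1 ≤ 1 → 0 ≤ x2 → x2 ≤ 1 → l ≤ xc → xc ≤ u →
      α1 * (1 - (1 - x1) ^ d) + α2 * (1 - (1 - x2) ^ d) - c * (1 - (1 - xc) ^ d) + δ
        ≤ - (-A1) * x1 - (-A2) * x2 + E * xc + (B1 + B2 + F + δ) := by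
  intro x1 x2 xc h1 h2 h3 h4 h5 h6
  have := cell_lines d hα1 hα2 hc hy10 hy11 hy20 hy21 hl0 hu1 t10 t11 t20 t21 c1 c2 x1 x2 xc h1 h2 h3 h4 h5 h6
  linarith

end Vale.Agent.P154H.Tm
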