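import Vale.Agent.P154.TreeN

/-!
Multiplicative (Hellinger) functionals on the regular tree: definitions.
-/

open Finset BigOperators Filter Topology

namespace Vale.Agent.P154

/-- The eighth root of a nonnegative real. -/
noncomputable def r8 (x : ℝ) : ℝ := Real.sqrt (Real.sqrt (Real.sqrt x))

/-- `∏ᵢ xᵢ^(mᵢ/8)`. -/
noncomputable def Gm (m : Fin 3 → ℕ) (x : Fin 3 → ℝ) : ℝ := ∏ i, r8 (x i) ^ m i

/-- The symmetrised functional. -/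
noncomputable def GS (m : Fin 3 → ℕ) (x : Fin 3 → ℝ) : ℝ :=
  (1 / 6) * ∑ g : Equiv.Perm (Fin 3), Gm (m ∘ g) x

/-- Hellinger sum of the observation at depth `n`. -/
noncomputable def Hn (d : ℕ) (lam : ℝ) (n : ℕ) (m : Fin 3 → ℕ) : ℝ :=
  ∑ η : Cfg d n, Gm m (fun i => leafLik 3 d lam n i η)

/-- Hellinger sum of the observation at depth `n` seen through one more edge. -/
noncomputable def En (d : ℕ) (lam : ℝ) (n : ℕ) (m : Fin 3 → ℕ) : ℝ :=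
  ∑ η : Cfg d n, Gm m (fun i => ∑ j, potts 3 lam i j * leafLik 3 d lam n j η)

end Vale.Agent.P154

namespace Vale.Agent.P154H

open Vale.Agent.P154

/-- Messages: the plane `∑ v = 0`, `v ≥ -1`. -/
def Msg (v : Fin 3 → ℝ) : Prop := ∑ i, v i = 0 ∧ ∀ i, -1 ≤ v i

/-- `s2 / 6`. -/
noncomputable def Aq (v : Fin 3 → ℝ) : ℝ := (∑ i, v i ^ 2) / 6

/-- `s3 / 6`. -/
noncomputable def Bq (v : Fin 3 → ℝ) : ℝ := (∑ i, v i ^ 3) / 6

/-- The defect of the functional at `1 + v`. -/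
noncomputable def Lw (m : Fin 3 → ℕ) (v : Fin 3 → ℝ) : ℝ := 1 - GS m (fun i => 1 + v i)

/-- The defect of the functional at `1 + lam v`. -/
noncomputable def Xw (lam : ℝ) (m : Fin 3 → ℕ) (v : Fin 3 → ℝ) : ℝ :=
  1 - GS m (fun i => 1 + lam * v i)

/-- The one-step law-level hypothesis for a signed combination of functionals. -/
def StepHyp (d : ℕ) (lam : ℝ) {K : ℕ} (w : Fin K → ℝ) (m : Fin K → Fin 3 → ℕ) (τ : ℝ) : Prop :=
  ∀ (ι : Type) [Fintype ι] (p : ι → ℝ) (v : ι → Fin 3 → ℝ),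
    (∀ η, 0 ≤ p η) → ∑ η, p η = 1 → (∀ η, Msg (v η)) →
    ∑ k, w k * (1 - (1 - ∑ η, p η * Xw lam (m k) (v η)) ^ d) + τ * ∑ η, p η * Aq (v η) ^ 2
      ≤ ∑ k, w k * ∑ η, p η * Lw (m k) (v η)

/-- A cell of the chord argument. -/
structure Cell where
  l : ℝ
  u : ℝ
  a1 : ℝ
  a2 : ℝ
  e : ℝ
  f : ℝ

/-- The potential: `Ψ(v) = α1 L1 + α2 L2 - c Lc`. -/
noncomputable def Psi (m1 m2 mc : Fin 3 → ℕ) (α1 α2 c : ℝ) (v : Fin 3 → ℝ) : ℝ :=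
  α1 * Lw m1 v + α2 * Lw m2 v - c * Lw mc v

/-- The same at `lam v`. -/
noncomputable def PsiL (lam : ℝ) (m1 m2 mc : Fin 3 → ℕ) (α1 α2 c : ℝ) (v : Fin 3 → ℝ) : ℝ :=
  α1 * Xw lam m1 v + α2 * Xw lam m2 v - c * Xw lam mc v

/-- `T_a` -/
noncomputable def Ta (d : ℕ) (lam : ℝ) (m1 m2 mc : Fin 3 → ℕ) (α1 α2 c1 c2 τ : ℝ)
    (v : Fin 3 → ℝ) : ℝ :=
  Psi m1 m2 mc α1 α2 (c1 + c2) v - d * PsiL lam m1 m2 mc α1 α2 (c1 + c2) v - τ * Aq v ^ 2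
    - c2 * (Nat.choose d 2 : ℝ) * Xw lam mc v ^ 2

end Vale.Agent.P154H
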