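import Vale.Agent.P154H.Series

/-!
Near the origin: the functional `Ta` and the comparison `N` are nonnegative on a small ball, under
scalar hypotheses, deduced from the series of the three functionals.
-/

open Finset BigOperators

namespace Vale.Agent.P154H

open Vale.Agent.P154

lemma Aq_nonneg (v : Fin 3 → ℝ) : 0 ≤ Aq v := by
  unfold Aq
  have : 0 ≤ ∑ i, v i ^ 2 := Finset.sum_nonneg fun i _ => sq_nonneg _
  positivity

lemma Aq_smul (lam : ℝ) (v : Fin 3 → ℝ) : Aq (fun i => lam * v i) = lam ^ 2 * Aq v := by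
  unfold Aq
  simp only [Fin.sum_univ_three]
  ring

lemma Bq_smul (lam : ℝ) (v : Fin 3 → ℝ) : Bq (fun i => lam * v i) = lam ^ 3 * Bq v := by
  unfold Bq
  simp only [Fin.sum_univ_three]
  ring

lemma sum_smul_zero (lam : ℝ) (v : Fin 3 → ℝ) (hv : ∑ i, v i = 0) : ∑ i, lam * v i = 0 := by
  rw [← Finset.mul_sum, hv, mul_zero]

/-- `|b| ≤ δ A` on the small ball. -/
lemma Bq_abs_le {δ : ℝ} (h0 : 0 < δ) (v : Fin 3 → ℝ) (hv : ∑ i, v i = 0) (hA : Aq v ≤ δ ^ 2) :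
    |Bq v| ≤ δ * Aq v := by
  have hA0 := Aq_nonneg v
  have h1 := Bq_sq_le v hv
  have h2 : Bq v ^ 2 ≤ (δ * Aq v) ^ 2 := by
    have : Aq v ^ 3 ≤ δ ^ 2 * Aq v ^ 2 := by
      have := mul_le_mul_of_nonneg_right hA (sq_nonneg (Aq v))
      nlinarith
    nlinarith
  exact abs_le_of_sq_le_sq h2 (by positivity)

/-- The defect of the functional `332` at `lam v` is at most `lam² A`. -/
lemma Xw_mc_abs {δ lam : ℝ} (h0 : 0 < δ) (h1 : δ ≤ 1 / 100) (hl : lam ^ 2 ≤ 1) (v : Fin 3 → ℝ)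
    (hv : ∑ i, v i = 0) (hA : Aq v ≤ δ ^ 2) :
    |Xw lam ![3, 3, 2] v| ≤ lam ^ 2 * Aq v := by
  have hA0 := Aq_nonneg v
  have hw := sum_smul_zero lam v hv
  have hAw : Aq (fun i => lam * v i) ≤ δ ^ 2 := by
    rw [Aq_smul]
    calc lam ^ 2 * Aq v ≤ 1 * Aq v := mul_le_mul_of_nonneg_right hl hA0
      _ ≤ δ ^ 2 := by rw [one_mul]; exact hA
  have hs := series_332 δ h0 h1 (fun i => lam * v i) hw hAw
  have hBw := Bq_abs_le h0 (fun i => lam * v i) hw hAw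
  have hBs := Bq_sq_le (fun i => lam * v i) hw
  have hA0w := Aq_nonneg (fun i => lam * v i)
  rw [Aq_smul] at hBw hBs hAw hA0w
  unfold serG at hs
  rw [Aq_smul] at hs
  unfold Xw
  generalize Bq (fun i => lam * v i) = b at *
  generalize GS ![3, 3, 2] (fun i => 1 + lam * v i) = G at *
  generalize lam ^ 2 * Aq v = a at *
  have hd2 : δ ^ 2 ≤ 1 / 10000 := by nlinarith
  have ha2 : a ≤ 1 / 10000 := hAw.trans hd2
  have hb1 : |b| ≤ a / 100 := by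
    refine hBw.trans ?_
    have := mul_le_mul_of_nonneg_right h1 hA0w
    linarith
  have hb2 := abs_le.1 hb1
  have ha3 : a ^ 2 ≤ a / 10000 := by
    have := mul_le_mul_of_nonneg_left ha2 hA0w
    nlinarith
  have ha4 : a ^ 3 ≤ a / 100000000 := by
    have h5 : a ^ 2 ≤ 1 / 100000000 := by nlinarith
    have := mul_le_mul_of_nonneg_left h5 hA0w
    nlinarith
  have habb : |a * b| ≤ a * (a / 100) := by
    rw [abs_mul, abs_of_nonneg hA0w]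
    exact mul_le_mul_of_nonneg_left hb1 hA0w
  have hab2 := abs_le.1 habb
  have hs2 := abs_le.1 hs
  have hr : 64 * δ * a ^ 3 ≤ a / 100000000 := by
    have h6 : 64 * δ ≤ 1 := by linarith
    have := mul_le_mul_of_nonneg_right h6 (pow_nonneg hA0w 3)
    linarith
  have hab3 : a * (a / 100) ≤ a / 1000000 := by nlinarith
  have hsqb : 0 ≤ b ^ 2 := sq_nonneg b
  have hp2 : 0 ≤ a ^ 2 := sq_nonneg a
  have hp3 : 0 ≤ a ^ 3 := pow_nonneg hA0w 3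
  rw [abs_le]
  constructor <;> linarith [hs2.1, hs2.2, hb2.1, hb2.2, hab2.1, hab2.2, ha3, ha4, hr, hBs, hA0w,
    hab3, hsqb, hp2, hp3]

/-- The constants of the potential. -/
noncomputable def orB1 (α1 α2 c : ℝ) : ℝ := α1 * (39 / 64) + α2 * (13935 / 16384) - c * (16047 / 16384)
noncomputable def orB2 (α1 α2 c : ℝ) : ℝ :=
  α1 * (93 / 128) + α2 * (72663 / 65536) - c * (170757 / 131072)
noncomputable def orB3 (α1 α2 c : ℝ) : ℝ :=
  α1 * (477 / 512) + α2 * (2941479 / 2097152) - c * (3421035 / 2097152)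
noncomputable def orB4 (α1 α2 c : ℝ) : ℝ :=
  α1 * (57 / 256) + α2 * (382683 / 1048576) - c * (454851 / 1048576)

/-- The scalar core of `origin_Ta`. -/
lemma origin_core {A B lam dd α1 α2 c c2 τ K X δ e1 e2 ec f1 f2 fc : ℝ} (h0 : 0 < δ)
    (hA0 : 0 ≤ A) (hAδ : A ≤ δ ^ 2)
    (hB : |B| ≤ δ * A) (hB2 : B ^ 2 ≤ A ^ 3) (hdl : dd * lam ^ 2 = 1) (hl : lam ^ 2 ≤ 1)
    (hα1 : 0 ≤ α1) (hα2 : 0 ≤ α2) (hc : 0 ≤ c) (hc2 : 0 ≤ c2) (hK : 0 ≤ K)
    (he1 : |e1| ≤ 64 * δ * A ^ 3) (he2 : |e2| ≤ 64 * δ * A ^ 3) (hec : |ec| ≤ 64 * δ * A ^ 3)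
    (hf1 : |f1| ≤ 64 * δ * (lam ^ 2 * A) ^ 3) (hf2 : |f2| ≤ 64 * δ * (lam ^ 2 * A) ^ 3)
    (hfc : |fc| ≤ 64 * δ * (lam ^ 2 * A) ^ 3)
    (hX : X ^ 2 ≤ lam ^ 4 * A ^ 2)
    (hstar : 0 ≤ orB1 α1 α2 c * (1 - lam ^ 2) - τ - c2 * K * lam ^ 4
      - |orB2 α1 α2 c| * (1 + |lam| ^ 3) * δ
      - (|orB3 α1 α2 c| + |orB4 α1 α2 c| + 64 * (α1 + α2 + c) * δ) * (1 + lam ^ 4) * δ ^ 2) :
    0 ≤ orB1 α1 α2 c * (1 - lam ^ 2) * A ^ 2 - orB2 α1 α2 c * (1 - lam ^ 3) * A * B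
      + orB3 α1 α2 c * (1 - lam ^ 4) * A ^ 3 + orB4 α1 α2 c * (1 - lam ^ 4) * B ^ 2
      - (α1 * e1 + α2 * e2 - c * ec) + dd * (α1 * f1 + α2 * f2 - c * fc)
      - τ * A ^ 2 - c2 * K * X ^ 2 := by
  generalize orB1 α1 α2 c = b1 at *
  generalize orB2 α1 α2 c = b2 at *
  generalize orB3 α1 α2 c = b3 at *
  generalize orB4 α1 α2 c = b4 at *
  have hl4 : 0 ≤ lam ^ 4 := by positivity
  have hl14 : lam ^ 4 ≤ 1 := by nlinarith [sq_nonneg lam]
  have hd0 : 0 ≤ δ ^ 2 := by positivity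
  have hA2 : 0 ≤ A ^ 2 := by positivity
  have hA3 : A ^ 3 ≤ δ ^ 2 * A ^ 2 := by
    have := mul_le_mul_of_nonneg_right hAδ hA2
    calc A ^ 3 = A * A ^ 2 := by ring
      _ ≤ _ := this
  have hA30 : 0 ≤ A ^ 3 := by positivity
  -- the term with `b2`
  have t2 : |b2 * (1 - lam ^ 3) * A * B| ≤ |b2| * (1 + |lam| ^ 3) * δ * A ^ 2 := by
    have h3 : |1 - lam ^ 3| ≤ 1 + |lam| ^ 3 := by
      calc |1 - lam ^ 3| ≤ |(1 : ℝ)| + |lam ^ 3| := abs_sub _ _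
        _ = 1 + |lam| ^ 3 := by rw [abs_one, abs_pow]
    have h4 : |A * B| ≤ δ * A ^ 2 := by
      rw [abs_mul, abs_of_nonneg hA0]
      calc A * |B| ≤ A * (δ * A) := mul_le_mul_of_nonneg_left hB hA0
        _ = δ * A ^ 2 := by ring
    have e : b2 * (1 - lam ^ 3) * A * B = b2 * (1 - lam ^ 3) * (A * B) := by ring
    rw [e, abs_mul, abs_mul]
    calc |b2| * |1 - lam ^ 3| * |A * B| ≤ |b2| * (1 + |lam| ^ 3) * (δ * A ^ 2) := by
          apply mul_le_mul (mul_le_mul_of_nonneg_left h3 (abs_nonneg _)) h4 (abs_nonneg _)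
          positivity
      _ = _ := by ring
  have h1l : |1 - lam ^ 4| ≤ 1 + lam ^ 4 := by
    rw [abs_le]; constructor <;> linarith
  have t3 : |b3 * (1 - lam ^ 4) * A ^ 3| ≤ |b3| * (1 + lam ^ 4) * δ ^ 2 * A ^ 2 := by
    rw [abs_mul, abs_mul, abs_of_nonneg hA30]
    calc |b3| * |1 - lam ^ 4| * A ^ 3 ≤ |b3| * (1 + lam ^ 4) * (δ ^ 2 * A ^ 2) :=
          mul_le_mul (mul_le_mul_of_nonneg_left h1l (abs_nonneg _)) hA3 hA30 (by positivity)
      _ = _ := by ring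
  have t4 : |b4 * (1 - lam ^ 4) * B ^ 2| ≤ |b4| * (1 + lam ^ 4) * δ ^ 2 * A ^ 2 := by
    rw [abs_mul, abs_mul, abs_of_nonneg (sq_nonneg B)]
    calc |b4| * |1 - lam ^ 4| * B ^ 2 ≤ |b4| * (1 + lam ^ 4) * (δ ^ 2 * A ^ 2) :=
          mul_le_mul (mul_le_mul_of_nonneg_left h1l (abs_nonneg _)) (hB2.trans hA3)
            (sq_nonneg _) (by positivity)
      _ = _ := by ring
  -- the remainders
  have hE : 0 ≤ α1 + α2 + c := by positivity
  have r1 : |α1 * e1 + α2 * e2 - c * ec| ≤ 64 * (α1 + α2 + c) * δ * A ^ 3 := by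
    have h1 : |α1 * e1| ≤ α1 * (64 * δ * A ^ 3) := by
      rw [abs_mul, abs_of_nonneg hα1]; exact mul_le_mul_of_nonneg_left he1 hα1
    have h2 : |α2 * e2| ≤ α2 * (64 * δ * A ^ 3) := by
      rw [abs_mul, abs_of_nonneg hα2]; exact mul_le_mul_of_nonneg_left he2 hα2
    have h3 : |c * ec| ≤ c * (64 * δ * A ^ 3) := by
      rw [abs_mul, abs_of_nonneg hc]; exact mul_le_mul_of_nonneg_left hec hc
    have h4 := abs_le.1 h1
    have h5 := abs_le.1 h2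
    have h6 := abs_le.1 h3
    rw [abs_le]
    constructor <;> linarith [h4.1, h4.2, h5.1, h5.2, h6.1, h6.2]
  have hdd : 0 ≤ dd := by
    by_contra hn
    push Not at hn
    have : dd * lam ^ 2 ≤ 0 := mul_nonpos_of_nonpos_of_nonneg hn.le (sq_nonneg lam)
    linarith
  have r2 : |dd * (α1 * f1 + α2 * f2 - c * fc)| ≤ 64 * (α1 + α2 + c) * δ * (lam ^ 4 * A ^ 3) := by
    have h1 : |α1 * f1| ≤ α1 * (64 * δ * (lam ^ 2 * A) ^ 3) := by
      rw [abs_mul, abs_of_nonneg hα1]; exact mul_le_mul_of_nonneg_left hf1 hα1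
    have h2 : |α2 * f2| ≤ α2 * (64 * δ * (lam ^ 2 * A) ^ 3) := by
      rw [abs_mul, abs_of_nonneg hα2]; exact mul_le_mul_of_nonneg_left hf2 hα2
    have h3 : |c * fc| ≤ c * (64 * δ * (lam ^ 2 * A) ^ 3) := by
      rw [abs_mul, abs_of_nonneg hc]; exact mul_le_mul_of_nonneg_left hfc hc
    have h4 := abs_le.1 h1
    have h5 := abs_le.1 h2
    have h6 := abs_le.1 h3
    have h7 : |α1 * f1 + α2 * f2 - c * fc| ≤ 64 * (α1 + α2 + c) * δ * (lam ^ 2 * A) ^ 3 := by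
      rw [abs_le]
      constructor <;> linarith [h4.1, h4.2, h5.1, h5.2, h6.1, h6.2]
    rw [abs_mul, abs_of_nonneg hdd]
    calc dd * |α1 * f1 + α2 * f2 - c * fc|
        ≤ dd * (64 * (α1 + α2 + c) * δ * (lam ^ 2 * A) ^ 3) :=
          mul_le_mul_of_nonneg_left h7 hdd
      _ = (dd * lam ^ 2) * (64 * (α1 + α2 + c) * δ * (lam ^ 4 * A ^ 3)) := by ring
      _ = _ := by rw [hdl, one_mul]
  have hR : 0 ≤ 64 * (α1 + α2 + c) * δ := by positivity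
  have r1' : 64 * (α1 + α2 + c) * δ * A ^ 3 ≤ 64 * (α1 + α2 + c) * δ * (δ ^ 2 * A ^ 2) :=
    mul_le_mul_of_nonneg_left hA3 hR
  have r2' : 64 * (α1 + α2 + c) * δ * (lam ^ 4 * A ^ 3)
      ≤ 64 * (α1 + α2 + c) * δ * (lam ^ 4 * (δ ^ 2 * A ^ 2)) :=
    mul_le_mul_of_nonneg_left (mul_le_mul_of_nonneg_left hA3 hl4) hR
  have tX : c2 * K * X ^ 2 ≤ c2 * K * (lam ^ 4 * A ^ 2) :=
    mul_le_mul_of_nonneg_left hX (mul_nonneg hc2 hK)
  have hstarA := mul_nonneg hstar hA2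
  have a1 := abs_le.1 t2
  have a2 := abs_le.1 t3
  have a3 := abs_le.1 t4
  have a4 := abs_le.1 r1
  have a5 := abs_le.1 r2
  linarith [a1.1, a1.2, a2.1, a3.1, a4.2, a5.1, r1', r2', tX, hstarA]

/-- **Near the origin `Ta` is nonnegative**, under the scalar hypothesis `(*)`. -/
theorem origin_Ta {d : ℕ} {lam δ α1 α2 c1 c2 τ : ℝ} (h0 : 0 < δ) (h1 : δ ≤ 1 / 100)
    {v : Fin 3 → ℝ} (hv : ∑ i, v i = 0) (hA : Aq v ≤ δ ^ 2)
    (hd : (d : ℝ) * lam ^ 2 = 1) (hl : lam ^ 2 ≤ 1)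
    (hα1 : 0 ≤ α1) (hα2 : 0 ≤ α2) (hc1 : 0 ≤ c1) (hc2 : 0 ≤ c2)
    (hcub : α1 * (3 / 8) + α2 * (141 / 256) = (c1 + c2) * (333 / 512))
    (hstar : 0 ≤ orB1 α1 α2 (c1 + c2) * (1 - lam ^ 2) - τ - c2 * (Nat.choose d 2 : ℝ) * lam ^ 4
      - |orB2 α1 α2 (c1 + c2)| * (1 + |lam| ^ 3) * δ
      - (|orB3 α1 α2 (c1 + c2)| + |orB4 α1 α2 (c1 + c2)| + 64 * (α1 + α2 + (c1 + c2)) * δ)
        * (1 + lam ^ 4) * δ ^ 2) :
    0 ≤ Ta d lam ![4, 4, 0] ![4, 3, 1] ![3, 3, 2] α1 α2 c1 c2 τ v := by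
  have hA0 := Aq_nonneg v
  have hw := sum_smul_zero lam v hv
  have hAw : Aq (fun i => lam * v i) ≤ δ ^ 2 := by
    rw [Aq_smul]
    calc lam ^ 2 * Aq v ≤ 1 * Aq v := mul_le_mul_of_nonneg_right hl hA0
      _ ≤ δ ^ 2 := by rw [one_mul]; exact hA
  have s1 := series_440 δ h0 h1 v hv hA
  have s2 := series_431 δ h0 h1 v hv hA
  have s3 := series_332 δ h0 h1 v hv hA
  have t1 := series_440 δ h0 h1 (fun i => lam * v i) hw hAw
  have t2 := series_431 δ h0 h1 (fun i => lam * v i) hw hAw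
  have t3 := series_332 δ h0 h1 (fun i => lam * v i) hw hAw
  have hX := Xw_mc_abs h0 h1 hl v hv hA
  have hB := Bq_abs_le h0 v hv hA
  have hB2 := Bq_sq_le v hv
  unfold serG at s1 s2 s3 t1 t2 t3
  rw [Aq_smul, Bq_smul] at t1 t2 t3
  have hX2 : Xw lam ![3, 3, 2] v ^ 2 ≤ lam ^ 4 * Aq v ^ 2 := by
    have := sq_le_sq' (by linarith [abs_le.1 hX]) (abs_le.1 hX).2
    calc _ ≤ (lam ^ 2 * Aq v) ^ 2 := this
      _ = _ := by ring
  unfold Ta Psi PsiL Lw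
  unfold Xw at hX2 ⊢
  generalize Bq v = B at *
  generalize Aq v = A at *
  generalize GS ![4, 4, 0] (fun i => 1 + v i) = G1 at *
  generalize GS ![4, 3, 1] (fun i => 1 + v i) = G2 at *
  generalize GS ![3, 3, 2] (fun i => 1 + v i) = Gc at *
  generalize GS ![4, 4, 0] (fun i => 1 + lam * v i) = H1 at *
  generalize GS ![4, 3, 1] (fun i => 1 + lam * v i) = H2 at *
  generalize GS ![3, 3, 2] (fun i => 1 + lam * v i) = Hc at *
  have core := origin_core (dd := (d : ℝ)) (c := c1 + c2) h0 hA0 hA hB hB2 hd hl hα1 hα2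
    (add_nonneg hc1 hc2) hc2 (Nat.cast_nonneg _) s1 s2 s3 t1 t2 t3 hX2 hstar
  unfold orB1 orB2 orB3 orB4 at core
  refine core.trans_eq ?_
  linear_combination
    ((α1 * (3 / 4) + α2 * (57 / 64) - (c1 + c2) * (63 / 64)) * A
      - (α1 * (3 / 8) + α2 * (141 / 256) - (c1 + c2) * (333 / 512)) * lam * B
      + (α1 * (39 / 64) + α2 * (13935 / 16384) - (c1 + c2) * (16047 / 16384)) * lam ^ 2 * A ^ 2
      - (α1 * (93 / 128) + α2 * (72663 / 65536) - (c1 + c2) * (170757 / 131072)) * lam ^ 3 * (A * B)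
      + (α1 * (477 / 512) + α2 * (2941479 / 2097152) - (c1 + c2) * (3421035 / 2097152)) * lam ^ 4 * A ^ 3
      + (α1 * (57 / 256) + α2 * (382683 / 1048576) - (c1 + c2) * (454851 / 1048576)) * lam ^ 4 * B ^ 2) * hd
    + (B * (1 - lam)) * hcub

/-- **Near the origin the comparison `N` is nonnegative**, under a scalar hypothesis. -/
theorem origin_N {lam δ ρ1 ρ2 : ℝ} (h0 : 0 < δ) (h1 : δ ≤ 1 / 100)
    {v : Fin 3 → ℝ} (hv : ∑ i, v i = 0) (hA : Aq v ≤ δ ^ 2) (hl : lam ^ 2 ≤ 1)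
    (hρ1 : 0 ≤ ρ1) (hρ2 : 0 ≤ ρ2)
    (hstar : 0 ≤ (ρ1 * (3 / 4) + ρ2 * (57 / 64) - 63 / 64)
      - |ρ1 * (3 / 8) + ρ2 * (141 / 256) - 333 / 512| * |lam| * δ
      - (ρ1 * (39 / 64 + 93 / 128 + 477 / 512 + 57 / 256)
          + ρ2 * (13935 / 16384 + 72663 / 65536 + 2941479 / 2097152 + 382683 / 1048576)
          + (16047 / 16384 + 170757 / 131072 + 3421035 / 2097152 + 454851 / 1048576)
          + 64 * (ρ1 + ρ2 + 1) * δ) * lam ^ 2 * δ ^ 2) :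
    0 ≤ ρ1 * Xw lam ![4, 4, 0] v + ρ2 * Xw lam ![4, 3, 1] v - Xw lam ![3, 3, 2] v := by
  have hA0 := Aq_nonneg v
  have hw := sum_smul_zero lam v hv
  have hAw : Aq (fun i => lam * v i) ≤ δ ^ 2 := by
    rw [Aq_smul]
    calc lam ^ 2 * Aq v ≤ 1 * Aq v := mul_le_mul_of_nonneg_right hl hA0
      _ ≤ δ ^ 2 := by rw [one_mul]; exact hA
  have t1 := series_440 δ h0 h1 (fun i => lam * v i) hw hAw
  have t2 := series_431 δ h0 h1 (fun i => lam * v i) hw hAw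
  have t3 := series_332 δ h0 h1 (fun i => lam * v i) hw hAw
  have hBw := Bq_sq_le (fun i => lam * v i) hw
  have hB := Bq_abs_le h0 v hv hA
  unfold serG at t1 t2 t3
  have hlam1 : |lam| ≤ 1 := by
    have : |lam| ^ 2 ≤ 1 := by rw [sq_abs]; exact hl
    nlinarith [abs_nonneg lam]
  have hb1 : |Bq (fun i => lam * v i)| ≤ |lam| * δ * (lam ^ 2 * Aq v) := by
    rw [Bq_smul, abs_mul, abs_pow]
    have h3 : |lam| ^ 3 = |lam| * lam ^ 2 := by rw [← sq_abs lam]; ring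
    rw [h3]
    calc |lam| * lam ^ 2 * |Bq v| ≤ |lam| * lam ^ 2 * (δ * Aq v) :=
          mul_le_mul_of_nonneg_left hB (by positivity)
      _ = _ := by ring
  have hal : lam ^ 2 * Aq v ≤ lam ^ 2 * δ ^ 2 := mul_le_mul_of_nonneg_left hA (sq_nonneg lam)
  have hA0a : 0 ≤ lam ^ 2 * Aq v := by positivity
  have hab2 : |lam| * δ ≤ 1 := by
    calc |lam| * δ ≤ 1 * (1 / 100) := mul_le_mul hlam1 h1 h0.le (by norm_num)
      _ ≤ 1 := by norm_num
  have hl1 : lam ^ 2 * δ ^ 2 ≤ 1 := by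
    have h5 : δ ^ 2 ≤ 1 := by nlinarith
    calc lam ^ 2 * δ ^ 2 ≤ 1 * 1 := mul_le_mul hl h5 (sq_nonneg δ) (by norm_num)
      _ = 1 := by norm_num
  have hl0 : 0 ≤ lam ^ 2 * δ ^ 2 := by positivity
  rw [Aq_smul] at t1 t2 t3 hBw
  unfold Xw
  generalize Bq (fun i => lam * v i) = b at *
  generalize GS ![4, 4, 0] (fun i => 1 + lam * v i) = H1 at *
  generalize GS ![4, 3, 1] (fun i => 1 + lam * v i) = H2 at *
  generalize GS ![3, 3, 2] (fun i => 1 + lam * v i) = Hc at *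
  generalize hageq : lam ^ 2 * Aq v = a at *
  generalize hlgeq : lam ^ 2 * δ ^ 2 = ℓ at *
  have hT0 : 0 ≤ a * ℓ := mul_nonneg hA0a hl0
  have ha2 : a ^ 2 ≤ a * ℓ := by
    have := mul_le_mul_of_nonneg_left hal hA0a
    nlinarith
  have hall : a ≤ 1 := hal.trans hl1
  have habl : |a * b| ≤ a * ℓ := by
    rw [abs_mul, abs_of_nonneg hA0a]
    have h6 : |b| ≤ a := by
      calc |b| ≤ |lam| * δ * a := hb1
        _ ≤ 1 * a := mul_le_mul_of_nonneg_right hab2 hA0a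
        _ = a := one_mul _
    calc a * |b| ≤ a * a := mul_le_mul_of_nonneg_left h6 hA0a
      _ = a ^ 2 := by ring
      _ ≤ _ := ha2
  have ha3 : a ^ 3 ≤ a * ℓ := by
    have h7 : a ^ 3 ≤ a ^ 2 := by
      have := mul_le_mul_of_nonneg_right hall (sq_nonneg a)
      nlinarith
    exact h7.trans ha2
  have hb2 : b ^ 2 ≤ a * ℓ := hBw.trans ha3
  have hp2 : 0 ≤ a ^ 2 := sq_nonneg a
  have hp3 : 0 ≤ a ^ 3 := pow_nonneg hA0a 3
  have hq2 : 0 ≤ b ^ 2 := sq_nonneg b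
  have hab' := abs_le.1 habl
  have hδT : 64 * δ * a ^ 3 ≤ 64 * δ * (a * ℓ) :=
    mul_le_mul_of_nonneg_left ha3 (by positivity)
  have s1 := abs_le.1 t1
  have s2 := abs_le.1 t2
  have s3 := abs_le.1 t3
  have hL1 : 3 / 4 * a - 3 / 8 * b - (39 / 64 + 93 / 128 + 477 / 512 + 57 / 256) * (a * ℓ)
      - 64 * δ * (a * ℓ) ≤ 1 - H1 := by
    linarith [s1.2, hab'.1, hab'.2]
  have hL2 : 57 / 64 * a - 141 / 256 * b
      - (13935 / 16384 + 72663 / 65536 + 2941479 / 2097152 + 382683 / 1048576) * (a * ℓ)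
      - 64 * δ * (a * ℓ) ≤ 1 - H2 := by
    linarith [s2.2, hab'.1, hab'.2]
  have hUc : 1 - Hc ≤ 63 / 64 * a - 333 / 512 * b
      + (16047 / 16384 + 170757 / 131072 + 3421035 / 2097152 + 454851 / 1048576) * (a * ℓ)
      + 64 * δ * (a * ℓ) := by
    linarith [s3.1, hab'.1, hab'.2]
  have m1 := mul_le_mul_of_nonneg_left hL1 hρ1
  have m2 := mul_le_mul_of_nonneg_left hL2 hρ2
  have m3 := mul_nonneg hstar hA0a
  have hg : (ρ1 * (3 / 8) + ρ2 * (141 / 256) - 333 / 512) * b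
      ≤ |ρ1 * (3 / 8) + ρ2 * (141 / 256) - 333 / 512| * (|lam| * δ * a) := by
    calc _ ≤ |(ρ1 * (3 / 8) + ρ2 * (141 / 256) - 333 / 512) * b| := le_abs_self _
      _ = _ * |b| := abs_mul _ _
      _ ≤ _ := mul_le_mul_of_nonneg_left hb1 (abs_nonneg _)
  have e : ((ρ1 * (3 / 4) + ρ2 * (57 / 64) - 63 / 64)
      - |ρ1 * (3 / 8) + ρ2 * (141 / 256) - 333 / 512| * |lam| * δ
      - (ρ1 * (39 / 64 + 93 / 128 + 477 / 512 + 57 / 256)
          + ρ2 * (13935 / 16384 + 72663 / 65536 + 2941479 / 2097152 + 382683 / 1048576)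
          + (16047 / 16384 + 170757 / 131072 + 3421035 / 2097152 + 454851 / 1048576)
          + 64 * (ρ1 + ρ2 + 1) * δ) * ℓ) * a
      = ρ1 * (3 / 4 * a - 3 / 8 * b - (39 / 64 + 93 / 128 + 477 / 512 + 57 / 256) * (a * ℓ)
          - 64 * δ * (a * ℓ))
        + ρ2 * (57 / 64 * a - 141 / 256 * b
          - (13935 / 16384 + 72663 / 65536 + 2941479 / 2097152 + 382683 / 1048576) * (a * ℓ)
          - 64 * δ * (a * ℓ))
        - (63 / 64 * a - 333 / 512 * b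
          + (16047 / 16384 + 170757 / 131072 + 3421035 / 2097152 + 454851 / 1048576) * (a * ℓ)
          + 64 * δ * (a * ℓ))
        + ((ρ1 * (3 / 8) + ρ2 * (141 / 256) - 333 / 512) * b
          - |ρ1 * (3 / 8) + ρ2 * (141 / 256) - 333 / 512| * (|lam| * δ * a)) := by
    ring
  have m3' : 0 ≤ ((ρ1 * (3 / 4) + ρ2 * (57 / 64) - 63 / 64)
      - |ρ1 * (3 / 8) + ρ2 * (141 / 256) - 333 / 512| * |lam| * δ
      - (ρ1 * (39 / 64 + 93 / 128 + 477 / 512 + 57 / 256)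
          + ρ2 * (13935 / 16384 + 72663 / 65536 + 2941479 / 2097152 + 382683 / 1048576)
          + (16047 / 16384 + 170757 / 131072 + 3421035 / 2097152 + 454851 / 1048576)
          + 64 * (ρ1 + ρ2 + 1) * δ) * ℓ) * a := by
    rw [← hlgeq]
    refine m3.trans_eq ?_
    ring
  rw [e] at m3'
  linarith [m1, m2, hUc, hg, m3']


end Vale.Agent.P154H
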