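import Mathlib

set_option linter.unusedSimpArgs false

/-!
Truncated binomial series of `(1+u)^(k/8)`, a bound for lists of monomials and the approximation
of the roots by the truncated series.
-/

open Finset BigOperators

namespace Vale.Agent.P154H.SerCore

/-- Value of a list of integer monomials in two variables. -/
noncomputable def evL (x y : ℝ) : List (ℤ × ℕ × ℕ) → ℝ
  | [] => 0
  | t :: l => (t.1 : ℝ) * x ^ t.2.1 * y ^ t.2.2 + evL x y l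

/-- Sum of the absolute values of the coefficients. -/
def sumAbs : List (ℤ × ℕ × ℕ) → ℕ
  | [] => 0
  | t :: l => t.1.natAbs + sumAbs l

/-- All monomials have degree at least `n`. -/
def minDeg (n : ℕ) : List (ℤ × ℕ × ℕ) → Bool
  | [] => true
  | t :: l => Nat.ble n (t.2.1 + t.2.2) && minDeg n l

/-- The weighted sum: `∑ |c| ρ^(deg - n)`. -/
noncomputable def wt (ρ : ℝ) (n : ℕ) : List (ℤ × ℕ × ℕ) → ℝ
  | [] => 0
  | t :: l => |(t.1 : ℝ)| * ρ ^ (t.2.1 + t.2.2 - n) + wt ρ n l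

lemma evL_wt_bound (x y s ρ : ℝ) (hx : |x| ≤ s) (hy : |y| ≤ s) (hs : s ≤ ρ) (n : ℕ)
    (L : List (ℤ × ℕ × ℕ)) (h : minDeg n L = true) : |evL x y L| ≤ wt ρ n L * s ^ n := by
  have hs0 : 0 ≤ s := le_trans (abs_nonneg x) hx
  have hρ : 0 ≤ ρ := le_trans hs0 hs
  induction L with
  | nil => simp [evL, wt]
  | cons t l ih =>
    simp only [minDeg, Bool.and_eq_true] at h
    have hd : n ≤ t.2.1 + t.2.2 := Nat.le_of_ble_eq_true h.1
    have hih := ih h.2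
    simp only [evL, wt]
    refine (abs_add_le _ _).trans ?_
    rw [add_mul]
    refine add_le_add ?_ hih
    rw [abs_mul, abs_mul, abs_pow, abs_pow, mul_assoc]
    rw [mul_assoc]
    refine mul_le_mul_of_nonneg_left ?_ (abs_nonneg _)
    have h1 : |x| ^ t.2.1 * |y| ^ t.2.2 ≤ s ^ t.2.1 * s ^ t.2.2 :=
      mul_le_mul (pow_le_pow_left₀ (abs_nonneg _) hx _) (pow_le_pow_left₀ (abs_nonneg _) hy _)
        (pow_nonneg (abs_nonneg _) _) (pow_nonneg hs0 _)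
    refine h1.trans ?_
    rw [← pow_add]
    have h2 : t.2.1 + t.2.2 = (t.2.1 + t.2.2 - n) + n := by omega
    calc s ^ (t.2.1 + t.2.2) = s ^ (t.2.1 + t.2.2 - n) * s ^ n := by rw [← pow_add, ← h2]
      _ ≤ ρ ^ (t.2.1 + t.2.2 - n) * s ^ n :=
        mul_le_mul_of_nonneg_right (pow_le_pow_left₀ hs0 hs _) (pow_nonneg hs0 _)

lemma wt_one (n : ℕ) (L : List (ℤ × ℕ × ℕ)) : wt 1 n L = (sumAbs L : ℝ) := by
  induction L with
  | nil => simp [wt, sumAbs]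
  | cons t l ih =>
    simp only [wt, sumAbs, one_pow, mul_one, ih]
    push_cast
    simp

lemma evL_bound (x y s : ℝ) (hx : |x| ≤ s) (hy : |y| ≤ s) (hs : s ≤ 1) (n : ℕ)
    (L : List (ℤ × ℕ × ℕ)) (h : minDeg n L = true) : |evL x y L| ≤ (sumAbs L : ℝ) * s ^ n := by
  rw [← wt_one n L]
  exact evL_wt_bound x y s 1 hx hy hs n L h

/-- Truncated series of `(1+u)^(1/8)`. -/
noncomputable def Q1 (u : ℝ) : ℝ := 1 + (1/8) * u ^ 1 + (-7/128) * u ^ 2 + (35/1024) * u ^ 3 + (-805/32768) * u ^ 4 + (4991/262144) * u ^ 5 + (-64883/4194304) * u ^ 6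

/-- Truncated series of `(1+u)^(2/8)`. -/
noncomputable def Q2 (u : ℝ) : ℝ := 1 + (1/4) * u ^ 1 + (-3/32) * u ^ 2 + (7/128) * u ^ 3 + (-77/2048) * u ^ 4 + (231/8192) * u ^ 5 + (-1463/65536) * u ^ 6

/-- Truncated series of `(1+u)^(3/8)`. -/
noncomputable def Q3 (u : ℝ) : ℝ := 1 + (3/8) * u ^ 1 + (-15/128) * u ^ 2 + (65/1024) * u ^ 3 + (-1365/32768) * u ^ 4 + (7917/262144) * u ^ 5 + (-97643/4194304) * u ^ 6

/-- Truncated series of `(1+u)^(4/8)`. -/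
noncomputable def Q4 (u : ℝ) : ℝ := 1 + (1/2) * u ^ 1 + (-1/8) * u ^ 2 + (1/16) * u ^ 3 + (-5/128) * u ^ 4 + (7/256) * u ^ 5 + (-21/1024) * u ^ 6

/-- The series by exponent. -/
noncomputable def Qk (k : ℕ) (u : ℝ) : ℝ :=
  match k with
  | 0 => 1
  | 1 => Q1 u
  | 2 => Q2 u
  | 3 => Q3 u
  | _ => Q4 u

/-- Remainder list. -/
def LR4 : List (ℤ × ℕ × ℕ) := [(33792, 7, 0), (-10560, 8, 0), (4928, 9, 0), (-2464, 10, 0), (1176, 11, 0), (-441, 12, 0)]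

lemma rem4_eq (u : ℝ) : 1 + u - Q4 u ^ 2 = evL u u LR4 / 1048576 := by
  simp only [evL, LR4, Q1, Q2, Q3, Q4]
  push_cast
  ring

lemma rem4_bd (u : ℝ) (hu : |u| ≤ 1 / 50) : |1 + u - Q4 u ^ 2| ≤ 33 / 1000 * |u| ^ 7 := by
  rw [rem4_eq, abs_div, abs_of_pos (show (0 : ℝ) < 1048576 by norm_num)]
  have h := evL_wt_bound u u |u| (1 / 50) le_rfl le_rfl hu 7 LR4 (by decide)
  have hw : wt (1 / 50) 7 LR4 ≤ 33 / 1000 * 1048576 := by
    simp only [wt, LR4]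
    norm_num [abs_of_nonneg, abs_of_neg]
  have hp : 0 ≤ |u| ^ 7 := by positivity
  rw [div_le_iff₀ (by norm_num)]
  calc |evL u u LR4| ≤ wt (1 / 50) 7 LR4 * |u| ^ 7 := h
    _ ≤ (33 / 1000 * 1048576) * |u| ^ 7 := mul_le_mul_of_nonneg_right hw hp
    _ = _ := by ring

/-- Remainder list. -/
def LR2 : List (ℤ × ℕ × ℕ) := [(88309760, 7, 0), (-37295104, 8, 0), (19593728, 9, 0), (-10624768, 10, 0), (5407248, 11, 0), (-2140369, 12, 0)]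

lemma rem2_eq (u : ℝ) : Q4 u - Q2 u ^ 2 = evL u u LR2 / 4294967296 := by
  simp only [evL, LR2, Q1, Q2, Q3, Q4]
  push_cast
  ring

lemma rem2_bd (u : ℝ) (hu : |u| ≤ 1 / 50) : |Q4 u - Q2 u ^ 2| ≤ 21 / 1000 * |u| ^ 7 := by
  rw [rem2_eq, abs_div, abs_of_pos (show (0 : ℝ) < 4294967296 by norm_num)]
  have h := evL_wt_bound u u |u| (1 / 50) le_rfl le_rfl hu 7 LR2 (by decide)
  have hw : wt (1 / 50) 7 LR2 ≤ 21 / 1000 * 4294967296 := by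
    simp only [wt, LR2]
    norm_num [abs_of_nonneg, abs_of_neg]
  have hp : 0 ≤ |u| ^ 7 := by positivity
  rw [div_le_iff₀ (by norm_num)]
  calc |evL u u LR2| ≤ wt (1 / 50) 7 LR2 * |u| ^ 7 := h
    _ ≤ (21 / 1000 * 4294967296) * |u| ^ 7 := mul_le_mul_of_nonneg_right hw hp
    _ = _ := by ring

/-- Remainder list. -/
def LR1 : List (ℤ × ℕ × ℕ) := [(134212485120, 7, 0), (-63278759936, 8, 0), (35059978240, 9, 0), (-19748069376, 10, 0), (10362593696, 11, 0), (-4209803689, 12, 0)]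

lemma rem1_eq (u : ℝ) : Q2 u - Q1 u ^ 2 = evL u u LR1 / 17592186044416 := by
  simp only [evL, LR1, Q1, Q2, Q3, Q4]
  push_cast
  ring

lemma rem1_bd (u : ℝ) (hu : |u| ≤ 1 / 50) : |Q2 u - Q1 u ^ 2| ≤ 1 / 125 * |u| ^ 7 := by
  rw [rem1_eq, abs_div, abs_of_pos (show (0 : ℝ) < 17592186044416 by norm_num)]
  have h := evL_wt_bound u u |u| (1 / 50) le_rfl le_rfl hu 7 LR1 (by decide)
  have hw : wt (1 / 50) 7 LR1 ≤ 1 / 125 * 17592186044416 := by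
    simp only [wt, LR1]
    norm_num [abs_of_nonneg, abs_of_neg]
  have hp : 0 ≤ |u| ^ 7 := by positivity
  rw [div_le_iff₀ (by norm_num)]
  calc |evL u u LR1| ≤ wt (1 / 50) 7 LR1 * |u| ^ 7 := h
    _ ≤ (1 / 125 * 17592186044416) * |u| ^ 7 := mul_le_mul_of_nonneg_right hw hp
    _ = _ := by ring

/-- Remainder list. -/
def LR3 : List (ℤ × ℕ × ℕ) := [(-3467132928, 7, 0), (1539241984, 8, 0), (-829459456, 9, 0), (458193120, 10, 0), (-236733112, 11, 0), (94923829, 12, 0)]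

lemma rem3_eq (u : ℝ) : Q1 u * Q2 u - Q3 u = evL u u LR3 / 274877906944 := by
  simp only [evL, LR3, Q1, Q2, Q3, Q4]
  push_cast
  ring

lemma rem3_bd (u : ℝ) (hu : |u| ≤ 1 / 50) : |Q1 u * Q2 u - Q3 u| ≤ 13 / 1000 * |u| ^ 7 := by
  rw [rem3_eq, abs_div, abs_of_pos (show (0 : ℝ) < 274877906944 by norm_num)]
  have h := evL_wt_bound u u |u| (1 / 50) le_rfl le_rfl hu 7 LR3 (by decide)
  have hw : wt (1 / 50) 7 LR3 ≤ 13 / 1000 * 274877906944 := by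
    simp only [wt, LR3]
    norm_num [abs_of_nonneg, abs_of_neg]
  have hp : 0 ≤ |u| ^ 7 := by positivity
  rw [div_le_iff₀ (by norm_num)]
  calc |evL u u LR3| ≤ wt (1 / 50) 7 LR3 * |u| ^ 7 := h
    _ ≤ (13 / 1000 * 274877906944) * |u| ^ 7 := mul_le_mul_of_nonneg_right hw hp
    _ = _ := by ring

lemma Q1_near (u : ℝ) (hu : |u| ≤ 1 / 50) : |Q1 u - 1| ≤ 3 / 5 * |u| := by
  have e : Q1 u - 1 = evL u u [(524288, 1, 0), (-229376, 2, 0), (143360, 3, 0), (-103040, 4, 0), (79856, 5, 0), (-64883, 6, 0)] / 4194304 := by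
    simp only [evL, Q1]
    push_cast
    ring
  rw [e, abs_div, abs_of_pos (show (0 : ℝ) < 4194304 by norm_num)]
  have h := evL_wt_bound u u |u| (1 / 50) le_rfl le_rfl hu 1 [(524288, 1, 0), (-229376, 2, 0), (143360, 3, 0), (-103040, 4, 0), (79856, 5, 0), (-64883, 6, 0)] (by decide)
  have hw : wt (1 / 50) 1 [(524288, 1, 0), (-229376, 2, 0), (143360, 3, 0), (-103040, 4, 0), (79856, 5, 0), (-64883, 6, 0)] ≤ 3 / 5 * 4194304 := by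
    simp only [wt]
    norm_num [abs_of_nonneg, abs_of_neg]
  have hp : 0 ≤ |u| ^ 1 := by positivity
  rw [div_le_iff₀ (by norm_num)]
  calc _ ≤ wt (1 / 50) 1 [(524288, 1, 0), (-229376, 2, 0), (143360, 3, 0), (-103040, 4, 0), (79856, 5, 0), (-64883, 6, 0)] * |u| ^ 1 := h
    _ ≤ (3 / 5 * 4194304) * |u| ^ 1 := mul_le_mul_of_nonneg_right hw hp
    _ = _ := by ring

lemma Q2_near (u : ℝ) (hu : |u| ≤ 1 / 50) : |Q2 u - 1| ≤ 3 / 5 * |u| := by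
  have e : Q2 u - 1 = evL u u [(16384, 1, 0), (-6144, 2, 0), (3584, 3, 0), (-2464, 4, 0), (1848, 5, 0), (-1463, 6, 0)] / 65536 := by
    simp only [evL, Q2]
    push_cast
    ring
  rw [e, abs_div, abs_of_pos (show (0 : ℝ) < 65536 by norm_num)]
  have h := evL_wt_bound u u |u| (1 / 50) le_rfl le_rfl hu 1 [(16384, 1, 0), (-6144, 2, 0), (3584, 3, 0), (-2464, 4, 0), (1848, 5, 0), (-1463, 6, 0)] (by decide)
  have hw : wt (1 / 50) 1 [(16384, 1, 0), (-6144, 2, 0), (3584, 3, 0), (-2464, 4, 0), (1848, 5, 0), (-1463, 6, 0)] ≤ 3 / 5 * 65536 := by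
    simp only [wt]
    norm_num [abs_of_nonneg, abs_of_neg]
  have hp : 0 ≤ |u| ^ 1 := by positivity
  rw [div_le_iff₀ (by norm_num)]
  calc _ ≤ wt (1 / 50) 1 [(16384, 1, 0), (-6144, 2, 0), (3584, 3, 0), (-2464, 4, 0), (1848, 5, 0), (-1463, 6, 0)] * |u| ^ 1 := h
    _ ≤ (3 / 5 * 65536) * |u| ^ 1 := mul_le_mul_of_nonneg_right hw hp
    _ = _ := by ring

lemma Q3_near (u : ℝ) (hu : |u| ≤ 1 / 50) : |Q3 u - 1| ≤ 3 / 5 * |u| := by
  have e : Q3 u - 1 = evL u u [(1572864, 1, 0), (-491520, 2, 0), (266240, 3, 0), (-174720, 4, 0), (126672, 5, 0), (-97643, 6, 0)] / 4194304 := by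
    simp only [evL, Q3]
    push_cast
    ring
  rw [e, abs_div, abs_of_pos (show (0 : ℝ) < 4194304 by norm_num)]
  have h := evL_wt_bound u u |u| (1 / 50) le_rfl le_rfl hu 1 [(1572864, 1, 0), (-491520, 2, 0), (266240, 3, 0), (-174720, 4, 0), (126672, 5, 0), (-97643, 6, 0)] (by decide)
  have hw : wt (1 / 50) 1 [(1572864, 1, 0), (-491520, 2, 0), (266240, 3, 0), (-174720, 4, 0), (126672, 5, 0), (-97643, 6, 0)] ≤ 3 / 5 * 4194304 := by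
    simp only [wt]
    norm_num [abs_of_nonneg, abs_of_neg]
  have hp : 0 ≤ |u| ^ 1 := by positivity
  rw [div_le_iff₀ (by norm_num)]
  calc _ ≤ wt (1 / 50) 1 [(1572864, 1, 0), (-491520, 2, 0), (266240, 3, 0), (-174720, 4, 0), (126672, 5, 0), (-97643, 6, 0)] * |u| ^ 1 := h
    _ ≤ (3 / 5 * 4194304) * |u| ^ 1 := mul_le_mul_of_nonneg_right hw hp
    _ = _ := by ring

lemma Q4_near (u : ℝ) (hu : |u| ≤ 1 / 50) : |Q4 u - 1| ≤ 3 / 5 * |u| := by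
  have e : Q4 u - 1 = evL u u [(512, 1, 0), (-128, 2, 0), (64, 3, 0), (-40, 4, 0), (28, 5, 0), (-21, 6, 0)] / 1024 := by
    simp only [evL, Q4]
    push_cast
    ring
  rw [e, abs_div, abs_of_pos (show (0 : ℝ) < 1024 by norm_num)]
  have h := evL_wt_bound u u |u| (1 / 50) le_rfl le_rfl hu 1 [(512, 1, 0), (-128, 2, 0), (64, 3, 0), (-40, 4, 0), (28, 5, 0), (-21, 6, 0)] (by decide)
  have hw : wt (1 / 50) 1 [(512, 1, 0), (-128, 2, 0), (64, 3, 0), (-40, 4, 0), (28, 5, 0), (-21, 6, 0)] ≤ 3 / 5 * 1024 := by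
    simp only [wt]
    norm_num [abs_of_nonneg, abs_of_neg]
  have hp : 0 ≤ |u| ^ 1 := by positivity
  rw [div_le_iff₀ (by norm_num)]
  calc _ ≤ wt (1 / 50) 1 [(512, 1, 0), (-128, 2, 0), (64, 3, 0), (-40, 4, 0), (28, 5, 0), (-21, 6, 0)] * |u| ^ 1 := h
    _ ≤ (3 / 5 * 1024) * |u| ^ 1 := mul_le_mul_of_nonneg_right hw hp
    _ = _ := by ring

lemma chain_step (z Q w e : ℝ) (hz : 9 / 10 ≤ z) (hQ : 9 / 10 ≤ Q) (hw : z ^ 2 = w)
    (he : |w - Q ^ 2| ≤ e) : |z - Q| ≤ 5 / 9 * e := by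
  have h1 : |z - Q| * (z + Q) = |w - Q ^ 2| := by
    rw [← hw]
    have : z ^ 2 - Q ^ 2 = (z - Q) * (z + Q) := by ring
    rw [this, abs_mul, abs_of_pos (show 0 < z + Q by linarith)]
  have h2 : 9 / 5 ≤ z + Q := by linarith
  have h3 : 0 ≤ |z - Q| := abs_nonneg _
  have h4 : |z - Q| * (9 / 5) ≤ |z - Q| * (z + Q) := mul_le_mul_of_nonneg_left h2 h3
  linarith

/-- Bounds for a root. -/
lemma root_bounds (y u : ℝ) (hy0 : 0 ≤ y) (hy : y ^ 8 = 1 + u) (hu : |u| ≤ 1 / 50) :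
    99 / 100 ≤ y ∧ y ≤ 101 / 100 := by
  have hu' := abs_le.mp hu
  constructor
  · by_contra h
    push Not at h
    have := pow_lt_pow_left₀ h hy0 (n := 8) (by norm_num)
    norm_num at this
    linarith
  · by_contra h
    push Not at h
    have := pow_lt_pow_left₀ h (by norm_num) (n := 8) (by norm_num)
    norm_num at this
    linarith

/-- Approximation of the powers of the root by the truncated series. -/
lemma approx_all (y u : ℝ) (hy0 : 0 ≤ y) (hy : y ^ 8 = 1 + u) (hu : |u| ≤ 1 / 50) :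
    |y ^ 4 - Q4 u| ≤ 1 / 16 * |u| ^ 7 ∧ |y ^ 2 - Q2 u| ≤ 1 / 16 * |u| ^ 7 ∧
    |y - Q1 u| ≤ 1 / 16 * |u| ^ 7 ∧ |y ^ 3 - Q3 u| ≤ 1 / 16 * |u| ^ 7 := by
  obtain ⟨hl, hr⟩ := root_bounds y u hy0 hy hu
  have hp : 0 ≤ |u| ^ 7 := by positivity
  have hu0 := abs_nonneg u
  have q1 := abs_le.mp (Q1_near u hu)
  have q2 := abs_le.mp (Q2_near u hu)
  have q3 := abs_le.mp (Q3_near u hu)
  have q4 := abs_le.mp (Q4_near u hu)
  have hQ1 : 9 / 10 ≤ Q1 u := by linarith [q1.1]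
  have hQ2 : 9 / 10 ≤ Q2 u := by linarith [q2.1]
  have hQ4 : 9 / 10 ≤ Q4 u := by linarith [q4.1]
  have hQ1u : Q1 u ≤ 11 / 10 := by linarith [q1.2]
  have hy2l : 9 / 10 ≤ y ^ 2 := by nlinarith
  have hy2u : y ^ 2 ≤ 11 / 10 := by nlinarith
  have hy4l : 9 / 10 ≤ y ^ 4 := by
    have : y ^ 4 = (y ^ 2) ^ 2 := by ring
    rw [this]; nlinarith
  have k4 : |y ^ 4 - Q4 u| ≤ 5 / 9 * (33 / 1000 * |u| ^ 7) :=
    chain_step (y ^ 4) (Q4 u) (1 + u) _ hy4l hQ4 (by rw [← hy]; ring) (rem4_bd u hu)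
  have k2 : |y ^ 2 - Q2 u| ≤ 5 / 9 * (5 / 9 * (33 / 1000 * |u| ^ 7) + 21 / 1000 * |u| ^ 7) := by
    refine chain_step (y ^ 2) (Q2 u) (y ^ 4) _ hy2l hQ2 (by ring) ?_
    have e : y ^ 4 - Q2 u ^ 2 = (y ^ 4 - Q4 u) + (Q4 u - Q2 u ^ 2) := by ring
    rw [e]
    exact (abs_add_le _ _).trans (add_le_add k4 (rem2_bd u hu))
  have k2' : |y ^ 2 - Q2 u| ≤ 22 / 1000 * |u| ^ 7 := by
    refine k2.trans ?_
    nlinarith
  have k1 : |y - Q1 u| ≤ 5 / 9 * (22 / 1000 * |u| ^ 7 + 8 / 1000 * |u| ^ 7) := by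
    refine chain_step y (Q1 u) (y ^ 2) _ (by linarith) hQ1 rfl ?_
    have e : y ^ 2 - Q1 u ^ 2 = (y ^ 2 - Q2 u) + (Q2 u - Q1 u ^ 2) := by ring
    rw [e]
    exact (abs_add_le _ _).trans (add_le_add k2' (by have := rem1_bd u hu; linarith))
  have k1' : |y - Q1 u| ≤ 17 / 1000 * |u| ^ 7 := by
    refine k1.trans ?_
    nlinarith
  refine ⟨by refine k4.trans ?_; nlinarith, by refine k2'.trans ?_; nlinarith,
    by refine k1'.trans ?_; nlinarith, ?_⟩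
  have e : y ^ 3 - Q3 u = (y - Q1 u) * y ^ 2 + Q1 u * (y ^ 2 - Q2 u) + (Q1 u * Q2 u - Q3 u) := by ring
  rw [e]
  have a1 : |(y - Q1 u) * y ^ 2| ≤ 17 / 1000 * |u| ^ 7 * (11 / 10) := by
    rw [abs_mul, abs_of_nonneg (show 0 ≤ y ^ 2 by positivity)]
    exact mul_le_mul k1' hy2u (by positivity) (by positivity)
  have a2 : |Q1 u * (y ^ 2 - Q2 u)| ≤ 11 / 10 * (22 / 1000 * |u| ^ 7) := by
    rw [abs_mul, abs_of_nonneg (show 0 ≤ Q1 u by linarith)]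
    exact mul_le_mul hQ1u k2' (abs_nonneg _) (by norm_num)
  have a3 := rem3_bd u hu
  have := abs_add_three ((y - Q1 u) * y ^ 2) (Q1 u * (y ^ 2 - Q2 u)) (Q1 u * Q2 u - Q3 u)
  nlinarith

/-- The approximation for all exponents up to four, with the size bounds. -/
lemma approx_k (y u : ℝ) (hy0 : 0 ≤ y) (hy : y ^ 8 = 1 + u) (hu : |u| ≤ 1 / 50) (k : ℕ)
    (hk : k ≤ 4) :
    |y ^ k - Qk k u| ≤ 1 / 16 * |u| ^ 7 ∧ |y ^ k| ≤ 11 / 10 ∧ |Qk k u| ≤ 11 / 10 := by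
  obtain ⟨hl, hr⟩ := root_bounds y u hy0 hy hu
  obtain ⟨h4, h2, h1, h3⟩ := approx_all y u hy0 hy hu
  have hp : 0 ≤ |u| ^ 7 := by positivity
  have hu0 := abs_nonneg u
  have q1 := abs_le.mp (Q1_near u hu)
  have q2 := abs_le.mp (Q2_near u hu)
  have q3 := abs_le.mp (Q3_near u hu)
  have q4 := abs_le.mp (Q4_near u hu)
  have hy2 : y ^ 2 ≤ 103 / 100 := by nlinarith
  have hy2' : 0 ≤ y ^ 2 := by positivity
  have hy3 : y ^ 3 ≤ 11 / 10 := by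
    have : y ^ 3 = y ^ 2 * y := by ring
    rw [this]; nlinarith
  have hy4 : y ^ 4 ≤ 11 / 10 := by
    have : y ^ 4 = y ^ 2 * y ^ 2 := by ring
    rw [this]; nlinarith
  have hQ : ∀ q : ℝ, -(3 / 5 * |u|) ≤ q - 1 → q - 1 ≤ 3 / 5 * |u| → |q| ≤ 11 / 10 := by
    intro q a b
    rw [abs_le]
    constructor <;> linarith
  interval_cases k
  · simp only [Qk, pow_zero, sub_self, abs_zero, abs_one]
    exact ⟨by positivity, by norm_num, by norm_num⟩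
  · simpa [Qk, abs_of_nonneg hy0] using
      (⟨h1, by linarith, hQ _ q1.1 q1.2⟩ : _ ∧ y ≤ 11 / 10 ∧ _)
  · refine ⟨h2, ?_, hQ _ q2.1 q2.2⟩
    rw [abs_of_nonneg hy2']; linarith
  · refine ⟨h3, ?_, hQ _ q3.1 q3.2⟩
    rw [abs_of_nonneg (by positivity)]; exact hy3
  · refine ⟨h4, ?_, hQ _ q4.1 q4.2⟩
    rw [abs_of_nonneg (by positivity)]; exact hy4

/-- Telescoping for three factors. -/
lemma triple_bound (a b c a' b' c' e1 e2 e3 : ℝ) (ha : |a| ≤ 11 / 10) (hb : |b| ≤ 11 / 10)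
    (hc : |c| ≤ 11 / 10) (ha' : |a'| ≤ 11 / 10) (hb' : |b'| ≤ 11 / 10)
    (h1 : |a - a'| ≤ e1) (h2 : |b - b'| ≤ e2) (h3 : |c - c'| ≤ e3) :
    |a * b * c - a' * b' * c'| ≤ 121 / 100 * (e1 + e2 + e3) := by
  have e : a * b * c - a' * b' * c' = (a - a') * (b * c) + a' * (b - b') * c + a' * b' * (c - c') := by
    ring
  rw [e]
  have n1 : 0 ≤ |a - a'| := abs_nonneg _
  have n2 : 0 ≤ |b - b'| := abs_nonneg _
  have n3 : 0 ≤ |c - c'| := abs_nonneg _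
  have t1 : |(a - a') * (b * c)| ≤ e1 * (121 / 100) := by
    rw [abs_mul, abs_mul]
    have : |b| * |c| ≤ 11 / 10 * (11 / 10) :=
      mul_le_mul hb hc (abs_nonneg _) (by norm_num)
    exact mul_le_mul h1 (by linarith) (by positivity) (by linarith)
  have t2 : |a' * (b - b') * c| ≤ e2 * (121 / 100) := by
    rw [abs_mul, abs_mul]
    have : |a'| * |c| ≤ 11 / 10 * (11 / 10) :=
      mul_le_mul ha' hc (abs_nonneg _) (by norm_num)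
    have e' : |a'| * |b - b'| * |c| = |b - b'| * (|a'| * |c|) := by ring
    rw [e']
    exact mul_le_mul h2 (by linarith) (by positivity) (by linarith)
  have t3 : |a' * b' * (c - c')| ≤ e3 * (121 / 100) := by
    rw [abs_mul, abs_mul]
    have : |a'| * |b'| ≤ 11 / 10 * (11 / 10) :=
      mul_le_mul ha' hb' (abs_nonneg _) (by norm_num)
    have e' : |a'| * |b'| * |c - c'| = |c - c'| * (|a'| * |b'|) := by ring
    rw [e']
    exact mul_le_mul h3 (by linarith) (by positivity) (by linarith)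
  have := abs_add_three ((a - a') * (b * c)) (a' * (b - b') * c) (a' * b' * (c - c'))
  linarith

/-- Size of a coordinate in terms of `A`. -/
lemma coord_sq_le (x y z : ℝ) (hz : x + y + z = 0) : x ^ 2 ≤ 4 * ((x ^ 2 + y ^ 2 + z ^ 2) / 6) := by
  have : x = -y - z := by linarith
  subst this
  nlinarith [sq_nonneg (y - z)]

/-- Seventh power of a coordinate. -/
lemma coord_pow7 (x A δ : ℝ) (h0 : 0 < δ) (hx : x ^ 2 ≤ 4 * A) (hA : A ≤ δ ^ 2) :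
    |x| ^ 7 ≤ 128 * δ * A ^ 3 ∧ |x| ≤ 2 * δ := by
  have hA0 : 0 ≤ A := by nlinarith [sq_nonneg x]
  have h1 : |x| ≤ 2 * δ := by
    rw [← abs_of_pos (show 0 < 2 * δ by positivity)]
    apply sq_le_sq.mp
    rw [mul_pow]
    nlinarith
  refine ⟨?_, h1⟩
  have e : |x| ^ 7 = |x| * (x ^ 2) ^ 3 := by
    rw [← sq_abs x]; ring
  rw [e]
  have h2 : (x ^ 2) ^ 3 ≤ (4 * A) ^ 3 := pow_le_pow_left₀ (sq_nonneg x) hx 3
  calc |x| * (x ^ 2) ^ 3 ≤ (2 * δ) * (4 * A) ^ 3 :=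
        mul_le_mul h1 h2 (by positivity) (by positivity)
    _ = 128 * δ * A ^ 3 := by ring

/-- `b² ≤ A³` on the plane. -/
lemma b_sq_le (x y z : ℝ) (hz : x + y + z = 0) :
    ((x ^ 3 + y ^ 3 + z ^ 3) / 6) ^ 2 ≤ ((x ^ 2 + y ^ 2 + z ^ 2) / 6) ^ 3 := by
  have : z = -x - y := by linarith
  subst this
  have e : ((x ^ 2 + y ^ 2 + (-x - y) ^ 2) / 6) ^ 3 - ((x ^ 3 + y ^ 3 + (-x - y) ^ 3) / 6) ^ 2
      = ((x - y) * (y - (-x - y)) * (x - (-x - y))) ^ 2 / 108 := by ring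
  have h : 0 ≤ ((x - y) * (y - (-x - y)) * (x - (-x - y))) ^ 2 / 108 := by positivity
  linarith

/-- The sum over the six permutations. -/
lemma perm3_sum2 (F : Fin 3 → Fin 3 → Fin 3 → ℝ) :
    ∑ g : Equiv.Perm (Fin 3), F (g 0) (g 1) (g 2)
      = F 0 1 2 + F 0 2 1 + F 1 0 2 + F 1 2 0 + F 2 0 1 + F 2 1 0 := by
  have h : (Finset.univ : Finset (Equiv.Perm (Fin 3))) =
      {1, Equiv.swap 1 2, Equiv.swap 0 1, Equiv.swap 0 1 * Equiv.swap 1 2,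
        Equiv.swap 1 2 * Equiv.swap 0 1, Equiv.swap 0 2} := by decide
  rw [h]
  rw [Finset.sum_insert (by decide), Finset.sum_insert (by decide), Finset.sum_insert (by decide),
    Finset.sum_insert (by decide), Finset.sum_insert (by decide), Finset.sum_singleton]
  have e1 : (Equiv.swap (1 : Fin 3) 2) 0 = 0 := by decide
  have e2 : (Equiv.swap (1 : Fin 3) 2) 1 = 2 := by decide
  have e3 : (Equiv.swap (1 : Fin 3) 2) 2 = 1 := by decide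
  simp only [show ((1 : Equiv.Perm (Fin 3)) 0 = 0) by decide, show ((1 : Equiv.Perm (Fin 3)) 1 = 1) by decide,
    show ((1 : Equiv.Perm (Fin 3)) 2 = 2) by decide, e1, e2, e3,
    show (Equiv.swap (0 : Fin 3) 1) 0 = 1 by decide, show (Equiv.swap (0 : Fin 3) 1) 1 = 0 by decide,
    show (Equiv.swap (0 : Fin 3) 1) 2 = 2 by decide,
    show (Equiv.swap (0 : Fin 3) 1 * Equiv.swap 1 2 : Equiv.Perm (Fin 3)) 0 = 1 by decide,
    show (Equiv.swap (0 : Fin 3) 1 * Equiv.swap 1 2 : Equiv.Perm (Fin 3)) 1 = 2 by decide,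
    show (Equiv.swap (0 : Fin 3) 1 * Equiv.swap 1 2 : Equiv.Perm (Fin 3)) 2 = 0 by decide,
    show (Equiv.swap (1 : Fin 3) 2 * Equiv.swap 0 1 : Equiv.Perm (Fin 3)) 0 = 2 by decide,
    show (Equiv.swap (1 : Fin 3) 2 * Equiv.swap 0 1 : Equiv.Perm (Fin 3)) 1 = 0 by decide,
    show (Equiv.swap (1 : Fin 3) 2 * Equiv.swap 0 1 : Equiv.Perm (Fin 3)) 2 = 1 by decide,
    show (Equiv.swap (0 : Fin 3) 2) 0 = 2 by decide, show (Equiv.swap (0 : Fin 3) 2) 1 = 1 by decide,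
    show (Equiv.swap (0 : Fin 3) 2) 2 = 0 by decide]
  ring

/-- Linear assembly. -/
lemma final_assemble (a1 a2 a3 a4 a5 a6 b1 b2 b3 b4 b5 b6 C R S T : ℝ)
    (h1 : |a1 - b1| ≤ 30 * T) (h2 : |a2 - b2| ≤ 30 * T) (h3 : |a3 - b3| ≤ 30 * T)
    (h4 : |a4 - b4| ≤ 30 * T) (h5 : |a5 - b5| ≤ 30 * T) (h6 : |a6 - b6| ≤ 30 * T)
    (hC : |C| ≤ T) (hR : |R| ≤ 3 * T)
    (hS : S = (1 / 6) * (b1 + b2 + b3 + b4 + b5 + b6) - C - R) :
    |(1 / 6) * (a1 + a2 + a3 + a4 + a5 + a6) - S| ≤ 64 * T := by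
  have k1 := abs_le.mp h1
  have k2 := abs_le.mp h2
  have k3 := abs_le.mp h3
  have k4 := abs_le.mp h4
  have k5 := abs_le.mp h5
  have k6 := abs_le.mp h6
  have c1 := abs_le.mp hC
  have c2 := abs_le.mp hR
  have hT : 0 ≤ T := le_trans (abs_nonneg _) hC
  rw [abs_le, hS]
  constructor <;> linarith [k1.1, k1.2, k2.1, k2.2, k3.1, k3.2, k4.1, k4.2, k5.1, k5.2,
    k6.1, k6.2, c1.1, c1.2, c2.1, c2.2]

/-- One product is close to its truncation. -/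
lemma key_bound (x y z δ A r0 r1 r2 : ℝ) (h0 : 0 < δ) (h1 : δ ≤ 1 / 100) (hA0 : 0 ≤ A)
    (hx2 : x ^ 2 ≤ 4 * A) (hy2 : y ^ 2 ≤ 4 * A) (hz2 : z ^ 2 ≤ 4 * A) (hA : A ≤ δ ^ 2)
    (hr0 : 0 ≤ r0) (hr1 : 0 ≤ r1) (hr2 : 0 ≤ r2)
    (hr0' : r0 ^ 8 = 1 + x) (hr1' : r1 ^ 8 = 1 + y) (hr2' : r2 ^ 8 = 1 + z)
    (a b c : ℕ) (ha : a ≤ 4) (hb : b ≤ 4) (hc : c ≤ 4) :
    |r0 ^ a * r1 ^ b * r2 ^ c - Qk a x * Qk b y * Qk c z| ≤ 30 * (δ * A ^ 3) := by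
  obtain ⟨hx7, hxa⟩ := coord_pow7 x A δ h0 hx2 hA
  obtain ⟨hy7, hya⟩ := coord_pow7 y A δ h0 hy2 hA
  obtain ⟨hz7, hza⟩ := coord_pow7 z A δ h0 hz2 hA
  have hδ : 2 * δ ≤ 1 / 50 := by linarith
  obtain ⟨a1, a2, a3⟩ := approx_k r0 x hr0 hr0' (hxa.trans hδ) a ha
  obtain ⟨b1, b2, b3⟩ := approx_k r1 y hr1 hr1' (hya.trans hδ) b hb
  obtain ⟨c1, c2, _⟩ := approx_k r2 z hr2 hr2' (hza.trans hδ) c hc
  have := triple_bound _ _ _ _ _ _ _ _ _ a2 b2 c2 a3 b3 a1 b1 c1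
  refine this.trans ?_
  have hp : 0 ≤ δ * A ^ 3 := by positivity
  have e : ∀ t : ℝ, t * δ * A ^ 3 = t * (δ * A ^ 3) := by intro t; ring
  rw [e] at hx7 hy7 hz7
  linarith

/-- The term of degree seven. -/
lemma cb_bound (c A b δ : ℝ) (h0 : 0 < δ) (hA0 : 0 ≤ A) (hA : A ≤ δ ^ 2) (hb2 : b ^ 2 ≤ A ^ 3)
    (hc : |c| ≤ 1) : |c * A ^ 2 * b| ≤ δ * A ^ 3 := by
  have hb : |b| ≤ δ * A := by
    rw [← abs_of_nonneg (show 0 ≤ δ * A by positivity)]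
    apply sq_le_sq.mp
    rw [mul_pow]
    have : A ^ 3 ≤ δ ^ 2 * A ^ 2 := by
      have : A ^ 3 = A * A ^ 2 := by ring
      rw [this]
      exact mul_le_mul_of_nonneg_right hA (by positivity)
    linarith
  rw [abs_mul, abs_mul, abs_of_nonneg (show 0 ≤ A ^ 2 by positivity)]
  have h1' : |c| * A ^ 2 ≤ 1 * A ^ 2 := mul_le_mul_of_nonneg_right hc (by positivity)
  calc |c| * A ^ 2 * |b| ≤ (1 * A ^ 2) * (δ * A) :=
        mul_le_mul h1' hb (abs_nonneg _) (by positivity)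
    _ = δ * A ^ 3 := by ring

/-- The terms of degree at least eight. -/
lemma R_bound (x y A δ D : ℝ) (L : List (ℤ × ℕ × ℕ)) (h0 : 0 < δ) (h1 : δ ≤ 1 / 100) (hA0 : 0 ≤ A)
    (hx2 : x ^ 2 ≤ 4 * A) (hy2 : y ^ 2 ≤ 4 * A) (hA : A ≤ δ ^ 2) (hD : 0 < D)
    (hL : (sumAbs L : ℝ) ≤ D) (hmin : minDeg 8 L = true) :
    |evL x y L / D| ≤ 3 * (δ * A ^ 3) := by
  have hsq := Real.sqrt_nonneg (4 * A)
  have hs2 : Real.sqrt (4 * A) ^ 2 = 4 * A := Real.sq_sqrt (by positivity)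
  set s := Real.sqrt (4 * A) with hsdef
  have hxs : |x| ≤ s := Real.abs_le_sqrt hx2
  have hys : |y| ≤ s := Real.abs_le_sqrt hy2
  have hs1 : s ≤ 1 := by
    have : s ^ 2 ≤ 1 ^ 2 := by
      rw [hs2]
      have h3 : δ ^ 2 ≤ (1 / 100) ^ 2 := pow_le_pow_left₀ h0.le h1 2
      norm_num at h3 ⊢
      linarith
    exact (sq_le_sq₀ hsq (by norm_num)).mp this
  have hev := evL_bound x y s hxs hys hs1 8 L hmin
  have hs8 : s ^ 8 = 256 * A ^ 4 := by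
    have : s ^ 8 = (s ^ 2) ^ 4 := by ring
    rw [this, hs2]; ring
  have hA4 : A ^ 4 ≤ δ ^ 2 * A ^ 3 := by
    have : A ^ 4 = A * A ^ 3 := by ring
    rw [this]
    exact mul_le_mul_of_nonneg_right hA (by positivity)
  rw [abs_div, abs_of_pos hD, div_le_iff₀ hD]
  have h5 : (sumAbs L : ℝ) * s ^ 8 ≤ D * s ^ 8 :=
    mul_le_mul_of_nonneg_right hL (by positivity)
  have h6 : s ^ 8 ≤ 3 * (δ * A ^ 3) := by
    rw [hs8]
    have h10 : δ ^ 2 * A ^ 3 ≤ (1 / 100) * (δ * A ^ 3) := by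
      have e1 : δ ^ 2 * A ^ 3 = δ * (δ * A ^ 3) := by ring
      rw [e1]
      exact mul_le_mul_of_nonneg_right h1 (by positivity)
    have h9 : 0 ≤ δ * A ^ 3 := by positivity
    linarith
  calc |evL x y L| ≤ (sumAbs L : ℝ) * s ^ 8 := hev
    _ ≤ D * s ^ 8 := h5
    _ ≤ D * (3 * (δ * A ^ 3)) := mul_le_mul_of_nonneg_left h6 hD.le
    _ = 3 * (δ * A ^ 3) * D := by ring

/-- The core of the series bound. -/
theorem series_core (m0 m1 m2 : ℕ) (hm0 : m0 ≤ 4) (hm1 : m1 ≤ 4) (hm2 : m2 ≤ 4)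
    (x y z : ℝ) (hz : x + y + z = 0) (δ : ℝ) (h0 : 0 < δ) (h1 : δ ≤ 1 / 100)
    (hA : (x ^ 2 + y ^ 2 + z ^ 2) / 6 ≤ δ ^ 2)
    (r0 r1 r2 : ℝ) (hr0 : 0 ≤ r0) (hr1 : 0 ≤ r1) (hr2 : 0 ≤ r2)
    (hr0' : r0 ^ 8 = 1 + x) (hr1' : r1 ^ 8 = 1 + y) (hr2' : r2 ^ 8 = 1 + z)
    (S c D : ℝ) (L : List (ℤ × ℕ × ℕ)) (hD : 0 < D)
    (hid : (1 / 6) * (Qk m0 x * Qk m1 y * Qk m2 z + Qk m0 x * Qk m2 y * Qk m1 z
        + Qk m1 x * Qk m0 y * Qk m2 z + Qk m1 x * Qk m2 y * Qk m0 z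
        + Qk m2 x * Qk m0 y * Qk m1 z + Qk m2 x * Qk m1 y * Qk m0 z)
      = S + c * ((x ^ 2 + y ^ 2 + z ^ 2) / 6) ^ 2 * ((x ^ 3 + y ^ 3 + z ^ 3) / 6)
        + evL x y L / D)
    (hc : |c| ≤ 1) (hL : (sumAbs L : ℝ) ≤ D) (hmin : minDeg 8 L = true) :
    |(1 / 6) * (r0 ^ m0 * r1 ^ m1 * r2 ^ m2 + r0 ^ m0 * r1 ^ m2 * r2 ^ m1
        + r0 ^ m1 * r1 ^ m0 * r2 ^ m2 + r0 ^ m1 * r1 ^ m2 * r2 ^ m0
        + r0 ^ m2 * r1 ^ m0 * r2 ^ m1 + r0 ^ m2 * r1 ^ m1 * r2 ^ m0) - S|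
      ≤ 64 * δ * ((x ^ 2 + y ^ 2 + z ^ 2) / 6) ^ 3 := by
  have hA0 : 0 ≤ (x ^ 2 + y ^ 2 + z ^ 2) / 6 := by positivity
  have hx2 : x ^ 2 ≤ 4 * ((x ^ 2 + y ^ 2 + z ^ 2) / 6) := coord_sq_le x y z hz
  have hy2 : y ^ 2 ≤ 4 * ((x ^ 2 + y ^ 2 + z ^ 2) / 6) := by
    have := coord_sq_le y x z (by linarith)
    linarith
  have hz2 : z ^ 2 ≤ 4 * ((x ^ 2 + y ^ 2 + z ^ 2) / 6) := by
    have := coord_sq_le z x y (by linarith)
    linarith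
  have hb2 := b_sq_le x y z hz
  have k := key_bound x y z δ _ r0 r1 r2 h0 h1 hA0 hx2 hy2 hz2 hA hr0 hr1 hr2 hr0' hr1' hr2'
  rw [show 64 * δ * ((x ^ 2 + y ^ 2 + z ^ 2) / 6) ^ 3 = 64 * (δ * ((x ^ 2 + y ^ 2 + z ^ 2) / 6) ^ 3)
    by ring]
  refine final_assemble _ _ _ _ _ _ _ _ _ _ _ _ _ _ S _ (k m0 m1 m2 hm0 hm1 hm2)
    (k m0 m2 m1 hm0 hm2 hm1) (k m1 m0 m2 hm1 hm0 hm2) (k m1 m2 m0 hm1 hm2 hm0)
    (k m2 m0 m1 hm2 hm0 hm1) (k m2 m1 m0 hm2 hm1 hm0)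
    (cb_bound c _ _ δ h0 hA0 hA hb2 hc) (R_bound x y _ δ D L h0 h1 hA0 hx2 hy2 hA hD hL hmin) ?_
  rw [hid]
  ring

end Vale.Agent.P154H.SerCore
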